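import Vale.Agent.Lib.P064k.Uni

/-!
The bound of the first question of the problem for `log n / n ≤ p_E ≤ n^{-1 + c / log log n}`.
-/

namespace Vale.Agent.Lib.P064k

open Finset SimpleGraph Vale.Agent.Lib.P064
open scoped Classical Nat

set_option linter.unusedSectionVars false
set_option linter.unusedVariables false

universe v

variable {V : Type v} [Fintype V] {n : ℕ} {H : SimpleGraph V}

/-- The infimum defining `p_E` is attained. -/
lemma pExp_mem (hV : Fintype.card V ≤ n) :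
    0 ≤ pExp n H ∧ pExp n H ≤ 1 ∧ ∀ F : H.Subgraph, 1 / 2 ≤ expCopies n (pExp n H) F.coe := by
  have hne := pExp_set_nonempty (H := H) hV
  have hcl : IsClosed {p : ℝ | 0 ≤ p ∧ p ≤ 1 ∧ ∀ F : H.Subgraph, 1 / 2 ≤ expCopies n p F.coe} := by
    have h1 : {p : ℝ | 0 ≤ p ∧ p ≤ 1 ∧ ∀ F : H.Subgraph, 1 / 2 ≤ expCopies n p F.coe} =
        {p : ℝ | 0 ≤ p} ∩ ({p : ℝ | p ≤ 1} ∩ ⋂ F : H.Subgraph, {p : ℝ | 1 / 2 ≤ expCopies n p F.coe}) := by
      ext p
      simp
    rw [h1]
    refine isClosed_le continuous_const continuous_id |>.inter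
      ((isClosed_le continuous_id continuous_const).inter (isClosed_iInter fun F => ?_))
    refine isClosed_le continuous_const ?_
    unfold expCopies
    exact continuous_const.mul (continuous_pow _)
  exact hcl.csInf_mem hne ⟨0, fun p hp => hp.1⟩

/-- The first question of the problem for sparse graphs. -/
theorem pCrit_uni (hn : 2 ≤ n) (hV : Fintype.card V ≤ n) (hE : 1 ≤ numEdges H) {q : ℝ}
    (hqE : pExp n H ≤ q) (hq1 : Real.log n / n ≤ q)
    (hnum : (3 * (n : ℝ) * q) ^ (2 * (Nat.log 2 (2 * (Nat.log 2 n + 1)) + 1)) < n) :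
    pCrit n H ≤ (20736 * constU) * q * Real.log n := by
  have hU0 := constU_ge
  have hU : (0 : ℝ) < constU := by linarith
  have hL : 0 < Real.log n := Real.log_pos (by exact_mod_cast (by omega : 1 < n))
  have hn0 : (0 : ℝ) < n := by
    have : 0 < n := by omega
    exact_mod_cast this
  obtain ⟨hp0, _, hp⟩ := pExp_mem (H := H) hV
  obtain ⟨hppos, hyp2⟩ := hyp_double hV hE hp0 hp
  have hqpos : 0 < q := lt_of_lt_of_le hppos hqE
  set q₁ := 3 * q with hq₁
  have hq₁0 : 0 < q₁ := by positivity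
  have hyp1 : ∀ F : H.Subgraph, 1 ≤ expCopies n q₁ F.coe := fun F =>
    (hyp2 F).trans (expCopies_mono (by positivity) (by rw [hq₁]; linarith) _)
  have hell3 : ((Nat.log 2 n + 1 : ℕ) : ℝ) ≤ 3 * Real.log n := natLog_le_realLog hn
  have hnq : ((Nat.log 2 n + 1 : ℕ) : ℝ) ≤ n * q₁ := by
    rw [div_le_iff₀ hn0] at hq1
    rw [hq₁]
    nlinarith
  set m := Nat.log 2 (2 * (Nat.log 2 n + 1)) + 1 with hm
  have hm2 : 2 * (Nat.log 2 n + 1) ≤ 2 ^ m := (Nat.lt_pow_succ_log_self (by norm_num) _).le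
  have ham : ((n : ℝ) * q₁) ^ (2 * m) < n := by
    have : (n : ℝ) * q₁ = 3 * (n : ℝ) * q := by rw [hq₁]; ring
    rw [this]
    exact hnum
  set lr : ℝ := (Nat.log 2 (numEdges H) : ℝ) + 1 with hlr
  have hlr1 : 1 ≤ lr := by
    have : (0 : ℝ) ≤ (Nat.log 2 (numEdges H) : ℝ) := by positivity
    rw [hlr]
    linarith
  have hlr2 : lr ≤ 6 * Real.log n := log_edges_le hn hV hE
  set s : ℝ := 36 * constU * q₁ with hs
  have hs0 : 0 < s := by positivity
  have hmain : pCrit n H ≤ s * (32 * lr) := by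
    by_cases hCq : constU * q₁ ≤ 1
    · refine pCrit_le_of_bound hs0 hV ?_
      intro Z _ F
      exact emb_uni (by omega) hq₁0 hV hCq hyp1 hnq hm2 ham F
    · push Not at hCq
      have hPbd : BddBelow {p : ℝ | 0 ≤ p ∧ p ≤ 1 ∧
          1 / 2 ≤ gnpProb n p (fun G => 0 < G.copyCount H)} := ⟨0, fun p hp => hp.1⟩
      have h1 : pCrit n H ≤ 1 := csInf_le hPbd ⟨zero_le_one, le_rfl, gnp_one hV⟩
      have h2 : 1 ≤ s := by
        rw [hs]
        nlinarith
      have h3 : 1 ≤ s * (32 * lr) := by nlinarith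
      linarith
  refine hmain.trans ?_
  calc s * (32 * lr) = (36 * constU * q₁ * 32) * lr := by rw [hs]; ring
    _ ≤ (36 * constU * q₁ * 32) * (6 * Real.log n) :=
        mul_le_mul_of_nonneg_left hlr2 (by positivity)
    _ = _ := by rw [hq₁]; ring

end Vale.Agent.Lib.P064k
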