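import Vale.Agent.Lib.P064k.Hub

/-!
The comparison with a loss of `(log n)^{2/3}` per edge when the expected degree is below the
logarithm of the number of vertices.
-/

namespace Vale.Agent.Lib.P064k

open Finset SimpleGraph Vale.Agent.Lib.P064
open scoped Classical Nat

set_option linter.unusedSectionVars false
set_option linter.unusedVariables false

universe u u' v

variable {V₀ : Type v} [Fintype V₀] {Z : Type u} [Fintype Z]

/-- The count of level sequences for a connected graph with a cycle: the power of the number of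
levels is at most `3^e`. -/
lemma levels_le {H : SimpleGraph V₀} {n m ell : ℕ} {q : ℝ} (hn : 0 < n) (hq : 0 < q)
    (hyp : ∀ F : H.Subgraph, 1 ≤ expCopies n q F.coe) (hell1 : 1 ≤ ell) (hm : 2 * ell ≤ 2 ^ m)
    (ham : ((n : ℝ) * q) ^ (2 * m) < n) (ha : 1 ≤ (n : ℝ) * q)
    {T : SimpleGraph Z} (hT : T.Connected) (hg0 : cyc T ≠ 0)
    (hsh : ¬ (cyc T = 1 ∧ numEdges T < m)) (hEm : (Emb T H Finset.univ).Nonempty) :
    (2 * ell - 1) ^ (2 * cyc T - 1) ≤ 3 ^ numEdges T := by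
  have hve := card_le_of_connected hT
  obtain ⟨e, he⟩ : ∃ e, e = numEdges T := ⟨_, rfl⟩
  obtain ⟨v, hv⟩ : ∃ v, v = Fintype.card Z := ⟨_, rfl⟩
  rw [← he] at hsh hve ⊢
  rw [← hv] at hve
  have hk' : (2 * ell - 1) ≤ 2 ^ m := by omega
  by_cases hg1 : cyc T = 1
  · have hme : m ≤ e := by
      by_contra h
      exact hsh ⟨hg1, by omega⟩
    rw [hg1]
    simp only [Nat.reduceMul, Nat.reduceSub, pow_one]
    calc 2 * ell - 1 ≤ 2 ^ m := hk'
      _ ≤ 2 ^ e := Nat.pow_le_pow_right (by norm_num) hme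
      _ ≤ 3 ^ e := Nat.pow_le_pow_left (by norm_num) e
  · obtain ⟨f, hf⟩ := hEm
    rcases mem_Emb.mp hf with ⟨hf1, hf2, _⟩
    obtain ⟨x, hx⟩ : ∃ x, x = cyc T - 1 := ⟨_, rfl⟩
    have hx1 : 1 ≤ x := by omega
    have hex : e = v + x := by
      have h9 : cyc T = numEdges T + 1 - Fintype.card Z := rfl
      omega
    obtain ⟨E', hE'⟩ : ∃ E', E' = (edgesF T).image (Sym2.map f) := ⟨_, rfl⟩
    have hE'c : E'.card = e := by
      rw [hE', Finset.card_image_of_injective _ (Sym2.map.injective hf1), card_edgesF, he]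
    have hE'H : ∀ e' ∈ E', e' ∈ H.edgeSet := by
      intro e' he'
      rw [hE'] at he'
      obtain ⟨e'', he'', rfl⟩ := Finset.mem_image.mp he'
      have h7 := mem_edgesF.mp he''
      induction e'' using Sym2.ind with
      | _ a b => exact hf2 a b h7
    have h1 := one_le_of_edges hq hyp E' hE'H
    rw [hE'c] at h1
    have h2 : (vertsOf E').card ≤ v := by
      have h3 : vertsOf E' ⊆ Finset.univ.image f := by
        intro y hy
        obtain ⟨e', he', hye'⟩ := mem_vertsOf.mp hy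
        rw [hE'] at he'
        obtain ⟨e'', _, rfl⟩ := Finset.mem_image.mp he'
        obtain ⟨z, _, rfl⟩ := Sym2.mem_map.mp hye'
        exact Finset.mem_image_of_mem _ (Finset.mem_univ _)
      refine (Finset.card_le_card h3).trans (Finset.card_image_le.trans ?_)
      rw [Finset.card_univ, hv]
    have hn1 : (1 : ℝ) ≤ n := by exact_mod_cast hn
    have h3 : 1 ≤ (n : ℝ) ^ v * q ^ e :=
      h1.trans (mul_le_mul_of_nonneg_right (pow_le_pow_right₀ hn1 h2) (by positivity))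
    have h4 : (n : ℝ) ^ x ≤ ((n : ℝ) * q) ^ e := by
      have e2 : ((n : ℝ) * q) ^ e = (n : ℝ) ^ x * ((n : ℝ) ^ v * q ^ e) := by
        rw [mul_pow, ← mul_assoc, ← pow_add]
        congr 2
        omega
      rw [e2]
      calc (n : ℝ) ^ x = (n : ℝ) ^ x * 1 := (mul_one _).symm
        _ ≤ _ := mul_le_mul_of_nonneg_left h3 (by positivity)
    have h5 : 2 * m * x ≤ e := by
      by_contra hlt
      push Not at hlt
      have h6 : ((n : ℝ) * q) ^ e ≤ ((n : ℝ) * q) ^ (2 * m * x) :=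
        pow_le_pow_right₀ ha hlt.le
      have h7 : ((n : ℝ) * q) ^ (2 * m * x) < (n : ℝ) ^ x := by
        rw [pow_mul]
        exact pow_lt_pow_left₀ ham (by positivity) (by omega)
      linarith
    have hcm : 2 * cyc T - 1 ≤ 3 * x := by omega
    calc (2 * ell - 1) ^ (2 * cyc T - 1) ≤ (2 * ell - 1) ^ (3 * x) :=
          Nat.pow_le_pow_right (by omega) hcm
      _ ≤ (2 ^ m) ^ (3 * x) := Nat.pow_le_pow_left hk' _
      _ = 8 ^ (m * x) := by
          rw [← pow_mul, show (8 : ℕ) = 2 ^ 3 by norm_num, ← pow_mul]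
          congr 1
          ring
      _ ≤ 9 ^ (m * x) := Nat.pow_le_pow_left (by norm_num) _
      _ = 3 ^ (2 * m * x) := by
          rw [show (9 : ℕ) = 3 ^ 2 by norm_num, ← pow_mul]
          congr 1
          ring
      _ ≤ 3 ^ e := Nat.pow_le_pow_right (by norm_num) h5

/-- The bound for a connected graph with a cycle in a host graph with a given maximum degree. -/
theorem conn_cyc {H : SimpleGraph V₀} {n m ell D : ℕ} {q : ℝ} (hn : 0 < n) (hq : 0 < q)
    (hV : Fintype.card V₀ ≤ n) (hyp : ∀ F : H.Subgraph, 1 ≤ expCopies n q F.coe)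
    (hD1 : ∀ u, (nb H u).card ≤ D) (hell1 : 1 ≤ ell) (hnt : n < 2 ^ ell) (hm : 2 * ell ≤ 2 ^ m)
    (ham : ((n : ℝ) * q) ^ (2 * m) < n) (ha : 1 ≤ (n : ℝ) * q)
    {T : SimpleGraph Z} (hT : T.Connected) (hE : 1 ≤ numEdges T) (hg0 : cyc T ≠ 0) :
    ((Emb T H Finset.univ).card : ℝ) ≤ (2 * (n : ℝ)) ^ Fintype.card Z *
      (96 * (6 * q + (D : ℝ) / n)) ^ numEdges T := by
  have hn' : (0 : ℝ) < n := by exact_mod_cast hn
  have hdiv0 : (0 : ℝ) ≤ (2 * (n : ℝ)) ^ Fintype.card Z := by positivity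
  have hDn0 : (0 : ℝ) ≤ (D : ℝ) / n := by positivity
  have hw0 : 0 ≤ 6 * q + (D : ℝ) / n := by positivity
  by_cases hEm : Emb T H Finset.univ = ∅
  · rw [hEm]
    simp only [Finset.card_empty, Nat.cast_zero]
    positivity
  have hEne := Finset.nonempty_iff_ne_empty.mpr hEm
  obtain ⟨e, he⟩ : ∃ e, e = numEdges T := ⟨_, rfl⟩
  obtain ⟨v, hv⟩ : ∃ v, v = Fintype.card Z := ⟨_, rfl⟩
  rw [← he, ← hv]
  rw [← he] at hE
  have hvn : v ≤ n := by
    obtain ⟨f, hf⟩ := hEne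
    rcases mem_Emb.mp hf with ⟨h1, _, _⟩
    have := Fintype.card_le_of_injective f h1
    omega
  -- the host
  have hUc : Fintype.card (V₀ ⊕ ULift.{v} (Fin (2 * n - Fintype.card V₀))) = 2 * n := by
    rw [Fintype.card_sum, Fintype.card_ulift, Fintype.card_fin]
    omega
  let U' : Type v := V₀ ⊕ ULift.{v} (Fin (2 * n - Fintype.card V₀))
  let ι : V₀ → U' := fun x => Sum.inl x
  have hι : Function.Injective ι := fun a b h => Sum.inl.inj h
  have hU' : Fintype.card U' = 2 * n := hUc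
  have hZU : Fintype.card Z ≤ Fintype.card U' := by rw [hU']; omega
  obtain ⟨je⟩ := Function.Embedding.nonempty_of_card_le hZU
  have hj := je.injective
  have hdesc : ((2 * n).descFactorial v : ℝ) ≤ (2 * (n : ℝ)) ^ v := by
    have : ((2 * n).descFactorial v : ℝ) ≤ ((2 * n : ℕ) : ℝ) ^ v := by
      exact_mod_cast Nat.descFactorial_le_pow _ _
    simpa using this
  by_cases hsh : cyc T = 1 ∧ numEdges T < m
  · -- short
    have h1 := emb_short hn hq hV hyp hι hU' hD1 ha ham hT hsh.1 hsh.2.le hj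
    rw [← he, ← hv] at h1
    refine h1.trans ?_
    have h2 : (3 : ℝ) ≤ 3 ^ e := by
      calc (3 : ℝ) = 3 ^ 1 := by norm_num
        _ ≤ 3 ^ e := pow_le_pow_right₀ (by norm_num) hE
    have h3 : 3 * q + (D : ℝ) / n ≤ 6 * q + (D : ℝ) / n := by linarith
    have h4 : (3 * q + (D : ℝ) / n) ^ e ≤ (6 * q + (D : ℝ) / n) ^ e :=
      pow_le_pow_left₀ (by positivity) h3 e
    have h5 : (3 : ℝ) ^ e * (6 * q + (D : ℝ) / n) ^ e ≤ (96 * (6 * q + (D : ℝ) / n)) ^ e := by
      rw [← mul_pow]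
      refine pow_le_pow_left₀ (by positivity) ?_ e
      nlinarith
    calc 3 * ((2 * n).descFactorial v : ℝ) * (3 * q + (D : ℝ) / n) ^ e
        ≤ 3 ^ e * (2 * (n : ℝ)) ^ v * (6 * q + (D : ℝ) / n) ^ e := by
          refine mul_le_mul ?_ h4 (by positivity) (by positivity)
          exact mul_le_mul h2 hdesc (by positivity) (by positivity)
      _ = (2 * (n : ℝ)) ^ v * ((3 : ℝ) ^ e * (6 * q + (D : ℝ) / n) ^ e) := by ring
      _ ≤ _ := mul_le_mul_of_nonneg_left h5 (by positivity)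
  -- the long case
  have hk : numEdges H < 2 ^ (2 * ell) := by
    calc numEdges H ≤ (Fintype.card V₀) ^ 2 := numEdges_le_sq H
      _ ≤ n ^ 2 := Nat.pow_le_pow_left hV 2
      _ < (2 ^ ell) ^ 2 := Nat.pow_lt_pow_left hnt (by norm_num)
      _ = 2 ^ (2 * ell) := by rw [← pow_mul]; congr 1; ring
  have hchain := emb_chain hn hq hV hyp hι hU' hD1 hk hj T
  obtain ⟨W, hW⟩ : ∃ W, W = imgE je (edgesF T) := ⟨_, rfl⟩
  rw [← hW, ← he, ← hv] at hchain
  have hWc : W.card = e := by rw [hW, card_imgE hj, card_edgesF, he]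
  have hCh : Ch (2 * ell) W ≤ 32 ^ e * (2 * ell - 1) ^ (2 * cyc T - 1) := by
    have e1 : 2 * ell = (2 * ell - 1) + 1 := by omega
    rw [e1]
    simp only [Nat.add_sub_cancel]
    rw [← hWc]
    refine Ch_bound (by rw [hW]; exact noDiag_imgE hj T) (by omega) ?_
    intro K hK hKM c ν h4 h5 h6
    rw [hW] at hK
    exact cm_conn hT hj hK hKM h4 h5 h6
  have hpow := levels_le hn hq hyp hell1 hm ham ha hT hg0 hsh hEne
  rw [← he] at hpow
  have hCh2 : (Ch (2 * ell) W : ℝ) ≤ 32 ^ e * 3 ^ e := by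
    have h7 : Ch (2 * ell) W ≤ 32 ^ e * 3 ^ e := hCh.trans (Nat.mul_le_mul_left _ hpow)
    exact_mod_cast h7
  calc ((Emb T H Finset.univ).card : ℝ)
      ≤ ((2 * n).descFactorial v : ℝ) * (6 * q + (D : ℝ) / n) ^ e * (Ch (2 * ell) W : ℝ) := hchain
    _ ≤ (2 * (n : ℝ)) ^ v * (6 * q + (D : ℝ) / n) ^ e * (32 ^ e * 3 ^ e) := by
        refine mul_le_mul ?_ hCh2 (by positivity) (by positivity)
        exact mul_le_mul_of_nonneg_right hdesc (by positivity)
    _ = _ := by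
        have : ((96 : ℝ) * (6 * q + (D : ℝ) / n)) ^ e = 32 ^ e * 3 ^ e * (6 * q + (D : ℝ) / n) ^ e := by
          rw [← mul_pow, ← mul_pow]
          norm_num
        rw [this]
        ring

/-- The constant of this part. -/
noncomputable def constH : ℝ := 48 * constK

lemma constH_ge : (884736 : ℝ) ≤ constH := by
  unfold constH
  have := le_constK
  linarith

/-- A connected graph with `x + 1` independent cycles which embeds into `H` forces
`n^x ≤ (nq)^e`. -/
lemma pow_cyc_le {H : SimpleGraph V₀} {n : ℕ} {q : ℝ} (hn : 0 < n) (hq : 0 < q)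
    (hyp : ∀ F : H.Subgraph, 1 ≤ expCopies n q F.coe)
    {T : SimpleGraph Z} (hT : T.Connected) (hg0 : cyc T ≠ 0)
    (hEm : (Emb T H Finset.univ).Nonempty) :
    (n : ℝ) ^ (cyc T - 1) ≤ ((n : ℝ) * q) ^ numEdges T := by
  have hve := card_le_of_connected hT
  obtain ⟨e, he⟩ : ∃ e, e = numEdges T := ⟨_, rfl⟩
  obtain ⟨v, hv⟩ : ∃ v, v = Fintype.card Z := ⟨_, rfl⟩
  rw [← he] at hve ⊢
  rw [← hv] at hve
  obtain ⟨f, hf⟩ := hEm
  rcases mem_Emb.mp hf with ⟨hf1, hf2, _⟩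
  obtain ⟨x, hx⟩ : ∃ x, x = cyc T - 1 := ⟨_, rfl⟩
  rw [← hx]
  have hex : e = v + x := by
    have h9 : cyc T = numEdges T + 1 - Fintype.card Z := rfl
    omega
  obtain ⟨E', hE'⟩ : ∃ E', E' = (edgesF T).image (Sym2.map f) := ⟨_, rfl⟩
  have hE'c : E'.card = e := by
    rw [hE', Finset.card_image_of_injective _ (Sym2.map.injective hf1), card_edgesF, he]
  have hE'H : ∀ e' ∈ E', e' ∈ H.edgeSet := by
    intro e' he'
    rw [hE'] at he'
    obtain ⟨e'', he'', rfl⟩ := Finset.mem_image.mp he'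
    have h7 := mem_edgesF.mp he''
    induction e'' using Sym2.ind with
    | _ a b => exact hf2 a b h7
  have h1 := one_le_of_edges hq hyp E' hE'H
  rw [hE'c] at h1
  have h2 : (vertsOf E').card ≤ v := by
    have h3 : vertsOf E' ⊆ Finset.univ.image f := by
      intro y hy
      obtain ⟨e', he', hye'⟩ := mem_vertsOf.mp hy
      rw [hE'] at he'
      obtain ⟨e'', _, rfl⟩ := Finset.mem_image.mp he'
      obtain ⟨z, _, rfl⟩ := Sym2.mem_map.mp hye'
      exact Finset.mem_image_of_mem _ (Finset.mem_univ _)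
    refine (Finset.card_le_card h3).trans (Finset.card_image_le.trans ?_)
    rw [Finset.card_univ, hv]
  have hn1 : (1 : ℝ) ≤ n := by exact_mod_cast hn
  have h3 : 1 ≤ (n : ℝ) ^ v * q ^ e :=
    h1.trans (mul_le_mul_of_nonneg_right (pow_le_pow_right₀ hn1 h2) (by positivity))
  have e2 : ((n : ℝ) * q) ^ e = (n : ℝ) ^ x * ((n : ℝ) ^ v * q ^ e) := by
    rw [mul_pow, ← mul_assoc, ← pow_add]
    congr 2
    omega
  rw [e2]
  calc (n : ℝ) ^ x = (n : ℝ) ^ x * 1 := (mul_one _).symm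
    _ ≤ _ := mul_le_mul_of_nonneg_left h3 (by positivity)

/-- The case of high expected degree. -/
lemma small_high {H : SimpleGraph V₀} {n m ell : ℕ} {q lam : ℝ} (hn : 0 < n) (hq : 0 < q)
    (hV : Fintype.card V₀ ≤ n) (hyp : ∀ F : H.Subgraph, 1 ≤ expCopies n q F.coe)
    (hell1 : 1 ≤ ell) (hnt : n < 2 ^ ell) (hm : 2 * ell ≤ 2 ^ m)
    (hA : (n : ℝ) * q ≤ ((2 * ell : ℕ) : ℝ)) (ham : ((n : ℝ) * q) ^ (2 * m) < n)
    (ha : 1 ≤ (n : ℝ) * q) (hlam1 : 1 ≤ lam) (hlY : ((2 * ell : ℕ) : ℝ) ≤ (n : ℝ) * q * lam)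
    {T : SimpleGraph Z} (hT : T.Connected) (hE : 1 ≤ numEdges T) (hg0 : cyc T ≠ 0) :
    ((Emb T H Finset.univ).card : ℝ) ≤ (2 * (n : ℝ)) ^ Fintype.card Z *
      (constH * lam * q) ^ numEdges T := by
  have hn' : (0 : ℝ) < n := by exact_mod_cast hn
  have hell' : (ell : ℝ) ≤ ((2 * ell : ℕ) : ℝ) := by
    push_cast
    have : (0 : ℝ) ≤ ell := by positivity
    linarith
  have hdeg := deg_lt hn hq (oBound_of_hyp hq hyp) hell1 hnt hA hell'
  obtain ⟨D, hD⟩ : ∃ D, D = ⌊72 * ((2 * ell : ℕ) : ℝ)⌋₊ := ⟨_, rfl⟩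
  have hD1 : ∀ u, (nb H u).card ≤ D := fun u => by
    rw [hD]
    exact Nat.le_floor (hdeg u).le
  have hD2 : (D : ℝ) ≤ 72 * ((2 * ell : ℕ) : ℝ) := by
    rw [hD]
    exact Nat.floor_le (by positivity)
  have hlq : 0 < lam * q := by positivity
  have hDn : (D : ℝ) / n ≤ 72 * (lam * q) := by
    rw [div_le_iff₀ hn']
    calc (D : ℝ) ≤ 72 * ((n : ℝ) * q * lam) := by linarith
      _ = _ := by ring
  have h1 := conn_cyc hn hq hV hyp hD1 hell1 hnt hm ham ha hT hE hg0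
  refine h1.trans (mul_le_mul_of_nonneg_left (pow_le_pow_left₀ (by positivity) ?_ _) (by positivity))
  have hC := constH_ge
  have h6 : q ≤ lam * q := by nlinarith
  have e1 : constH * lam * q = constH * (lam * q) := by ring
  rw [e1]
  have h7 : (884736 : ℝ) * (lam * q) ≤ constH * (lam * q) :=
    mul_le_mul_of_nonneg_right hC hlq.le
  linarith

/-- The case of many cycles, or of a very long graph, and low expected degree: the spanning tree. -/
lemma small_tree {H : SimpleGraph V₀} {n : ℕ} {q lam : ℝ} (hn : 0 < n) (hq : 0 < q)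
    (hV : Fintype.card V₀ ≤ n) (hyp : ∀ F : H.Subgraph, 1 ≤ expCopies n q F.coe)
    (ha : 1 ≤ (n : ℝ) * q) (haL : ((n : ℝ) * q) ^ 2 ≤ lam)
    {T : SimpleGraph Z} (hT : T.Connected) (hE : 1 ≤ numEdges T) (hg0 : cyc T ≠ 0)
    (hnx : (n : ℝ) ^ cyc T ≤ ((n : ℝ) * q) ^ (2 * numEdges T)) :
    ((Emb T H Finset.univ).card : ℝ) ≤ (2 * (n : ℝ)) ^ Fintype.card Z *
      (constH * lam * q) ^ numEdges T := by
  have hK0 := constK_pos
  have hK1 := le_constK
  have hn' : (0 : ℝ) < n := by exact_mod_cast hn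
  have hve := card_le_of_connected hT
  have hvpos : 0 < Fintype.card Z := Fintype.card_pos_iff.mpr hT.nonempty
  obtain ⟨T', hT'le, hT'⟩ := hT.exists_isTree_le
  obtain ⟨m, hmv⟩ : ∃ m, Fintype.card Z = m + 1 := ⟨Fintype.card Z - 1, by omega⟩
  have h1 := card_emb_general hn hV hq (oBound_of_hyp hq hyp) hT'.1 hmv
  have hsub : Emb T H Finset.univ ⊆ Emb T' H Finset.univ := by
    intro f hf
    rcases mem_Emb.mp hf with ⟨h2, h3, h4⟩
    exact mem_Emb.mpr ⟨h2, fun a b hab => h3 a b (hT'le hab), h4⟩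
  have h2 : ((Emb T H Finset.univ).card : ℝ) ≤ ((Emb T' H Finset.univ).card : ℝ) := by
    exact_mod_cast Finset.card_le_card hsub
  refine h2.trans (h1.trans ?_)
  obtain ⟨e, he⟩ : ∃ e, e = numEdges T := ⟨_, rfl⟩
  rw [← he] at hE hnx ⊢
  rw [hmv]
  obtain ⟨x, hx⟩ : ∃ x, cyc T = x + 1 := ⟨cyc T - 1, by omega⟩
  rw [hx] at hnx
  have hex : e = m + 1 + x := by
    have h9 : cyc T = numEdges T + 1 - Fintype.card Z := rfl
    omega
  obtain ⟨A, hA⟩ : ∃ A, A = (n : ℝ) * q := ⟨_, rfl⟩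
  rw [← hA] at ha haL hnx
  have hA0 : 0 < A := by linarith
  have hlam0 : 0 < lam := lt_of_lt_of_le (by positivity) haL
  have hq' : q = A / n := by
    rw [hA]
    field_simp
  have hnxp : (0 : ℝ) < (n : ℝ) ^ x := by positivity
  refine le_of_mul_le_mul_right ?_ hnxp
  have e1 : (2 * (n : ℝ)) ^ (m + 1) * (constH * lam * q) ^ e * (n : ℝ) ^ x =
      2 ^ (m + 1) * constH ^ e * lam ^ e * A ^ e := by
    have e2 : (n : ℝ) ^ (m + 1) * (n : ℝ) ^ x = (n : ℝ) ^ e := by
      rw [← pow_add, hex]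
    have e3 : A ^ e = (n : ℝ) ^ e * q ^ e := by
      rw [hA, mul_pow]
    rw [e3, ← e2, mul_pow, mul_pow, mul_pow]
    ring
  have e4 : (((m : ℝ) + 1) * (constK * n * q) ^ m * (24 * n)) * (n : ℝ) ^ x =
      (((m : ℝ) + 1) * 24 * constK ^ m) * A ^ m * (n : ℝ) ^ (x + 1) := by
    have e3 : (constK * n * q) ^ m = constK ^ m * A ^ m := by
      rw [hA, ← mul_pow]
      ring_nf
    rw [e3, pow_succ]
    ring
  rw [e1, e4]
  have hCb : (((m : ℝ) + 1) * 24 * constK ^ m) ≤ 2 ^ (m + 1) * constH ^ e := by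
    have h3 : ((m : ℝ) + 1) ≤ 2 ^ (m + 1) := by
      have h4 : m + 1 ≤ 2 ^ (m + 1) := Nat.lt_two_pow_self.le
      exact_mod_cast h4
    have h4 : 24 * constK ^ m ≤ constH ^ e := by
      have h5 : constK ^ m ≤ constK ^ e :=
        pow_le_pow_right₀ (by linarith) (by omega)
      have h6 : (24 : ℝ) ≤ 48 ^ e := by
        calc (24 : ℝ) ≤ 48 ^ 1 := by norm_num
          _ ≤ 48 ^ e := pow_le_pow_right₀ (by norm_num) hE
      calc 24 * constK ^ m ≤ 48 ^ e * constK ^ e :=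
            mul_le_mul h6 h5 (by positivity) (by positivity)
        _ = constH ^ e := by
            unfold constH
            rw [mul_pow]
    calc ((m : ℝ) + 1) * 24 * constK ^ m = ((m : ℝ) + 1) * (24 * constK ^ m) := by ring
      _ ≤ _ := mul_le_mul h3 h4 (by positivity) (by positivity)
  have hAb : A ^ (m + e) ≤ lam ^ e := by
    have h3 : A ^ (m + e) ≤ A ^ (2 * e) := pow_le_pow_right₀ ha (by omega)
    rw [pow_mul] at h3
    exact h3.trans (pow_le_pow_left₀ (by positivity) haL e)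
  have hAe : A ^ m * (n : ℝ) ^ (x + 1) ≤ lam ^ e * A ^ e := by
    calc A ^ m * (n : ℝ) ^ (x + 1) ≤ A ^ m * A ^ (2 * e) :=
          mul_le_mul_of_nonneg_left hnx (by positivity)
      _ = A ^ (m + e) * A ^ e := by
          rw [← pow_add, ← pow_add]
          congr 1
          ring
      _ ≤ _ := mul_le_mul_of_nonneg_right hAb (by positivity)
  calc (((m : ℝ) + 1) * 24 * constK ^ m) * A ^ m * (n : ℝ) ^ (x + 1)
      = (((m : ℝ) + 1) * 24 * constK ^ m) * (A ^ m * (n : ℝ) ^ (x + 1)) := by ring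
    _ ≤ (2 ^ (m + 1) * constH ^ e) * (lam ^ e * A ^ e) :=
        mul_le_mul hCb hAe (by positivity) (by
          have : 0 < constH := by have := constH_ge; linarith
          positivity)
    _ = _ := by ring

/-- The case of one cycle, a short graph and low expected degree. -/
lemma small_hub {H : SimpleGraph V₀} {n : ℕ} {q lam : ℝ} (hn : 0 < n) (hq : 0 < q)
    (hV : Fintype.card V₀ ≤ n) (hyp : ∀ F : H.Subgraph, 1 ≤ expCopies n q F.coe)
    (ha : 1 ≤ (n : ℝ) * q) (haL : ((n : ℝ) * q) ^ 2 ≤ lam)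
    {T : SimpleGraph Z} (hT : T.Connected) (hE : 1 ≤ numEdges T) (hg1 : cyc T = 1)
    (hsm : ((n : ℝ) * q) ^ (2 * numEdges T) < n) :
    ((Emb T H Finset.univ).card : ℝ) ≤ (2 * (n : ℝ)) ^ Fintype.card Z *
      (constH * lam * q) ^ numEdges T := by
  have hn' : (0 : ℝ) < n := by exact_mod_cast hn
  have hve := card_le_of_connected hT
  have h1 := emb_hub hn hq hV hyp ha hT hg1 hsm
  refine h1.trans ?_
  obtain ⟨e, he⟩ : ∃ e, e = numEdges T := ⟨_, rfl⟩
  rw [← he] at hE ⊢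
  have hev : Fintype.card Z = e := by
    have h9 : cyc T = numEdges T + 1 - Fintype.card Z := rfl
    omega
  rw [hev]
  obtain ⟨A, hA⟩ : ∃ A, A = (n : ℝ) * q := ⟨_, rfl⟩
  rw [← hA] at ha haL ⊢
  have hA0 : 0 < A := by linarith
  have hlam0 : 0 < lam := lt_of_lt_of_le (by positivity) haL
  have e1 : (2 * (n : ℝ)) ^ e * (constH * lam * q) ^ e = (2 * constH * lam * A) ^ e := by
    rw [← mul_pow, hA]
    congr 1
    ring
  rw [e1]
  have h3 : (3 : ℝ) ≤ 3 ^ e := by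
    calc (3 : ℝ) = 3 ^ 1 := by norm_num
      _ ≤ 3 ^ e := pow_le_pow_right₀ (by norm_num) hE
  have e2 : (36 * A) ^ e * (12 * A) ^ (2 * e) = (5184 * A ^ 3) ^ e := by
    rw [pow_mul, ← mul_pow]
    congr 1
    ring
  have hC := constH_ge
  calc 3 * (36 * A) ^ e * (12 * A) ^ (2 * e) = 3 * (5184 * A ^ 3) ^ e := by
        rw [mul_assoc, e2]
    _ ≤ 3 ^ e * (5184 * A ^ 3) ^ e := mul_le_mul_of_nonneg_right h3 (by positivity)
    _ = (3 * (5184 * A ^ 3)) ^ e := (mul_pow _ _ _).symm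
    _ ≤ _ := by
        refine pow_le_pow_left₀ (by positivity) ?_ e
        have h4 : A ^ 3 ≤ A * lam := by
          calc A ^ 3 = A * A ^ 2 := by ring
            _ ≤ _ := mul_le_mul_of_nonneg_left haL hA0.le
        have h5 : 0 ≤ lam * A := by positivity
        calc 3 * (5184 * A ^ 3) ≤ 3 * (5184 * (A * lam)) := by linarith
          _ = 15552 * (lam * A) := by ring
          _ ≤ (2 * constH) * (lam * A) := mul_le_mul_of_nonneg_right (by linarith) h5
          _ = _ := by ring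

/-- The case of a tree. -/
lemma small_forest {H : SimpleGraph V₀} {n : ℕ} {q lam : ℝ} (hn : 0 < n) (hq : 0 < q)
    (hV : Fintype.card V₀ ≤ n) (hyp : ∀ F : H.Subgraph, 1 ≤ expCopies n q F.coe)
    (hlam1 : 1 ≤ lam)
    {T : SimpleGraph Z} (hT : T.Connected) (hE : 1 ≤ numEdges T) (hg0 : cyc T = 0) :
    ((Emb T H Finset.univ).card : ℝ) ≤ (2 * (n : ℝ)) ^ Fintype.card Z *
      (constH * lam * q) ^ numEdges T := by
  have hK0 := constK_pos
  have hn' : (0 : ℝ) < n := by exact_mod_cast hn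
  have hve := card_le_of_connected hT
  obtain ⟨e, he⟩ : ∃ e, e = numEdges T := ⟨_, rfl⟩
  rw [← he] at hE ⊢
  have hev : Fintype.card Z = e + 1 := by
    unfold cyc at hg0
    omega
  have h1 := card_emb_general hn hV hq (oBound_of_hyp hq hyp) hT (m := e) hev
  refine h1.trans ?_
  rw [hev]
  have h2 : ((e : ℝ) + 1) ≤ 2 ^ e := by
    exact_mod_cast Nat.lt_two_pow_self (n := e)
  have h3 : (24 : ℝ) ≤ 24 ^ e := by
    calc (24 : ℝ) = 24 ^ 1 := by norm_num
      _ ≤ 24 ^ e := pow_le_pow_right₀ (by norm_num) hE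
  have h4 : (24 * constK * q) ^ e ≤ (constH * lam * q) ^ e := by
    refine pow_le_pow_left₀ (by positivity) ?_ e
    have h5 : 24 * constK ≤ constH * lam := by
      unfold constH
      nlinarith
    exact mul_le_mul_of_nonneg_right h5 hq.le
  have e1 : (2 * (n : ℝ)) ^ (e + 1) * (24 * constK * q) ^ e =
      (2 * (2 ^ e * 24 ^ e)) * ((n : ℝ) * (constK * n * q) ^ e) := by
    have e2 : 24 * constK * q = 24 * (constK * q) := by ring
    rw [e2, pow_succ, mul_pow, mul_pow, mul_pow, mul_pow, mul_pow]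
    ring
  have h6 : 0 ≤ (n : ℝ) * (constK * n * q) ^ e := by positivity
  have h7 : ((e : ℝ) + 1) * 24 ≤ 2 * (2 ^ e * 24 ^ e) := by
    have := mul_le_mul h2 h3 (by norm_num) (by positivity)
    have h8 : (0 : ℝ) ≤ 2 ^ e * 24 ^ e := by positivity
    linarith
  calc ((e : ℝ) + 1) * (constK * n * q) ^ e * (24 * n)
      = (((e : ℝ) + 1) * 24) * ((n : ℝ) * (constK * n * q) ^ e) := by ring
    _ ≤ (2 * (2 ^ e * 24 ^ e)) * ((n : ℝ) * (constK * n * q) ^ e) :=
        mul_le_mul_of_nonneg_right h7 h6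
    _ = (2 * (n : ℝ)) ^ (e + 1) * (24 * constK * q) ^ e := e1.symm
    _ ≤ _ := mul_le_mul_of_nonneg_left h4 (by positivity)

/-- The bound for a connected graph with a loss of `(log n)^{2/3}` per edge. -/
theorem conn_small {H : SimpleGraph V₀} {n m ell : ℕ} {q : ℝ} (hn : 0 < n) (hq : 0 < q)
    (hV : Fintype.card V₀ ≤ n) (hyp : ∀ F : H.Subgraph, 1 ≤ expCopies n q F.coe)
    (hell1 : 1 ≤ ell) (hnt : n < 2 ^ ell) (hm : 2 * ell ≤ 2 ^ m)
    (hA : (n : ℝ) * q ≤ ((2 * ell : ℕ) : ℝ)) (hbig : (((2 * ell : ℕ) : ℝ)) ^ (2 * m) < n)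
    {T : SimpleGraph Z} (hT : T.Connected) (hE : 1 ≤ numEdges T) :
    ((Emb T H Finset.univ).card : ℝ) ≤ (2 * (n : ℝ)) ^ Fintype.card Z *
      (constH * ((2 * ell : ℕ) : ℝ) ^ ((2 : ℝ) / 3) * q) ^ numEdges T := by
  have hn' : (0 : ℝ) < n := by exact_mod_cast hn
  have hn1 : (1 : ℝ) ≤ n := by exact_mod_cast hn
  have hC0 : 0 < constH := by have := constH_ge; linarith
  have hY1 : (1 : ℝ) ≤ ((2 * ell : ℕ) : ℝ) := by
    have : 1 ≤ 2 * ell := by omega
    exact_mod_cast this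
  obtain ⟨Y, hY⟩ : ∃ Y : ℝ, Y = ((2 * ell : ℕ) : ℝ) := ⟨_, rfl⟩
  rw [← hY] at hY1
  obtain ⟨lam, hlam⟩ : ∃ lam : ℝ, lam = Y ^ ((2 : ℝ) / 3) := ⟨_, rfl⟩
  have hgoal : ((Emb T H Finset.univ).card : ℝ) ≤ (2 * (n : ℝ)) ^ Fintype.card Z *
      (constH * lam * q) ^ numEdges T := by
    have hlam1 : 1 ≤ lam := by
      rw [hlam]
      exact Real.one_le_rpow hY1 (by norm_num)
    have hlam3 : lam ^ 3 = Y ^ 2 := by
      rw [hlam, ← Real.rpow_natCast, ← Real.rpow_mul (by linarith)]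
      norm_num
    by_cases hEm : Emb T H Finset.univ = ∅
    · rw [hEm]
      simp only [Finset.card_empty, Nat.cast_zero]
      positivity
    have hEne := Finset.nonempty_iff_ne_empty.mpr hEm
    by_cases hg0 : cyc T = 0
    · exact small_forest hn hq hV hyp hlam1 hT hE hg0
    obtain ⟨a, ha'⟩ : ∃ a, a = (n : ℝ) * q := ⟨_, rfl⟩
    have hcy := pow_cyc_le hn hq hyp hT hg0 hEne
    have hA0 : 0 < a := by
      rw [ha']
      positivity
    have ha : 1 ≤ (n : ℝ) * q := by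
      rw [← ha'] at hcy ⊢
      by_contra hlt
      push Not at hlt
      have h1 : a ^ numEdges T < 1 := pow_lt_one₀ hA0.le hlt (by omega)
      have h2 : (1 : ℝ) ≤ (n : ℝ) ^ (cyc T - 1) := one_le_pow₀ hn1
      linarith
    have hAY : (n : ℝ) * q ≤ ((2 * ell : ℕ) : ℝ) := hA
    have ham : ((n : ℝ) * q) ^ (2 * m) < n :=
      lt_of_le_of_lt (pow_le_pow_left₀ (by positivity) hAY _) hbig
    by_cases hal : lam ≤ ((n : ℝ) * q) ^ 2
    · refine small_high hn hq hV hyp hell1 hnt hm hA ham ha hlam1 ?_ hT hE hg0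
      rw [← hY, ← ha']
      rw [← ha'] at hal
      have h1 : Y ^ 2 ≤ (a * lam) ^ 2 := by
        rw [← hlam3, mul_pow]
        calc lam ^ 3 = lam * lam ^ 2 := by ring
          _ ≤ _ := mul_le_mul_of_nonneg_right hal (by positivity)
      exact (pow_le_pow_iff_left₀ (by linarith) (by positivity) (by norm_num)).mp h1
    · push Not at hal
      by_cases hnx : (n : ℝ) ^ cyc T ≤ ((n : ℝ) * q) ^ (2 * numEdges T)
      · exact small_tree hn hq hV hyp ha hal.le hT hE hg0 hnx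
      · have hc1 : cyc T = 1 := by
          by_contra hne
          apply hnx
          have h2 : cyc T ≤ 2 * (cyc T - 1) := by omega
          calc (n : ℝ) ^ cyc T ≤ (n : ℝ) ^ (2 * (cyc T - 1)) := pow_le_pow_right₀ hn1 h2
            _ = ((n : ℝ) ^ (cyc T - 1)) ^ 2 := by rw [mul_comm, pow_mul]
            _ ≤ (((n : ℝ) * q) ^ numEdges T) ^ 2 := pow_le_pow_left₀ (by positivity) hcy 2
            _ = _ := by rw [mul_comm 2, pow_mul]
        rw [hc1, pow_one] at hnx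
        push Not at hnx
        exact small_hub hn hq hV hyp ha hal.le hT hE hc1 hnx
  rw [hlam, hY] at hgoal
  exact hgoal

/-- The comparison with a loss of `(log n)^{2/3}` per edge. -/
theorem emb_small {H : SimpleGraph V₀} {n m ell : ℕ} {q : ℝ} (hn : 0 < n) (hq : 0 < q)
    (hV : Fintype.card V₀ ≤ n) (hyp : ∀ F : H.Subgraph, 1 ≤ expCopies n q F.coe)
    (hell1 : 1 ≤ ell) (hnt : n < 2 ^ ell) (hm : 2 * ell ≤ 2 ^ m)
    (hA : (n : ℝ) * q ≤ ((2 * ell : ℕ) : ℝ)) (hbig : (((2 * ell : ℕ) : ℝ)) ^ (2 * m) < n)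
    (hCq : constH * ((2 * ell : ℕ) : ℝ) ^ ((2 : ℝ) / 3) * q ≤ 1) (F : SimpleGraph Z) :
    ((Emb F H Finset.univ).card : ℝ) ≤ (n.descFactorial (Fintype.card Z) : ℝ) *
      (36 * (constH * ((2 * ell : ℕ) : ℝ) ^ ((2 : ℝ) / 3) * q)) ^ numEdges F := by
  have hC0 : 0 < constH := by have := constH_ge; linarith
  obtain ⟨s, hs⟩ : ∃ s : ℝ, s = constH * ((2 * ell : ℕ) : ℝ) ^ ((2 : ℝ) / 3) * q := ⟨_, rfl⟩
  rw [← hs] at hCq ⊢
  have hs0 : 0 ≤ s := by
    rw [hs]
    positivity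
  refine emb_strip (by linarith) hV (fun Z _ F hno => ?_) (Fintype.card Z) Z F rfl
  have h1 := comps_bound hs0 hCq
    (fun Z' _ T hT hE => hs ▸ conn_small hn hq hV hyp hell1 hnt hm hA hbig hT hE) F hno
  obtain ⟨e, he⟩ : ∃ e, e = numEdges F := ⟨_, rfl⟩
  obtain ⟨v, hv⟩ : ∃ v, v = Fintype.card Z := ⟨_, rfl⟩
  rw [← he, ← hv] at h1 ⊢
  have hve : v ≤ 2 * e := by
    rw [hv, he]
    exact card_le_two_edges F hno
  by_cases hvn : v ≤ n
  swap
  · have h0 : Emb F H Finset.univ = ∅ := by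
      refine Finset.eq_empty_of_forall_notMem fun f hf => ?_
      rcases mem_Emb.mp hf with ⟨h2, _, _⟩
      have := Fintype.card_le_of_injective f h2
      omega
    rw [h0]
    simp only [Finset.card_empty, Nat.cast_zero]
    positivity
  have h2 := pow_le_three_desc hvn
  have hdn : (0 : ℝ) ≤ (n.descFactorial v : ℝ) := by positivity
  have h6v : (6 : ℝ) ^ v ≤ 36 ^ e := by
    have : (36 : ℝ) ^ e = 6 ^ (2 * e) := by
      rw [pow_mul]; norm_num
    rw [this]
    exact pow_le_pow_right₀ (by norm_num) hve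
  have h3 : (2 * (n : ℝ)) ^ v ≤ 36 ^ e * (n.descFactorial v : ℝ) := by
    calc (2 * (n : ℝ)) ^ v = 2 ^ v * (n : ℝ) ^ v := mul_pow _ _ _
      _ ≤ 2 ^ v * (3 ^ v * (n.descFactorial v : ℝ)) := mul_le_mul_of_nonneg_left h2 (by positivity)
      _ = 6 ^ v * (n.descFactorial v : ℝ) := by rw [← mul_assoc, ← mul_pow]; norm_num
      _ ≤ _ := mul_le_mul_of_nonneg_right h6v hdn
  calc ((Emb F H Finset.univ).card : ℝ) ≤ (2 * (n : ℝ)) ^ v * s ^ e := h1
    _ ≤ (36 ^ e * (n.descFactorial v : ℝ)) * s ^ e :=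
        mul_le_mul_of_nonneg_right h3 (by positivity)
    _ = _ := by
        rw [mul_pow]
        ring

end Vale.Agent.Lib.P064k
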