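import Vale.Agent.Lib.P064k.Cycle

/-!
A comparison with a universal constant, for `log n ≤ n q ≤ n^{1/(C log log n)}`.
-/

namespace Vale.Agent.Lib.P064k

open Finset SimpleGraph Vale.Agent.Lib.P064
open scoped Classical Nat

set_option linter.unusedSectionVars false
set_option linter.unusedVariables false

universe u u' v

variable {U : Type u'} [Fintype U] {V₀ : Type v} [Fintype V₀] {Z : Type u} [Fintype Z]

/-- Degrees in the image. -/
lemma at_img_le {H : SimpleGraph V₀} {D : ℕ} {ι : V₀ → U} (hι : Function.Injective ι)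
    (hD : ∀ u, (nb H u).card ≤ D) (x : U) : (at' (imgE ι (edgesF H)) x).card ≤ D := by
  by_cases hx : ∃ u, ι u = x
  · obtain ⟨u, rfl⟩ := hx
    refine le_trans ?_ (hD u)
    have hsub : at' (imgE ι (edgesF H)) (ι u) ⊆ (nb H u).image (fun w => s(ι u, ι w)) := by
      intro e he
      rcases mem_at'.mp he with ⟨h1, h2⟩
      obtain ⟨e', he', rfl⟩ := Finset.mem_image.mp h1
      have he'' := mem_edgesF.mp he'
      induction e' using Sym2.ind with
      | _ a b =>
        have hab : H.Adj a b := he''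
        simp only [Sym2.map_mk] at h2 ⊢
        rcases Sym2.mem_iff.mp h2 with h3 | h3
        · have h4 := hι h3
          subst h4
          exact Finset.mem_image.mpr ⟨b, mem_nb.mpr hab, by simp⟩
        · have h4 := hι h3
          subst h4
          exact Finset.mem_image.mpr ⟨a, mem_nb.mpr hab.symm, Sym2.eq_swap⟩
    exact (Finset.card_le_card hsub).trans Finset.card_image_le
  · have h0 : at' (imgE ι (edgesF H)) x = ∅ := by
      refine Finset.eq_empty_of_forall_notMem fun e he => ?_
      rcases mem_at'.mp he with ⟨h1, h2⟩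
      obtain ⟨e', _, rfl⟩ := Finset.mem_image.mp h1
      obtain ⟨y, hy, rfl⟩ := Sym2.mem_map.mp h2
      exact hx ⟨y, rfl⟩
    rw [h0]
    simp

/-- Vertices of the image. -/
lemma vtx_img_le {H : SimpleGraph V₀} {n : ℕ} (hV : Fintype.card V₀ ≤ n) {ι : V₀ → U} :
    (vtx (imgE ι (edgesF H))).card ≤ n := by
  have hsub : vtx (imgE ι (edgesF H)) ⊆ Finset.univ.image ι := by
    intro x hx
    obtain ⟨e, he, hxe⟩ := mem_vtx.mp hx
    obtain ⟨e', _, rfl⟩ := Finset.mem_image.mp he
    obtain ⟨y, _, rfl⟩ := Sym2.mem_map.mp hxe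
    exact Finset.mem_image_of_mem _ (Finset.mem_univ _)
  refine (Finset.card_le_card hsub).trans (Finset.card_image_le.trans ?_)
  rw [Finset.card_univ]
  exact hV

/-- The self-count form of the hypothesis. -/
lemma self_count {H : SimpleGraph V₀} {n : ℕ} {q : ℝ} (hq : 0 < q) (hV : Fintype.card V₀ ≤ n)
    (hyp : ∀ F : H.Subgraph, 1 ≤ expCopies n q F.coe) {ι : V₀ → U} (hι : Function.Injective ι)
    (hN : n ≤ Fintype.card U) {F : Finset (Sym2 U)} (hF : F ⊆ imgE ι (edgesF H)) :
    (mm F F : ℝ) ≤ ((Fintype.card U)! : ℝ) * q ^ F.card := by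
  have h := HS_of_hyp hq hV hyp hι hN (G := F) (F := F) (fun e he => by
    obtain ⟨e', he', rfl⟩ := Finset.mem_image.mp (hF he)
    exact ⟨e', mem_edgesF.mp he', rfl⟩) (Finset.Subset.refl F)
  rw [Nat.choose_self] at h
  simpa using h

/-- The count of a short connected graph with exactly one independent cycle. -/
theorem emb_short {H : SimpleGraph V₀} {n D m : ℕ} {q : ℝ} (hn : 0 < n) (hq : 0 < q)
    (hV : Fintype.card V₀ ≤ n) (hyp : ∀ F : H.Subgraph, 1 ≤ expCopies n q F.coe)
    {ι : V₀ → U} (hι : Function.Injective ι) (hU : Fintype.card U = 2 * n)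
    (hD : ∀ u, (nb H u).card ≤ D) (ha : 1 ≤ (n : ℝ) * q) (ham : ((n : ℝ) * q) ^ (2 * m) < n)
    {T : SimpleGraph Z} (hT : T.Connected) (hg : cyc T = 1) (he : numEdges T ≤ m) {j : Z → U}
    (hj : Function.Injective j) :
    ((Emb T H Finset.univ).card : ℝ) ≤ 3 * ((2 * n).descFactorial (Fintype.card Z) : ℝ) *
      (3 * q + (D : ℝ) / n) ^ numEdges T := by
  set E := imgE ι (edgesF H) with hE
  set W := imgE j (edgesF T) with hW
  have hWc : W.card = numEdges T := by rw [hW, card_imgE hj, card_edgesF]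
  set e := numEdges T with he'
  have hdeg : ∀ x, (at' E x).card ≤ D := at_img_le hι hD
  have hvE : (vtx E).card ≤ n := vtx_img_le hV
  have hZU : Fintype.card Z ≤ Fintype.card U := Fintype.card_le_of_injective j hj
  have hp := pend hn hdeg hvE (by omega) W.card W rfl (noDiag_imgE hj T)
  have hc : (0 : ℝ) ≤ (D : ℝ) / n := by positivity
  have hNf : (0 : ℝ) < ((2 * n)! : ℝ) := by exact_mod_cast Nat.factorial_pos _
  have hterm : ∀ K ∈ W.powerset.filter IsM,
      ((D : ℝ) / n) ^ (W.card - K.card) * (mm E K : ℝ) ≤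
        (3 * ((2 * n)! : ℝ)) * ((3 * q) ^ K.card * ((D : ℝ) / n) ^ (W.card - K.card)) := by
    intro K hK
    rcases Finset.mem_filter.mp hK with ⟨h1, h2⟩
    have hKW := Finset.mem_powerset.mp h1
    have hbd : (mm E K : ℝ) ≤ 3 * ((2 * n)! : ℝ) * (3 * q) ^ K.card := by
      by_cases hKne : K.Nonempty
      · have hcyc := isCyc_of_uni hT hg hj hKW h2 hKne
        have hKm : K.card ≤ m := by
          have := Finset.card_le_card hKW
          omega
        have h3 := cycle_count hq hcyc
          (fun F hF => self_count hq hV hyp hι (by omega) hF)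
          (fun σ hσ σ' hσ' hne => disjoint_of_ne hn hq hyp hι hcyc hKm ha ham hσ hσ' hne)
        rw [hU] at h3
        set c := K.card with hc'
        have hcN : c ≤ 2 * n := by
          have h4 : (vtx K).card ≤ Fintype.card U := Finset.card_le_univ _
          rw [hcyc.card, hU] at h4
          exact h4
        have h4 := pow_le_three_desc hcN
        have h5 : (((2 * n - c)! : ℕ) : ℝ) * ((2 * n).descFactorial c : ℝ) = ((2 * n)! : ℝ) := by
          exact_mod_cast Nat.factorial_mul_descFactorial hcN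
        have hf0 : (0 : ℝ) ≤ ((2 * n - c)! : ℝ) := by positivity
        refine h3.trans ?_
        push_cast at h4 ⊢
        calc ((2 * n - c)! : ℝ) * (3 * ((2 * (n : ℝ)) * q) ^ c)
            = 3 * (((2 * n - c)! : ℝ) * (2 * (n : ℝ)) ^ c) * q ^ c := by
              rw [mul_pow]; ring
          _ ≤ 3 * (((2 * n - c)! : ℝ) * (3 ^ c * ((2 * n).descFactorial c : ℝ))) * q ^ c := by
              refine mul_le_mul_of_nonneg_right ?_ (by positivity)
              refine mul_le_mul_of_nonneg_left ?_ (by norm_num)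
              exact mul_le_mul_of_nonneg_left h4 hf0
          _ = 3 * 3 ^ c * (((2 * n - c)! : ℝ) * ((2 * n).descFactorial c : ℝ)) * q ^ c := by ring
          _ = _ := by rw [h5, mul_pow]; ring
      · rw [Finset.not_nonempty_iff_eq_empty] at hKne
        rw [hKne, mm_empty_right, hU]
        simp only [Finset.card_empty, pow_zero, mul_one]
        have : (0 : ℝ) ≤ ((2 * n)! : ℝ) := hNf.le
        linarith
    calc ((D : ℝ) / n) ^ (W.card - K.card) * (mm E K : ℝ)
        ≤ ((D : ℝ) / n) ^ (W.card - K.card) * (3 * ((2 * n)! : ℝ) * (3 * q) ^ K.card) :=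
          mul_le_mul_of_nonneg_left hbd (by positivity)
      _ = _ := by ring
  have hsum : (mm E W : ℝ) ≤ (3 * ((2 * n)! : ℝ)) * (3 * q + (D : ℝ) / n) ^ W.card := by
    refine hp.trans ((Finset.sum_le_sum hterm).trans ?_)
    rw [← Finset.mul_sum]
    refine mul_le_mul_of_nonneg_left ?_ (by positivity)
    rw [← Finset.sum_pow_mul_eq_add_pow]
    exact Finset.sum_le_sum_of_subset_of_nonneg (Finset.filter_subset _ _)
      (fun K _ _ => by positivity)
  rw [hWc] at hsum
  have h1 := emb_mul_le_mm (T := T) (H := H) (E := E) (W := W) hι hj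
    (by
      intro e he
      obtain ⟨e', he', rfl⟩ := Finset.mem_image.mp he
      have he'' := mem_edgesF.mp he'
      induction e' using Sym2.ind with
      | _ a b => exact ⟨a, b, he'', rfl⟩)
    (by
      intro a b hab
      exact Finset.mem_image.mpr ⟨s(a, b), mem_edgesF.mpr hab, rfl⟩)
  rw [hU] at h1 hZU
  have h3 := Nat.factorial_mul_descFactorial hZU
  set f := ((2 * n - Fintype.card Z)! : ℝ) with hf
  have hf0 : 0 < f := by
    rw [hf]
    exact_mod_cast Nat.factorial_pos _
  have h3' : ((2 * n)! : ℝ) = f * ((2 * n).descFactorial (Fintype.card Z) : ℝ) := by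
    rw [hf]
    exact_mod_cast h3.symm
  have h4 : ((Emb T H Finset.univ).card : ℝ) * f ≤ (mm E W : ℝ) := by
    rw [hf]
    exact_mod_cast h1
  have h5 : ((Emb T H Finset.univ).card : ℝ) * f ≤ (3 * ((2 * n).descFactorial (Fintype.card Z) : ℝ) *
      (3 * q + (D : ℝ) / n) ^ e) * f := by
    calc _ ≤ (mm E W : ℝ) := h4
      _ ≤ _ := hsum
      _ = _ := by rw [h3']; ring
  exact le_of_mul_le_mul_right h5 hf0

/-- The universal constant. -/
noncomputable def constU : ℝ := 24 * constK

lemma constU_ge : (7488 : ℝ) ≤ constU := by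
  unfold constU
  have := le_constK
  linarith

/-- The bound for a connected graph with a given number of edges. -/
theorem conn_uni {H : SimpleGraph V₀} {n m : ℕ} {q : ℝ} (hn : 0 < n) (hq : 0 < q)
    (hV : Fintype.card V₀ ≤ n) (hyp : ∀ F : H.Subgraph, 1 ≤ expCopies n q F.coe)
    (hnq : ((Nat.log 2 n + 1 : ℕ) : ℝ) ≤ n * q) (hm : 2 * (Nat.log 2 n + 1) ≤ 2 ^ m)
    (ham : ((n : ℝ) * q) ^ (2 * m) < n)
    {T : SimpleGraph Z} (hT : T.Connected) (hE : 1 ≤ numEdges T) :
    ((Emb T H Finset.univ).card : ℝ) ≤ (2 * (n : ℝ)) ^ Fintype.card Z *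
      (constU * q) ^ numEdges T := by
  have hU0 := constU_ge
  have hn' : (0 : ℝ) < n := by exact_mod_cast hn
  have hdiv0 : (0 : ℝ) ≤ (2 * (n : ℝ)) ^ Fintype.card Z := by positivity
  set ell := Nat.log 2 n + 1 with hell
  have hell1 : 1 ≤ ell := by omega
  have ha : 1 ≤ (n : ℝ) * q := by
    have : (1 : ℝ) ≤ (ell : ℝ) := by exact_mod_cast hell1
    linarith
  set e := numEdges T with he
  set v := Fintype.card Z with hv
  by_cases hvn : v ≤ n
  swap
  · have h0 : Emb T H Finset.univ = ∅ := by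
      refine Finset.eq_empty_of_forall_notMem fun f hf => ?_
      rcases mem_Emb.mp hf with ⟨h1, _, _⟩
      have := Fintype.card_le_of_injective f h1
      omega
    rw [h0]
    simp only [Finset.card_empty, Nat.cast_zero]
    positivity
  have hve := card_le_of_connected hT
  by_cases hg0 : cyc T = 0
  · -- a tree
    have hev : v = e + 1 := by
      unfold cyc at hg0
      omega
    have hK0 := constK_pos
    have h1 := card_emb_general hn hV hq (oBound_of_hyp hq hyp) hT (m := e) hev
    refine h1.trans ?_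
    rw [hev]
    have h2 : ((e : ℝ) + 1) ≤ 2 ^ e := by
      exact_mod_cast Nat.lt_two_pow_self (n := e)
    have h3 : (24 : ℝ) ≤ 24 ^ e := by
      calc (24 : ℝ) = 24 ^ 1 := by norm_num
        _ ≤ 24 ^ e := pow_le_pow_right₀ (by norm_num) hE
    have e1 : (2 * (n : ℝ)) ^ (e + 1) * (constU * q) ^ e =
        (2 * (2 ^ e * 24 ^ e)) * ((n : ℝ) * (constK * n * q) ^ e) := by
      have e2 : constU * q = 24 * (constK * q) := by
        unfold constU
        ring
      rw [e2, pow_succ, mul_pow, mul_pow, mul_pow, mul_pow, mul_pow]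
      ring
    rw [e1]
    have h4 : 0 ≤ (n : ℝ) * (constK * n * q) ^ e := by positivity
    have h5 : ((e : ℝ) + 1) * 24 ≤ 2 * (2 ^ e * 24 ^ e) := by
      have := mul_le_mul h2 h3 (by norm_num) (by positivity)
      have h6 : (0 : ℝ) ≤ 2 ^ e * 24 ^ e := by positivity
      linarith
    calc ((e : ℝ) + 1) * (constK * n * q) ^ e * (24 * n)
        = (((e : ℝ) + 1) * 24) * ((n : ℝ) * (constK * n * q) ^ e) := by ring
      _ ≤ _ := mul_le_mul_of_nonneg_right h5 h4
  -- the host
  have hUc : Fintype.card (V₀ ⊕ ULift.{v} (Fin (2 * n - Fintype.card V₀))) = 2 * n := by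
    rw [Fintype.card_sum, Fintype.card_ulift, Fintype.card_fin]
    omega
  let U' : Type v := V₀ ⊕ ULift.{v} (Fin (2 * n - Fintype.card V₀))
  let ι : V₀ → U' := fun x => Sum.inl x
  have hι : Function.Injective ι := fun a b h => Sum.inl.inj h
  have hU' : Fintype.card U' = 2 * n := hUc
  have hZU : Fintype.card Z ≤ Fintype.card U' := by rw [hU']; omega
  obtain ⟨je⟩ := Function.Embedding.nonempty_of_card_le hZU
  have hj := je.injective
  -- degrees
  have hnt : n < 2 ^ ell := Nat.lt_pow_succ_log_self (by norm_num) n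
  have hdeg := deg_lt hn hq (oBound_of_hyp hq hyp) hell1 hnt le_rfl hnq
  set D := ⌊72 * ((n : ℝ) * q)⌋₊ with hD
  have hD1 : ∀ u, (nb H u).card ≤ D := fun u => Nat.le_floor (hdeg u).le
  have hD2 : (D : ℝ) ≤ 72 * ((n : ℝ) * q) := Nat.floor_le (by positivity)
  have hDn : (D : ℝ) / n ≤ 72 * q := by
    rw [div_le_iff₀ hn']
    linarith
  have hdesc : ((2 * n).descFactorial v : ℝ) ≤ (2 * (n : ℝ)) ^ v := by
    have : ((2 * n).descFactorial v : ℝ) ≤ ((2 * n : ℕ) : ℝ) ^ v := by
      exact_mod_cast Nat.descFactorial_le_pow _ _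
    simpa using this
  by_cases hsh : cyc T = 1 ∧ e < m
  · -- short
    have h1 := emb_short hn hq hV hyp hι hU' hD1 ha ham hT hsh.1 hsh.2.le hj
    refine h1.trans ?_
    have h2 : (3 : ℝ) ≤ 3 ^ e := by
      calc (3 : ℝ) = 3 ^ 1 := by norm_num
        _ ≤ 3 ^ e := pow_le_pow_right₀ (by norm_num) hE
    have h3 : 3 * q + (D : ℝ) / n ≤ 75 * q := by linarith
    have h4 : (3 * q + (D : ℝ) / n) ^ e ≤ (75 * q) ^ e :=
      pow_le_pow_left₀ (by positivity) h3 e
    have h5 : (3 : ℝ) ^ e * (75 * q) ^ e ≤ (constU * q) ^ e := by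
      rw [← mul_pow]
      refine pow_le_pow_left₀ (by positivity) ?_ e
      nlinarith
    calc 3 * ((2 * n).descFactorial v : ℝ) * (3 * q + (D : ℝ) / n) ^ e
        ≤ 3 ^ e * (2 * (n : ℝ)) ^ v * (75 * q) ^ e := by
          refine mul_le_mul ?_ h4 (by positivity) (by positivity)
          exact mul_le_mul h2 hdesc (by positivity) (by positivity)
      _ = (2 * (n : ℝ)) ^ v * ((3 : ℝ) ^ e * (75 * q) ^ e) := by ring
      _ ≤ _ := mul_le_mul_of_nonneg_left h5 hdiv0
  -- the long case
  have hk : numEdges H < 2 ^ (2 * ell) := by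
    calc numEdges H ≤ (Fintype.card V₀) ^ 2 := numEdges_le_sq H
      _ ≤ n ^ 2 := Nat.pow_le_pow_left hV 2
      _ < (2 ^ ell) ^ 2 := Nat.pow_lt_pow_left hnt (by norm_num)
      _ = 2 ^ (2 * ell) := by rw [← pow_mul]; congr 1; ring
  have hchain := emb_chain hn hq hV hyp hι hU' hD1 hk hj T
  set W := imgE je (edgesF T) with hW
  have hWc : W.card = e := by rw [hW, card_imgE hj, card_edgesF]
  have hCh : Ch (2 * ell) W ≤ 32 ^ e * (2 * ell - 1) ^ (2 * cyc T - 1) := by
    have e1 : 2 * ell = (2 * ell - 1) + 1 := by omega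
    rw [e1]
    simp only [Nat.add_sub_cancel]
    rw [← hWc]
    refine Ch_bound (noDiag_imgE hj T) (by omega) ?_
    intro K hK hKM c ν h4 h5 h6
    exact cm_conn hT hj hK hKM h4 h5 h6
  have hk' : (2 * ell - 1) ≤ 2 ^ m := by omega
  -- the power of the number of levels is at most `3^e`
  by_cases hEm : Emb T H Finset.univ = ∅
  · rw [hEm]
    simp only [Finset.card_empty, Nat.cast_zero]
    positivity
  have hpow : (2 * ell - 1) ^ (2 * cyc T - 1) ≤ 3 ^ e := by
    by_cases hg1 : cyc T = 1
    · have hme : m ≤ e := by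
        by_contra h
        exact hsh ⟨hg1, by omega⟩
      rw [hg1]
      simp only [Nat.reduceMul, Nat.reduceSub, pow_one]
      calc 2 * ell - 1 ≤ 2 ^ m := hk'
        _ ≤ 2 ^ e := Nat.pow_le_pow_right (by norm_num) hme
        _ ≤ 3 ^ e := Nat.pow_le_pow_left (by norm_num) e
    · -- at least two independent cycles
      obtain ⟨f, hf⟩ := Finset.nonempty_iff_ne_empty.mpr hEm
      rcases mem_Emb.mp hf with ⟨hf1, hf2, _⟩
      set x := cyc T - 1 with hx
      have hx1 : 1 ≤ x := by omega
      have hex : e = v + x := by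
        have h9 : cyc T = numEdges T + 1 - Fintype.card Z := rfl
        omega
      -- the hypothesis on the image of `T`
      set E' := (edgesF T).image (Sym2.map f) with hE'
      have hE'c : E'.card = e := by
        rw [hE', Finset.card_image_of_injective _ (Sym2.map.injective hf1), card_edgesF]
      have hE'H : ∀ e' ∈ E', e' ∈ H.edgeSet := by
        intro e' he'
        obtain ⟨e'', he'', rfl⟩ := Finset.mem_image.mp he'
        have h7 := mem_edgesF.mp he''
        induction e'' using Sym2.ind with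
        | _ a b => exact hf2 a b h7
      have h1 := one_le_of_edges hq hyp E' hE'H
      rw [hE'c] at h1
      have h2 : (vertsOf E').card ≤ v := by
        have h3 : vertsOf E' ⊆ Finset.univ.image f := by
          intro y hy
          obtain ⟨e', he', hye'⟩ := mem_vertsOf.mp hy
          obtain ⟨e'', _, rfl⟩ := Finset.mem_image.mp he'
          obtain ⟨z, _, rfl⟩ := Sym2.mem_map.mp hye'
          exact Finset.mem_image_of_mem _ (Finset.mem_univ _)
        refine (Finset.card_le_card h3).trans (Finset.card_image_le.trans ?_)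
        rw [Finset.card_univ]
      have hn1 : (1 : ℝ) ≤ n := by exact_mod_cast hn
      have h3 : 1 ≤ (n : ℝ) ^ v * q ^ e :=
        h1.trans (mul_le_mul_of_nonneg_right (pow_le_pow_right₀ hn1 h2) (by positivity))
      have h4 : (n : ℝ) ^ x ≤ ((n : ℝ) * q) ^ e := by
        have e2 : ((n : ℝ) * q) ^ e = (n : ℝ) ^ x * ((n : ℝ) ^ v * q ^ e) := by
          rw [mul_pow, ← mul_assoc, ← pow_add]
          congr 2
          omega
        rw [e2]
        calc (n : ℝ) ^ x = (n : ℝ) ^ x * 1 := (mul_one _).symm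
          _ ≤ _ := mul_le_mul_of_nonneg_left h3 (by positivity)
      have h5 : 2 * m * x ≤ e := by
        by_contra hlt
        push Not at hlt
        have h6 : ((n : ℝ) * q) ^ e ≤ ((n : ℝ) * q) ^ (2 * m * x) :=
          pow_le_pow_right₀ ha hlt.le
        have h7 : ((n : ℝ) * q) ^ (2 * m * x) < (n : ℝ) ^ x := by
          rw [pow_mul]
          exact pow_lt_pow_left₀ ham (by positivity) (by omega)
        linarith
      have hcm : 2 * cyc T - 1 ≤ 3 * x := by omega
      have h6 : 2 * ell - 1 ≠ 0 := by omega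
      calc (2 * ell - 1) ^ (2 * cyc T - 1) ≤ (2 * ell - 1) ^ (3 * x) :=
            Nat.pow_le_pow_right (by omega) hcm
        _ ≤ (2 ^ m) ^ (3 * x) := Nat.pow_le_pow_left hk' _
        _ = 8 ^ (m * x) := by
            rw [← pow_mul, show (8 : ℕ) = 2 ^ 3 by norm_num, ← pow_mul]
            congr 1
            ring
        _ ≤ 9 ^ (m * x) := Nat.pow_le_pow_left (by norm_num) _
        _ = 3 ^ (2 * m * x) := by
            rw [show (9 : ℕ) = 3 ^ 2 by norm_num, ← pow_mul]
            congr 1
            ring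
        _ ≤ 3 ^ e := Nat.pow_le_pow_right (by norm_num) h5
  have hCh2 : (Ch (2 * ell) W : ℝ) ≤ 32 ^ e * 3 ^ e := by
    have h7 : Ch (2 * ell) W ≤ 32 ^ e * 3 ^ e := hCh.trans (Nat.mul_le_mul_left _ hpow)
    exact_mod_cast h7
  have hw : 6 * q + (D : ℝ) / n ≤ 78 * q := by linarith
  have hw0 : 0 ≤ 6 * q + (D : ℝ) / n := by positivity
  have hpw : (6 * q + (D : ℝ) / n) ^ e ≤ (78 * q) ^ e := pow_le_pow_left₀ hw0 hw e
  have h7 : (78 * q) ^ e * ((32 : ℝ) ^ e * 3 ^ e) ≤ (constU * q) ^ e := by
    rw [← mul_pow, ← mul_pow]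
    refine pow_le_pow_left₀ (by positivity) ?_ e
    nlinarith
  calc ((Emb T H Finset.univ).card : ℝ)
      ≤ ((2 * n).descFactorial v : ℝ) * (6 * q + (D : ℝ) / n) ^ e * (Ch (2 * ell) W : ℝ) := hchain
    _ ≤ (2 * (n : ℝ)) ^ v * (78 * q) ^ e * (32 ^ e * 3 ^ e) := by
        refine mul_le_mul ?_ hCh2 (by positivity) (by positivity)
        exact mul_le_mul hdesc hpw (by positivity) (by positivity)
    _ = (2 * (n : ℝ)) ^ v * ((78 * q) ^ e * ((32 : ℝ) ^ e * 3 ^ e)) := by ring
    _ ≤ _ := mul_le_mul_of_nonneg_left h7 hdiv0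

/-- Edges lie in components. -/
lemma numEdges_le_sum_cc (F : SimpleGraph Z) :
    numEdges F ≤ ∑ c : F.ConnectedComponent, numEdges c.toSimpleGraph := by
  set Ec : F.ConnectedComponent → Finset (Sym2 Z) := fun c =>
    (edgesF c.toSimpleGraph).image (Sym2.map Subtype.val) with hEc
  have hsub : F.edgeSet ⊆ ((Finset.univ.biUnion Ec : Finset (Sym2 Z)) : Set (Sym2 Z)) := by
    intro e he
    induction e using Sym2.ind with
    | _ a b =>
      have hab : F.Adj a b := he
      set c := F.connectedComponentMk a with hc'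
      have ha : a ∈ c := mem_cc.mpr rfl
      have hb : b ∈ c := by
        refine mem_cc.mpr ?_
        rw [hc']
        exact (ConnectedComponent.sound hab.reachable).symm
      refine Finset.mem_coe.mpr (Finset.mem_biUnion.mpr ⟨c, Finset.mem_univ _, ?_⟩)
      refine Finset.mem_image.mpr ⟨s(⟨a, ha⟩, ⟨b, hb⟩), ?_, rfl⟩
      rw [mem_edgesF]
      exact hab
  unfold numEdges
  calc F.edgeSet.ncard ≤ ((Finset.univ.biUnion Ec : Finset (Sym2 Z)) : Set (Sym2 Z)).ncard :=
        Set.ncard_le_ncard hsub (Finset.finite_toSet _)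
    _ = (Finset.univ.biUnion Ec).card := Set.ncard_coe_finset _
    _ ≤ ∑ c, (Ec c).card := Finset.card_biUnion_le
    _ ≤ ∑ c, (edgesF c.toSimpleGraph).card := Finset.sum_le_sum fun c _ => Finset.card_image_le
    _ = _ := by
        refine Finset.sum_congr rfl fun c _ => ?_
        rw [card_edgesF]
        rfl

/-- From connected graphs to graphs without isolated vertices. -/
theorem comps_bound {H : SimpleGraph V₀} {n : ℕ} {s : ℝ} (hs0 : 0 ≤ s) (hs1 : s ≤ 1)
    (hconn : ∀ (Z' : Type u) [Fintype Z'] (T : SimpleGraph Z'), T.Connected → 1 ≤ numEdges T →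
      ((Emb T H Finset.univ).card : ℝ) ≤ (2 * (n : ℝ)) ^ Fintype.card Z' * s ^ numEdges T)
    (F : SimpleGraph Z) (hno : ∀ z, ∃ y, F.Adj z y) :
    ((Emb F H Finset.univ).card : ℝ) ≤ (2 * (n : ℝ)) ^ Fintype.card Z * s ^ numEdges F := by
  have hsize : ∀ c : F.ConnectedComponent, 2 ≤ Fintype.card c := by
    intro c
    obtain ⟨z, hz⟩ := c.exists_rep
    obtain ⟨y, hy⟩ := hno z
    have hzm : z ∈ c := mem_cc.mpr hz
    have hym : y ∈ c := by
      refine mem_cc.mpr ?_
      rw [← hz]
      exact (ConnectedComponent.sound hy.reachable).symm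
    have hne : (⟨z, hzm⟩ : c) ≠ ⟨y, hym⟩ := fun h => hy.ne (congrArg Subtype.val h)
    exact Fintype.one_lt_card_iff.mpr ⟨_, _, hne⟩
  have hcomp : ∀ c : F.ConnectedComponent,
      ((Emb c.toSimpleGraph H Finset.univ).card : ℝ) ≤
        (2 * (n : ℝ)) ^ Fintype.card c * s ^ numEdges c.toSimpleGraph := by
    intro c
    refine hconn c c.toSimpleGraph c.connected_toSimpleGraph ?_
    have h1 := card_le_of_connected c.connected_toSimpleGraph
    have h2 := hsize c
    omega
  have hinj : (Emb F H Finset.univ).card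
      ≤ ∏ c : F.ConnectedComponent, (Emb c.toSimpleGraph H Finset.univ).card := by
    rw [← Fintype.card_piFinset]
    refine Finset.card_le_card_of_injOn (fun f c z => f z.val) ?_ ?_
    · intro f hf
      have hf' := Finset.mem_coe.mp hf
      rcases mem_Emb.mp hf' with ⟨h1, h2, _⟩
      refine Finset.mem_coe.mpr (Fintype.mem_piFinset.mpr fun c => ?_)
      refine mem_Emb.mpr ⟨?_, ?_, fun _ => Finset.mem_univ _⟩
      · intro a b hab
        exact Subtype.ext (h1 hab)
      · intro a b hab
        exact h2 _ _ hab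
    · intro f _ g _ hfg
      funext z
      have hz : z ∈ F.connectedComponentMk z := mem_cc.mpr rfl
      exact congrFun (congrFun hfg (F.connectedComponentMk z)) ⟨z, hz⟩
  have hcard : ((Emb F H Finset.univ).card : ℝ)
      ≤ ∏ c : F.ConnectedComponent, ((Emb c.toSimpleGraph H Finset.univ).card : ℝ) := by
    exact_mod_cast hinj
  have hprod : ∏ c : F.ConnectedComponent, ((Emb c.toSimpleGraph H Finset.univ).card : ℝ)
      ≤ (2 * (n : ℝ)) ^ Fintype.card Z *
        s ^ (∑ c : F.ConnectedComponent, numEdges c.toSimpleGraph) := by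
    calc ∏ c : F.ConnectedComponent, ((Emb c.toSimpleGraph H Finset.univ).card : ℝ)
        ≤ ∏ c : F.ConnectedComponent, ((2 * (n : ℝ)) ^ Fintype.card c *
            s ^ numEdges c.toSimpleGraph) :=
          Finset.prod_le_prod (fun _ _ => Nat.cast_nonneg _) (fun c _ => hcomp c)
      _ = _ := by
          rw [Finset.prod_mul_distrib, Finset.prod_pow_eq_pow_sum, Finset.prod_pow_eq_pow_sum,
            ← card_eq_sum_components F]
  refine hcard.trans (hprod.trans ?_)
  refine mul_le_mul_of_nonneg_left ?_ (by positivity)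
  exact pow_le_pow_of_le_one hs0 hs1 (numEdges_le_sum_cc F)

/-- The comparison with a universal constant. -/
theorem emb_uni {H : SimpleGraph V₀} {n m : ℕ} {q : ℝ} (hn : 0 < n) (hq : 0 < q)
    (hV : Fintype.card V₀ ≤ n) (hCq : constU * q ≤ 1)
    (hyp : ∀ F : H.Subgraph, 1 ≤ expCopies n q F.coe)
    (hnq : ((Nat.log 2 n + 1 : ℕ) : ℝ) ≤ n * q) (hm : 2 * (Nat.log 2 n + 1) ≤ 2 ^ m)
    (ham : ((n : ℝ) * q) ^ (2 * m) < n) (F : SimpleGraph Z) :
    ((Emb F H Finset.univ).card : ℝ) ≤ (n.descFactorial (Fintype.card Z) : ℝ) *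
      (36 * constU * q) ^ numEdges F := by
  have hU0 := constU_ge
  have hs : 0 ≤ constU * q := by
    have : (0 : ℝ) < constU := by linarith
    positivity
  refine emb_strip (by linarith) hV (fun Z _ F hno => ?_) (Fintype.card Z) Z F rfl
  have h1 := comps_bound hs hCq (fun Z' _ T hT hE => conn_uni hn hq hV hyp hnq hm ham hT hE) F hno
  set e := numEdges F with he
  set v := Fintype.card Z with hv
  have hve : v ≤ 2 * e := card_le_two_edges F hno
  by_cases hvn : v ≤ n
  swap
  · have h0 : Emb F H Finset.univ = ∅ := by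
      refine Finset.eq_empty_of_forall_notMem fun f hf => ?_
      rcases mem_Emb.mp hf with ⟨h2, _, _⟩
      have := Fintype.card_le_of_injective f h2
      omega
    rw [h0]
    simp only [Finset.card_empty, Nat.cast_zero]
    have : 0 ≤ 36 * constU * q := by linarith
    positivity
  have h2 := pow_le_three_desc hvn
  have hdn : (0 : ℝ) ≤ (n.descFactorial v : ℝ) := by positivity
  have h6v : (6 : ℝ) ^ v ≤ 36 ^ e := by
    have : (36 : ℝ) ^ e = 6 ^ (2 * e) := by
      rw [pow_mul]; norm_num
    rw [this]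
    exact pow_le_pow_right₀ (by norm_num) hve
  have h3 : (2 * (n : ℝ)) ^ v ≤ 36 ^ e * (n.descFactorial v : ℝ) := by
    calc (2 * (n : ℝ)) ^ v = 2 ^ v * (n : ℝ) ^ v := mul_pow _ _ _
      _ ≤ 2 ^ v * (3 ^ v * (n.descFactorial v : ℝ)) := mul_le_mul_of_nonneg_left h2 (by positivity)
      _ = 6 ^ v * (n.descFactorial v : ℝ) := by rw [← mul_assoc, ← mul_pow]; norm_num
      _ ≤ _ := mul_le_mul_of_nonneg_right h6v hdn
  calc ((Emb F H Finset.univ).card : ℝ) ≤ (2 * (n : ℝ)) ^ v * (constU * q) ^ e := h1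
    _ ≤ (36 ^ e * (n.descFactorial v : ℝ)) * (constU * q) ^ e :=
        mul_le_mul_of_nonneg_right h3 (by positivity)
    _ = _ := by
        have : 36 * constU * q = 36 * (constU * q) := by ring
        rw [this, mul_pow]
        ring

end Vale.Agent.Lib.P064k
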