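import Vale.Agent.Lib.P064k.Uni

/-!
The number of extensions of an embedding from a set of vertices with at least as many edges inside
as vertices: the branching may be large, but the high degrees are paid for by the hypothesis.
-/

namespace Vale.Agent.Lib.P064k

open Finset SimpleGraph Vale.Agent.Lib.P064
open scoped Classical Nat

set_option linter.unusedSectionVars false
set_option linter.unusedVariables false

universe u v

variable {V : Type v} [Fintype V] {Z : Type u} [Fintype Z]

/-- A ranking of the vertices starting from a set. -/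
structure IsRank (T : SimpleGraph Z) (Z₀ : Finset Z) (r : Z → ℕ) : Prop where
  inj : Function.Injective r
  low : ∀ z, r z < Z₀.card ↔ z ∈ Z₀
  par : ∀ z, z ∉ Z₀ → ∃ y, T.Adj y z ∧ r y < r z

theorem exists_rank {T : SimpleGraph Z} (hT : T.Connected) {Z₀ : Finset Z} (h0 : Z₀.Nonempty) :
    ∃ r, IsRank T Z₀ r := by
  have key : ∀ (k : ℕ) (S : Finset Z), Z₀ ⊆ S → (Finset.univ \ S).card = k → ∀ r : Z → ℕ,
      Set.InjOn r S → (∀ z ∈ S, (r z < Z₀.card ↔ z ∈ Z₀)) →
      (∀ z ∈ S, z ∉ Z₀ → ∃ y ∈ S, T.Adj y z ∧ r y < r z) → ∃ r', IsRank T Z₀ r' := by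
    intro k
    induction k with
    | zero =>
      intro S hS hk r h1 h2 h3
      have hSu : ∀ z, z ∈ S := by
        intro z
        by_contra hz
        have : z ∈ Finset.univ \ S := Finset.mem_sdiff.mpr ⟨Finset.mem_univ _, hz⟩
        rw [Finset.card_eq_zero.mp hk] at this
        simp at this
      refine ⟨r, ?_, fun z => h2 z (hSu z), ?_⟩
      · intro a b hab
        exact h1 (hSu a) (hSu b) hab
      · intro z hz
        obtain ⟨y, _, hy⟩ := h3 z (hSu z) hz
        exact ⟨y, hy⟩
    | succ k ih =>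
      intro S hS hk r h1 h2 h3
      obtain ⟨z, hz⟩ : ∃ z, z ∉ S := by
        by_contra h
        push Not at h
        have : Finset.univ \ S = ∅ := by
          ext x
          simp [h x]
        rw [this] at hk
        simp at hk
      obtain ⟨y, hy⟩ := h0
      have hyS : y ∈ S := hS hy
      obtain ⟨w⟩ := hT.preconnected y z
      obtain ⟨d, _, hd1, hd2⟩ := w.exists_boundary_dart (S : Set Z) (by simpa using hyS)
        (by simpa using hz)
      have hd1' : d.fst ∈ S := by simpa using hd1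
      have hd2' : d.snd ∉ S := by simpa using hd2
      set M := S.sup r + Z₀.card + 1 with hM
      have hlt : ∀ x ∈ S, r x < M := by
        intro x hx
        have : r x ≤ S.sup r := Finset.le_sup hx
        omega
      set r' := Function.update r d.snd M with hr'
      have hne : ∀ x ∈ S, x ≠ d.snd := fun x hx h => hd2' (h ▸ hx)
      have hr1 : ∀ x ∈ S, r' x = r x := fun x hx => Function.update_of_ne (hne x hx) _ _
      have hr2 : r' d.snd = M := Function.update_self _ _ _
      refine ih (insert d.snd S) (hS.trans (Finset.subset_insert _ _)) ?_ r' ?_ ?_ ?_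
      · have h4 : Finset.univ \ insert d.snd S = (Finset.univ \ S).erase d.snd := by
          ext x
          simp only [Finset.mem_sdiff, Finset.mem_univ, true_and, Finset.mem_insert,
            Finset.mem_erase, not_or]
        rw [h4, Finset.card_erase_of_mem (Finset.mem_sdiff.mpr ⟨Finset.mem_univ _, hd2'⟩), hk]
        omega
      · intro a ha b hb hab
        rcases Finset.mem_insert.mp (Finset.mem_coe.mp ha) with ha' | ha' <;>
          rcases Finset.mem_insert.mp (Finset.mem_coe.mp hb) with hb' | hb'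
        · rw [ha', hb']
        · rw [ha', hr2, hr1 b hb'] at hab
          have := hlt b hb'
          omega
        · rw [hb', hr2, hr1 a ha'] at hab
          have := hlt a ha'
          omega
        · rw [hr1 a ha', hr1 b hb'] at hab
          exact h1 ha' hb' hab
      · intro x hx
        rcases Finset.mem_insert.mp hx with hx' | hx'
        · rw [hx', hr2]
          constructor
          · intro h
            omega
          · intro h
            exact absurd (hS h) hd2'
        · rw [hr1 x hx']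
          exact h2 x hx'
      · intro x hx hx0
        rcases Finset.mem_insert.mp hx with hx' | hx'
        · refine ⟨d.fst, Finset.mem_insert_of_mem hd1', ?_, ?_⟩
          · rw [hx']
            exact d.adj
          · rw [hx', hr2, hr1 _ hd1']
            exact hlt _ hd1'
        · obtain ⟨y', hy', h4, h5⟩ := h3 x hx' hx0
          refine ⟨y', Finset.mem_insert_of_mem hy', h4, ?_⟩
          rw [hr1 _ hy', hr1 _ hx']
          exact h5
  set r₀ : Z → ℕ := fun z => if h : z ∈ Z₀ then (Z₀.equivFin ⟨z, h⟩).val else 0 with hr₀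
  refine key _ Z₀ (Finset.Subset.refl _) rfl r₀ ?_ ?_ ?_
  · intro a ha b hb hab
    have ha' : a ∈ Z₀ := ha
    have hb' : b ∈ Z₀ := hb
    simp only [hr₀, ha', hb', dif_pos] at hab
    have := Z₀.equivFin.injective (Fin.ext hab)
    exact congrArg Subtype.val this
  · intro z hz
    simp only [hr₀, hz, dif_pos, iff_true]
    exact (Z₀.equivFin ⟨z, hz⟩).isLt
  · intro z hz hz'
    exact absurd hz hz'

/-- The candidates for the image of a vertex, given the earlier images. -/
noncomputable def cand (H : SimpleGraph V) (r : Z → ℕ) (par : Z → Z) (z : Z) (f : Z → V) :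
    Finset V :=
  (nb H (f (par z))).filter (fun v => ∀ z', r z' < r z → f z' ≠ v)

lemma mem_cand {H : SimpleGraph V} {r : Z → ℕ} {par : Z → Z} {z : Z} {f : Z → V} {v : V} :
    v ∈ cand H r par z f ↔ H.Adj (f (par z)) v ∧ ∀ z', r z' < r z → f z' ≠ v := by
  simp [cand, mem_nb]

/-- The embeddings with prescribed values on the low ranks. -/
noncomputable def Ext (T : SimpleGraph Z) (H : SimpleGraph V) (r : Z → ℕ) (t : ℕ) (g : Z → V) :
    Finset (Z → V) :=
  (Emb T H Finset.univ).filter (fun f => ∀ z, r z < t → f z = g z)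

lemma mem_Ext {T : SimpleGraph Z} {H : SimpleGraph V} {r : Z → ℕ} {t : ℕ} {g f : Z → V} :
    f ∈ Ext T H r t g ↔ f ∈ Emb T H Finset.univ ∧ ∀ z, r z < t → f z = g z := by
  simp [Ext]

/-- The greedy path through the tree of extensions. -/
theorem ext_greedy {T : SimpleGraph Z} {H : SimpleGraph V} {Z₀ : Finset Z} {r : Z → ℕ}
    (hr : IsRank T Z₀ r) {par : Z → Z} (hpar : ∀ z, z ∉ Z₀ → T.Adj (par z) z ∧ r (par z) < r z)
    {M : ℕ} (hM : ∀ z, r z < M) :
    ∀ (k t : ℕ) (g : Z → V), M - t = k → Z₀.card ≤ t → (Ext T H r t g).Nonempty →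
      ∃ f ∈ Ext T H r t g, (Ext T H r t g).card ≤
        ∏ z ∈ Finset.univ.filter (fun z => t ≤ r z), (cand H r par z f).card := by
  intro k
  induction k with
  | zero =>
    intro t g hk ht hne
    obtain ⟨f, hf⟩ := hne
    refine ⟨f, hf, ?_⟩
    have h1 : Finset.univ.filter (fun z => t ≤ r z) = ∅ := by
      refine Finset.filter_false_of_mem fun z _ => ?_
      have := hM z
      omega
    rw [h1, Finset.prod_empty]
    refine Finset.card_le_one.mpr fun a ha b hb => ?_
    funext z
    have h2 : r z < t := by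
      have := hM z
      omega
    rw [(mem_Ext.mp ha).2 z h2, (mem_Ext.mp hb).2 z h2]
  | succ k ih =>
    intro t g hk ht hne
    by_cases hz : ∃ z, r z = t
    · obtain ⟨z, hz⟩ := hz
      have hz0 : z ∉ Z₀ := by
        intro h
        have := (hr.low z).mpr h
        omega
      obtain ⟨hp1, hp2⟩ := hpar z hz0
      set C := (Ext T H r t g).image (fun f => f z) with hC
      set fib : V → Finset (Z → V) := fun v => Ext T H r (t + 1) (Function.update g z v) with hfib
      have hfibeq : ∀ v, fib v = (Ext T H r t g).filter (fun f => f z = v) := by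
        intro v
        ext f
        simp only [hfib, mem_Ext, Finset.mem_filter]
        constructor
        · rintro ⟨h1, h2⟩
          refine ⟨⟨h1, fun z' hz' => ?_⟩, ?_⟩
          · have hne' : z' ≠ z := by
              rintro rfl
              omega
            rw [h2 z' (by omega), Function.update_of_ne hne']
          · rw [h2 z (by omega), Function.update_self]
        · rintro ⟨⟨h1, h2⟩, h3⟩
          refine ⟨h1, fun z' hz' => ?_⟩
          by_cases hzz : z' = z
          · rw [hzz, Function.update_self, h3]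
          · rw [Function.update_of_ne hzz]
            refine h2 z' ?_
            have hrne : r z' ≠ t := fun h => hzz (hr.inj (h.trans hz.symm))
            omega
      have hCne : C.Nonempty := hne.image _
      obtain ⟨v, hv, hmax⟩ := Finset.exists_max_image C (fun v => (fib v).card) hCne
      have hfibne : (fib v).Nonempty := by
        obtain ⟨f, hf, hfv⟩ := Finset.mem_image.mp hv
        refine ⟨f, ?_⟩
        rw [hfibeq]
        exact Finset.mem_filter.mpr ⟨hf, hfv⟩
      obtain ⟨f, hf, hfbd⟩ := ih (t + 1) (Function.update g z v) (by omega) (by omega) hfibne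
      have hf' : f ∈ (Ext T H r t g) := by
        have : f ∈ fib v := hf
        rw [hfibeq] at this
        exact (Finset.mem_filter.mp this).1
      refine ⟨f, hf', ?_⟩
      have hcard : (Ext T H r t g).card ≤ C.card * (fib v).card := by
        have h1 : (Ext T H r t g).card = ∑ c ∈ C, ((Ext T H r t g).filter (fun f => f z = c)).card :=
          Finset.card_eq_sum_card_fiberwise (fun f hf => Finset.mem_coe.mpr
            (Finset.mem_image_of_mem _ (Finset.mem_coe.mp hf)))
        rw [h1]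
        calc ∑ c ∈ C, ((Ext T H r t g).filter (fun f => f z = c)).card
            ≤ ∑ c ∈ C, (fib v).card := by
              refine Finset.sum_le_sum fun c hc => ?_
              rw [← hfibeq]
              exact hmax c hc
          _ = _ := by rw [Finset.sum_const, smul_eq_mul]
      have hCsub : C ⊆ cand H r par z f := by
        intro w hw
        obtain ⟨f', hf'', rfl⟩ := Finset.mem_image.mp hw
        rcases mem_Ext.mp hf'' with ⟨h1, h2⟩
        rcases mem_Ext.mp hf' with ⟨h3, h4⟩
        rcases mem_Emb.mp h1 with ⟨h5, h6, _⟩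
        rw [mem_cand]
        constructor
        · have h7 : f (par z) = f' (par z) := by
            rw [h4 _ (by omega), h2 _ (by omega)]
          rw [h7]
          exact h6 _ _ hp1
        · intro z' hz' h8
          have h9 : f z' = f' z' := by
            rw [h4 _ (by omega), h2 _ (by omega)]
          rw [h9] at h8
          have := h5 h8
          rw [this] at hz'
          exact lt_irrefl _ hz'
      have hfilter : Finset.univ.filter (fun z' => t ≤ r z') =
          insert z (Finset.univ.filter (fun z' => t + 1 ≤ r z')) := by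
        ext z'
        simp only [Finset.mem_filter, Finset.mem_univ, true_and, Finset.mem_insert]
        constructor
        · intro h
          by_cases hzz : z' = z
          · exact Or.inl hzz
          · right
            have hrne : r z' ≠ t := fun h' => hzz (hr.inj (h'.trans hz.symm))
            omega
        · rintro (h | h)
          · rw [h, hz]
          · omega
      rw [hfilter, Finset.prod_insert (by simp [hz])]
      exact hcard.trans (Nat.mul_le_mul (Finset.card_le_card hCsub) hfbd)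
    · push Not at hz
      have h1 : ∀ t' : Z, r t' < t + 1 ↔ r t' < t := by
        intro z'
        have := hz z'
        omega
      have h2 : Ext T H r (t + 1) g = Ext T H r t g := by
        ext f
        simp only [mem_Ext, h1]
      have h3 : Finset.univ.filter (fun z' => t ≤ r z') =
          Finset.univ.filter (fun z' => t + 1 ≤ r z') := by
        ext z'
        simp only [Finset.mem_filter, Finset.mem_univ, true_and]
        have := hz z'
        omega
      rw [h3, ← h2]
      refine ih (t + 1) g (by omega) (by omega) ?_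
      rw [h2]
      exact hne

/-- The arithmetic of a large out-degree. -/
lemma big_ineq {A : ℝ} (hA : 0 < A) {m x : ℕ} (hxm : x ≤ m) (hΘ : 36 * A < m) :
    (12 * A) ^ m * (m : ℝ) ^ x ≤ (36 * A) ^ x * ((m ! : ℕ) : ℝ) := by
  obtain ⟨y, rfl⟩ : ∃ y, m = x + y := ⟨m - x, by omega⟩
  set m := x + y with hm
  have h1 : (36 * A) ^ y ≤ (m : ℝ) ^ y := pow_le_pow_left₀ (by positivity) hΘ.le y
  have h2 : (m : ℝ) ^ x * (36 * A) ^ y ≤ (m : ℝ) ^ m := by
    calc (m : ℝ) ^ x * (36 * A) ^ y ≤ (m : ℝ) ^ x * (m : ℝ) ^ y :=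
          mul_le_mul_of_nonneg_left h1 (by positivity)
      _ = (m : ℝ) ^ m := by rw [← pow_add]
  have h3 := pow_self_le m
  have h4 : 0 < (36 * A) ^ y := by positivity
  have h5 : ((12 * A) ^ m * (m : ℝ) ^ x) * (36 * A) ^ y ≤
      ((36 * A) ^ x * ((m ! : ℕ) : ℝ)) * (36 * A) ^ y := by
    calc ((12 * A) ^ m * (m : ℝ) ^ x) * (36 * A) ^ y
        = (12 * A) ^ m * ((m : ℝ) ^ x * (36 * A) ^ y) := by ring
      _ ≤ (12 * A) ^ m * (3 ^ m * ((m ! : ℕ) : ℝ)) :=
          mul_le_mul_of_nonneg_left (h2.trans h3) (by positivity)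
      _ = ((12 * A) * 3) ^ m * ((m ! : ℕ) : ℝ) := by rw [mul_pow (12 * A) 3 m]; ring
      _ = (36 * A) ^ m * ((m ! : ℕ) : ℝ) := by
          congr 2
          ring
      _ = ((36 * A) ^ x * ((m ! : ℕ) : ℝ)) * (36 * A) ^ y := by
          rw [hm, pow_add]
          ring
  exact le_of_mul_le_mul_right h5 h4

/-- The first child of a parent. -/
lemma first_child {T : SimpleGraph Z} {H : SimpleGraph V} {Z₀ : Finset Z} {r : Z → ℕ}
    (hr : IsRank T Z₀ r) {par : Z → Z} (hpar : ∀ z, z ∉ Z₀ → T.Adj (par z) z ∧ r (par z) < r z)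
    {f : Z → V} (hfi : Function.Injective f) (hfa : ∀ a b, T.Adj a b → H.Adj (f a) (f b)) (y : Z)
    (hy : ∃ z, z ∉ Z₀ ∧ par z = y) :
    ∃ C : Finset V, (∀ z, z ∉ Z₀ → par z = y → f z ∈ C ∧ cand H r par z f ⊆ C) ∧
      (∀ w ∈ C, H.Adj (f y) w) ∧ (∀ w ∈ C, ∀ z', f z' = w → r y < r z') ∧
      (∀ z ∈ Z₀, f z ∉ C) := by
  have hne : (Finset.univ.filter (fun z => z ∉ Z₀ ∧ par z = y)).Nonempty := by
    obtain ⟨z, hz⟩ := hy
    exact ⟨z, Finset.mem_filter.mpr ⟨Finset.mem_univ _, hz⟩⟩
  obtain ⟨z₁, hz₁, hmin⟩ := Finset.exists_min_image _ r hne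
  obtain ⟨hz₁0, hz₁p⟩ := (Finset.mem_filter.mp hz₁).2
  have hmin' : ∀ z, z ∉ Z₀ → par z = y → r z₁ ≤ r z := fun z h1 h2 =>
    hmin z (Finset.mem_filter.mpr ⟨Finset.mem_univ _, h1, h2⟩)
  have hm : ∀ w, w ∈ cand H r par z₁ f ↔ H.Adj (f y) w ∧ ∀ z', r z' < r z₁ → f z' ≠ w := by
    intro w
    rw [mem_cand, hz₁p]
  refine ⟨cand H r par z₁ f, ?_, ?_, ?_, ?_⟩
  · intro z h1 h2
    constructor
    · rw [hm]
      refine ⟨?_, ?_⟩
      · have := (hpar z h1).1
        rw [h2] at this
        exact hfa _ _ this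
      · intro z' hz' h3
        have h4 := hfi h3
        rw [h4] at hz'
        have := hmin' z h1 h2
        omega
    · intro w hw
      rw [mem_cand, h2] at hw
      rw [hm]
      refine ⟨hw.1, fun z' hz' => hw.2 z' ?_⟩
      have := hmin' z h1 h2
      omega
  · intro w hw
    exact ((hm w).mp hw).1
  · intro w hw z' hz'
    have h1 := ((hm w).mp hw).2
    have h2 : ¬ r z' < r z₁ := fun h => h1 z' h hz'
    have h3 := (hpar z₁ hz₁0).2
    rw [hz₁p] at h3
    omega
  · intro z hz hmem
    have h1 := ((hm _).mp hmem).2 z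
    have h2 : r z < r z₁ := by
      have h3 := (hr.low z).mpr hz
      have h4 : ¬ r z₁ < Z₀.card := fun h => hz₁0 ((hr.low _).mp h)
      omega
    exact h1 h2 rfl

/-- The hypothesis for an oriented graph on the image of an embedding. -/
lemma oriented_budget {H : SimpleGraph V} {n : ℕ} {q : ℝ} (hn : 0 < n)
    (hq : 0 < q) (hV : Fintype.card V ≤ n) (hO : OBound H n q) {Z₀ : Finset Z} {r : Z → ℕ}
    {f : Z → V} (hfi : Function.Injective f) (hZ : Nonempty Z) (B NB : Z → Finset V)
    (hBim : ∀ y, ∀ w ∈ B y, ∃ z ∈ Z₀, f z = w)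
    (hadj : ∀ y, ∀ w ∈ B y ∪ NB y, H.Adj (f y) w)
    (hup : ∀ y, ∀ w ∈ B y ∪ NB y, ∀ z', f z' = w → r y < r z')
    (hdis : ∀ y, ∀ z ∈ Z₀, f z ∉ NB y)
    (hcov : ∀ z, z ∉ Z₀ → ∃ y, f z ∈ NB y)
    (hbase : Z₀.card ≤ ∑ y, (B y).card) :
    (∏ y, (((NB y).card)! : ℝ)) ≤ (12 * ((n : ℝ) * q)) ^ (∑ y, (B y).card + ∑ y, (NB y).card) := by
  obtain ⟨out, hout_f, hout_none⟩ : ∃ out : V → Finset V, (∀ y, out (f y) = B y ∪ NB y) ∧
      ∀ u, (∀ y, f y ≠ u) → out u = ∅ := by
    refine ⟨fun u => Finset.univ.biUnion (fun y => if f y = u then B y ∪ NB y else ∅), ?_, ?_⟩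
    · intro y
      ext w
      simp only [Finset.mem_biUnion, Finset.mem_univ, true_and]
      constructor
      · rintro ⟨y', hy'⟩
        by_cases h : f y' = f y
        · rw [if_pos h] at hy'
          rwa [← hfi h]
        · rw [if_neg h] at hy'
          simp at hy'
      · intro h
        exact ⟨y, by rwa [if_pos rfl]⟩
    · intro u hu
      ext w
      simp only [Finset.mem_biUnion, Finset.mem_univ, true_and, Finset.notMem_empty, iff_false,
        not_exists]
      intro y
      rw [if_neg (hu y)]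
      simp
  obtain ⟨W, hW⟩ : ∃ W : Finset V, W = Finset.univ.image f ∪ Finset.univ.biUnion NB := ⟨_, rfl⟩
  have hfW : ∀ y, f y ∈ W := fun y => by
    rw [hW]
    exact Finset.mem_union_left _ (Finset.mem_image_of_mem _ (Finset.mem_univ _))
  have hsubW : ∀ y, B y ∪ NB y ⊆ W := by
    intro y w hw
    rcases Finset.mem_union.mp hw with h1 | h1
    · obtain ⟨z, _, rfl⟩ := hBim y w h1
      exact hfW z
    · rw [hW]
      exact Finset.mem_union_right _ (Finset.mem_biUnion.mpr ⟨y, Finset.mem_univ _, h1⟩)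
  have hor : IsOriented H W out := by
    refine ⟨?_, ?_, ?_, ?_⟩
    · intro u hu t ht
      by_cases h : ∃ y, f y = u
      · obtain ⟨y, rfl⟩ := h
        rw [hout_f] at ht
        exact hsubW y ht
      · push Not at h
        rw [hout_none u h] at ht
        simp at ht
    · intro u hu
      refine hout_none u fun y h => hu ?_
      rw [← h]
      exact hfW y
    · intro u t ht
      by_cases h : ∃ y, f y = u
      · obtain ⟨y, rfl⟩ := h
        rw [hout_f] at ht
        exact hadj y t ht
      · push Not at h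
        rw [hout_none u h] at ht
        simp at ht
    · intro u t ht hu
      by_cases h : ∃ y, f y = u
      · obtain ⟨y, rfl⟩ := h
        rw [hout_f] at ht
        by_cases h' : ∃ y', f y' = t
        · obtain ⟨y', rfl⟩ := h'
          rw [hout_f] at hu
          have h1 := hup y _ ht y' rfl
          have h2 := hup y' _ hu y rfl
          omega
        · push Not at h'
          rw [hout_none t h'] at hu
          simp at hu
      · push Not at h
        rw [hout_none u h] at ht
        simp at ht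
  have hWne : W.Nonempty := by
    obtain ⟨z⟩ := hZ
    exact ⟨f z, hfW z⟩
  have houtcard : ∀ y, (out (f y)).card = (B y).card + (NB y).card := by
    intro y
    rw [hout_f, Finset.card_union_of_disjoint]
    refine Finset.disjoint_left.mpr fun w h1 h2 => ?_
    obtain ⟨z, hz, rfl⟩ := hBim y w h1
    exact hdis y z hz h2
  have hsumout : ∑ u ∈ W, (out u).card = ∑ y, (B y).card + ∑ y, (NB y).card := by
    have h1 : ∑ u ∈ W, (out u).card = ∑ u ∈ Finset.univ.image f, (out u).card := by
      rw [hW]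
      refine (Finset.sum_subset Finset.subset_union_left ?_).symm
      intro u _ hu
      have : ∀ y, f y ≠ u := fun y h => hu (h ▸ Finset.mem_image_of_mem _ (Finset.mem_univ _))
      rw [hout_none u this, Finset.card_empty]
    rw [h1, Finset.sum_image (fun a _ b _ h => hfi h)]
    simp only [houtcard]
    rw [Finset.sum_add_distrib]
  have hWcard : W.card ≤ ∑ y, (B y).card + ∑ y, (NB y).card := by
    have hsub : W ⊆ Z₀.image f ∪ Finset.univ.biUnion NB := by
      intro w hw
      rw [hW] at hw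
      rcases Finset.mem_union.mp hw with h1 | h1
      · obtain ⟨z, _, rfl⟩ := Finset.mem_image.mp h1
        by_cases hz : z ∈ Z₀
        · exact Finset.mem_union_left _ (Finset.mem_image_of_mem _ hz)
        · obtain ⟨y, hy⟩ := hcov z hz
          exact Finset.mem_union_right _ (Finset.mem_biUnion.mpr ⟨y, Finset.mem_univ _, hy⟩)
      · exact Finset.mem_union_right _ h1
    calc W.card ≤ (Z₀.image f ∪ Finset.univ.biUnion NB).card := Finset.card_le_card hsub
      _ ≤ (Z₀.image f).card + (Finset.univ.biUnion NB).card := Finset.card_union_le _ _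
      _ ≤ Z₀.card + ∑ y, (NB y).card :=
          Nat.add_le_add Finset.card_image_le Finset.card_biUnion_le
      _ ≤ _ := by omega
  have hWn : W.card ≤ n := (Finset.card_le_univ W).trans hV
  have hWpos : 0 < W.card := Finset.card_pos.mpr hWne
  have h1 := hO W out hor hWne
  rw [hsumout] at h1
  have h2 := dense_bound hn hWpos hq hWcard hWn (by positivity) h1
  have e1 : 12 * (n : ℝ) * q = 12 * ((n : ℝ) * q) := by ring
  rw [e1] at h2
  refine le_trans ?_ h2
  have h3 : ∏ y, ((NB y).card)! ≤ ∏ u ∈ W, ((out u).card)! := by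
    have h4 : ∏ y, ((NB y).card)! ≤ ∏ y, ((out (f y)).card)! := by
      refine Finset.prod_le_prod' fun y _ => ?_
      refine Nat.factorial_le ?_
      rw [hout_f]
      exact Finset.card_le_card Finset.subset_union_right
    refine h4.trans ?_
    rw [← Finset.prod_image (s := Finset.univ) (g := f) (f := fun u => ((out u).card)!)
      (fun a _ b _ h => hfi h)]
    refine Finset.prod_le_prod_of_subset_of_one_le' ?_ ?_
    · intro u hu
      obtain ⟨y, _, rfl⟩ := Finset.mem_image.mp hu
      exact hfW y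
    · intro u _ _
      exact Nat.factorial_pos _
  exact_mod_cast h3

/-- The product over the parents. -/
lemma parents_prod {P Big : Finset Z} (hBig : Big ⊆ P) {m x : Z → ℕ} {a : ℝ} (ha : 0 < a)
    (hx : ∀ y ∈ Big, x y ≤ m y) (h1 : ∀ y ∈ Big, 36 * a < (m y : ℝ))
    (h2 : ∀ y ∈ P \ Big, (m y : ℝ) ≤ 36 * a) :
    (∏ y ∈ P, ((m y : ℝ) ^ x y)) * (12 * a) ^ (∑ y ∈ Big, m y) ≤
      (36 * a) ^ (∑ y ∈ P, x y) * ∏ y ∈ Big, (((m y)! : ℕ) : ℝ) := by
  have hsplit : ∏ y ∈ P, ((m y : ℝ) ^ x y) =
      (∏ y ∈ P \ Big, ((m y : ℝ) ^ x y)) * ∏ y ∈ Big, ((m y : ℝ) ^ x y) :=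
    (Finset.prod_sdiff hBig).symm
  have hΘ : (36 * a) ^ (∑ y ∈ P, x y) = (∏ y ∈ P \ Big, (36 * a) ^ x y) *
      ∏ y ∈ Big, (36 * a) ^ x y := by
    rw [Finset.prod_sdiff hBig, Finset.prod_pow_eq_pow_sum]
  rw [hsplit, hΘ]
  have h3 : ∏ y ∈ P \ Big, ((m y : ℝ) ^ x y) ≤ ∏ y ∈ P \ Big, (36 * a) ^ x y :=
    Finset.prod_le_prod (fun _ _ => by positivity) fun y hy =>
      pow_le_pow_left₀ (by positivity) (h2 y hy) _
  have h4 : (∏ y ∈ Big, ((m y : ℝ) ^ x y)) * (12 * a) ^ (∑ y ∈ Big, m y) ≤
      (∏ y ∈ Big, (36 * a) ^ x y) * ∏ y ∈ Big, (((m y)! : ℕ) : ℝ) := by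
    rw [← Finset.prod_pow_eq_pow_sum, ← Finset.prod_mul_distrib, ← Finset.prod_mul_distrib]
    refine Finset.prod_le_prod (fun _ _ => by positivity) fun y hy => ?_
    have h5 := big_ineq ha (hx y hy) (h1 y hy)
    linarith
  calc (∏ y ∈ P \ Big, ((m y : ℝ) ^ x y)) * (∏ y ∈ Big, ((m y : ℝ) ^ x y)) *
        (12 * a) ^ (∑ y ∈ Big, m y)
      = (∏ y ∈ P \ Big, ((m y : ℝ) ^ x y)) *
        ((∏ y ∈ Big, ((m y : ℝ) ^ x y)) * (12 * a) ^ (∑ y ∈ Big, m y)) := by ring
    _ ≤ (∏ y ∈ P \ Big, (36 * a) ^ x y) *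
        ((∏ y ∈ Big, (36 * a) ^ x y) * ∏ y ∈ Big, (((m y)! : ℕ) : ℝ)) :=
        mul_le_mul h3 h4 (by positivity) (by positivity)
    _ = _ := by ring

/-- The product of the numbers of candidates along an embedding. -/
theorem prod_cand_le {T : SimpleGraph Z} {H : SimpleGraph V} {n : ℕ} {q : ℝ} (hn : 0 < n)
    (hq : 0 < q) (hV : Fintype.card V ≤ n) (hO : OBound H n q) (ha : 1 ≤ (n : ℝ) * q)
    {Z₀ : Finset Z} {r : Z → ℕ} (hr : IsRank T Z₀ r) {par : Z → Z}
    (hpar : ∀ z, z ∉ Z₀ → T.Adj (par z) z ∧ r (par z) < r z) (hne : Z₀.Nonempty) {eb : ℕ}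
    (heb : eb = ∑ y : Z, (Z₀.filter (fun y' => y ∈ Z₀ ∧ T.Adj y y' ∧ r y < r y')).card)
    (hbase : Z₀.card ≤ eb) {f : Z → V} (hf : f ∈ Emb T H Finset.univ) :
    (∏ z ∈ Finset.univ.filter (fun z => z ∉ Z₀), ((cand H r par z f).card : ℝ)) ≤
      (36 * ((n : ℝ) * q)) ^ (Finset.univ.filter (fun z => z ∉ Z₀)).card *
        (12 * ((n : ℝ) * q)) ^ (eb + (Finset.univ.filter (fun z => z ∉ Z₀)).card) := by
  rcases mem_Emb.mp hf with ⟨hfi, hfa, _⟩
  obtain ⟨a, ha'⟩ : ∃ a, a = (n : ℝ) * q := ⟨_, rfl⟩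
  rw [← ha'] at ha ⊢
  have ha0 : 0 < a := by linarith
  obtain ⟨Zc, hZc⟩ : ∃ Zc, Zc = Finset.univ.filter (fun z => z ∉ Z₀) := ⟨_, rfl⟩
  rw [← hZc]
  have hmZc : ∀ z, z ∈ Zc ↔ z ∉ Z₀ := by
    intro z
    simp [hZc]
  obtain ⟨ch, hch⟩ : ∃ ch : Z → Finset Z, ∀ y, ch y = Zc.filter (fun z => par z = y) :=
    ⟨fun y => Zc.filter (fun z => par z = y), fun _ => rfl⟩
  have hmch : ∀ y z, z ∈ ch y ↔ z ∉ Z₀ ∧ par z = y := by
    intro y z
    rw [hch, Finset.mem_filter, hmZc]
  obtain ⟨P, hP⟩ : ∃ P, P = Zc.image par := ⟨_, rfl⟩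
  have hmP : ∀ y, y ∈ P → ∃ z, z ∉ Z₀ ∧ par z = y := by
    intro y hy
    rw [hP] at hy
    obtain ⟨z, hz, hzy⟩ := Finset.mem_image.mp hy
    exact ⟨z, (hmZc z).mp hz, hzy⟩
  have hcn' : ∀ y, ∃ C : Finset V, y ∈ P →
      (∀ z, z ∉ Z₀ → par z = y → f z ∈ C ∧ cand H r par z f ⊆ C) ∧
      (∀ w ∈ C, H.Adj (f y) w) ∧ (∀ w ∈ C, ∀ z', f z' = w → r y < r z') ∧
      (∀ z ∈ Z₀, f z ∉ C) := by
    intro y
    by_cases hy : y ∈ P
    · obtain ⟨C, hC⟩ := first_child hr hpar hfi hfa y (hmP y hy)
      exact ⟨C, fun _ => hC⟩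
    · exact ⟨∅, fun h => absurd h hy⟩
  choose cn hcn using hcn'
  obtain ⟨m, hm⟩ : ∃ m : Z → ℕ, ∀ y, m y = (cn y).card := ⟨fun y => (cn y).card, fun _ => rfl⟩
  have hchm : ∀ y ∈ P, (ch y).card ≤ m y := by
    intro y hy
    have h1 : (ch y).image f ⊆ cn y := by
      intro w hw
      obtain ⟨z, hz, rfl⟩ := Finset.mem_image.mp hw
      rcases (hmch y z).mp hz with ⟨h4, h5⟩
      exact ((hcn y hy).1 z h4 h5).1
    have h2 := Finset.card_le_card h1
    rwa [Finset.card_image_of_injective _ hfi, ← hm] at h2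
  obtain ⟨Big, hBig⟩ : ∃ Big, Big = P.filter (fun y => 36 * a < (m y : ℝ)) := ⟨_, rfl⟩
  have hmBig : ∀ y, y ∈ Big ↔ y ∈ P ∧ 36 * a < (m y : ℝ) := by
    intro y
    rw [hBig, Finset.mem_filter]
  have hBigP : Big ⊆ P := fun y hy => ((hmBig y).mp hy).1
  obtain ⟨NB, hNB1, hNB2⟩ : ∃ NB : Z → Finset V, (∀ y ∈ Big, NB y = cn y) ∧
      ∀ y, y ∉ Big → NB y = (ch y).image f :=
    ⟨fun y => if y ∈ Big then cn y else (ch y).image f, fun y hy => if_pos hy,
      fun y hy => if_neg hy⟩
  obtain ⟨B, hB⟩ : ∃ B : Z → Finset V, ∀ y, B y =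
      (Z₀.filter (fun y' => y ∈ Z₀ ∧ T.Adj y y' ∧ r y < r y')).image f :=
    ⟨fun y => _, fun _ => rfl⟩
  have hBcard : ∑ y, (B y).card = eb := by
    rw [heb]
    refine Finset.sum_congr rfl fun y _ => ?_
    rw [hB, Finset.card_image_of_injective _ hfi]
  have hZne : Nonempty Z := ⟨hne.choose⟩
  have hbudget := oriented_budget (r := r) hn hq hV hO hfi hZne B NB
    (by
      intro y w hw
      rw [hB] at hw
      obtain ⟨z, hz, rfl⟩ := Finset.mem_image.mp hw
      exact ⟨z, (Finset.mem_filter.mp hz).1, rfl⟩)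
    (by
      intro y w hw
      rcases Finset.mem_union.mp hw with h1 | h1
      · rw [hB] at h1
        obtain ⟨z, hz, rfl⟩ := Finset.mem_image.mp h1
        exact hfa _ _ (Finset.mem_filter.mp hz).2.2.1
      · by_cases hy : y ∈ Big
        · rw [hNB1 y hy] at h1
          exact (hcn y (hBigP hy)).2.1 w h1
        · rw [hNB2 y hy] at h1
          obtain ⟨z, hz, rfl⟩ := Finset.mem_image.mp h1
          rcases (hmch y z).mp hz with ⟨h4, h5⟩
          have := (hpar z h4).1
          rw [h5] at this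
          exact hfa _ _ this)
    (by
      intro y w hw z' hz'
      rcases Finset.mem_union.mp hw with h1 | h1
      · rw [hB] at h1
        obtain ⟨z, hz, h2⟩ := Finset.mem_image.mp h1
        have h3 := hfi (h2.trans hz'.symm)
        rw [h3] at hz
        exact (Finset.mem_filter.mp hz).2.2.2
      · by_cases hy : y ∈ Big
        · rw [hNB1 y hy] at h1
          exact (hcn y (hBigP hy)).2.2.1 w h1 z' hz'
        · rw [hNB2 y hy] at h1
          obtain ⟨z, hz, h2⟩ := Finset.mem_image.mp h1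
          have h3 := hfi (h2.trans hz'.symm)
          rw [h3] at hz
          rcases (hmch y z').mp hz with ⟨h4, h5⟩
          have := (hpar z' h4).2
          rwa [h5] at this)
    (by
      intro y z hz hmem
      by_cases hy : y ∈ Big
      · rw [hNB1 y hy] at hmem
        exact (hcn y (hBigP hy)).2.2.2 z hz hmem
      · rw [hNB2 y hy] at hmem
        obtain ⟨z', hz', h1⟩ := Finset.mem_image.mp hmem
        have h2 := hfi h1
        rw [h2] at hz'
        exact ((hmch y z).mp hz').1 hz)
    (by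
      intro z hz
      refine ⟨par z, ?_⟩
      by_cases hy : par z ∈ Big
      · rw [hNB1 _ hy]
        exact ((hcn _ (hBigP hy)).1 z hz rfl).1
      · rw [hNB2 _ hy]
        exact Finset.mem_image_of_mem _ ((hmch _ z).mpr ⟨hz, rfl⟩))
    (by rw [hBcard]; exact hbase)
  rw [hBcard, ← ha'] at hbudget
  -- the sums
  have hsumch : ∑ y ∈ P, (ch y).card = Zc.card := by
    simp only [hch]
    rw [hP]
    exact (Finset.card_eq_sum_card_fiberwise (fun z hz => Finset.mem_coe.mpr
      (Finset.mem_image_of_mem _ (Finset.mem_coe.mp hz)))).symm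
  obtain ⟨sb, hsb⟩ : ∃ sb, sb = ∑ y ∈ Big, m y := ⟨_, rfl⟩
  obtain ⟨sr, hsr⟩ : ∃ sr, sr = ∑ y ∈ P \ Big, (ch y).card := ⟨_, rfl⟩
  have hsrle : sr ≤ Zc.card := by
    rw [← hsumch, hsr]
    exact Finset.sum_le_sum_of_subset Finset.sdiff_subset
  have hnbsum : ∑ y, (NB y).card = sb + sr := by
    have h1 : ∑ y, (NB y).card = ∑ y ∈ P, (NB y).card := by
      refine (Finset.sum_subset (Finset.subset_univ _) ?_).symm
      intro y _ hy
      have hy' : y ∉ Big := fun h => hy (hBigP h)
      rw [hNB2 y hy', Finset.card_eq_zero, Finset.image_eq_empty, Finset.eq_empty_iff_forall_notMem]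
      intro z hz
      rcases (hmch y z).mp hz with ⟨h4, h5⟩
      rw [hP] at hy
      exact hy (h5 ▸ Finset.mem_image_of_mem _ ((hmZc z).mpr h4))
    rw [h1, ← Finset.sum_sdiff hBigP, add_comm, hsb, hsr]
    congr 1
    · refine Finset.sum_congr rfl fun y hy => ?_
      rw [hNB1 y hy, hm]
    · refine Finset.sum_congr rfl fun y hy => ?_
      rw [hNB2 y (Finset.mem_sdiff.mp hy).2, Finset.card_image_of_injective _ hfi]
  have hBigprod : (∏ y ∈ Big, (((m y)! : ℕ) : ℝ)) ≤ ∏ y, (((NB y).card)! : ℝ) := by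
    have h1 : ∏ y ∈ Big, (m y)! ≤ ∏ y, ((NB y).card)! := by
      have h2 : ∏ y ∈ Big, (m y)! = ∏ y ∈ Big, ((NB y).card)! := by
        refine Finset.prod_congr rfl fun y hy => ?_
        rw [hNB1 y hy, hm]
      rw [h2]
      exact Finset.prod_le_prod_of_subset_of_one_le' (Finset.subset_univ _)
        (fun u _ _ => Nat.factorial_pos _)
    exact_mod_cast h1
  have h12 : (0 : ℝ) < 12 * a := by positivity
  have h121 : (1 : ℝ) ≤ 12 * a := by linarith
  have hprod1 : (∏ z ∈ Zc, ((cand H r par z f).card : ℝ)) ≤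
      ∏ y ∈ P, ((m y : ℝ) ^ (ch y).card) := by
    rw [← Finset.prod_fiberwise_of_maps_to (s := Zc) (t := P) (g := par)
      (fun z hz => by rw [hP]; exact Finset.mem_image_of_mem _ hz)]
    refine Finset.prod_le_prod (fun _ _ => Finset.prod_nonneg fun _ _ => by positivity) ?_
    intro y hy
    calc ∏ z ∈ Zc.filter (fun z => par z = y), ((cand H r par z f).card : ℝ)
        ≤ ∏ z ∈ Zc.filter (fun z => par z = y), (m y : ℝ) := by
          refine Finset.prod_le_prod (fun _ _ => by positivity) fun z hz => ?_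
          rcases Finset.mem_filter.mp hz with ⟨h4, h5⟩
          rw [hm]
          exact_mod_cast Finset.card_le_card ((hcn y hy).1 z ((hmZc z).mp h4) h5).2
      _ = _ := by rw [Finset.prod_const, hch]
  have hprod2 := parents_prod (x := fun y => (ch y).card) hBigP (m := m) ha0
    (fun y hy => hchm y (hBigP hy)) (fun y hy => ((hmBig y).mp hy).2)
    (fun y hy => by
      rcases Finset.mem_sdiff.mp hy with ⟨h2, h3⟩
      by_contra hcon
      exact h3 ((hmBig y).mpr ⟨h2, by linarith⟩))
  rw [hsumch, ← hsb] at hprod2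
  have hfinal : (∏ z ∈ Zc, ((cand H r par z f).card : ℝ)) * (12 * a) ^ sb ≤
      ((36 * a) ^ Zc.card * (12 * a) ^ (eb + Zc.card)) * (12 * a) ^ sb := by
    calc (∏ z ∈ Zc, ((cand H r par z f).card : ℝ)) * (12 * a) ^ sb
        ≤ (∏ y ∈ P, ((m y : ℝ) ^ (ch y).card)) * (12 * a) ^ sb :=
          mul_le_mul_of_nonneg_right hprod1 (by positivity)
      _ ≤ (36 * a) ^ Zc.card * ∏ y ∈ Big, (((m y)! : ℕ) : ℝ) := hprod2
      _ ≤ (36 * a) ^ Zc.card * (12 * a) ^ (eb + ∑ y, (NB y).card) :=
          mul_le_mul_of_nonneg_left (hBigprod.trans hbudget) (by positivity)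
      _ = (36 * a) ^ Zc.card * ((12 * a) ^ (eb + sr) * (12 * a) ^ sb) := by
          rw [← pow_add, hnbsum]
          congr 2
          omega
      _ ≤ (36 * a) ^ Zc.card * ((12 * a) ^ (eb + Zc.card) * (12 * a) ^ sb) := by
          refine mul_le_mul_of_nonneg_left ?_ (by positivity)
          refine mul_le_mul_of_nonneg_right ?_ (by positivity)
          exact pow_le_pow_right₀ h121 (by omega)
      _ = _ := by ring
  exact le_of_mul_le_mul_right hfinal (by positivity)

/-- The number of extensions of a map from a set with enough edges inside. -/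
theorem ext_le {T : SimpleGraph Z} {H : SimpleGraph V} {n : ℕ} {q : ℝ} (hn : 0 < n)
    (hq : 0 < q) (hV : Fintype.card V ≤ n) (hO : OBound H n q) (ha : 1 ≤ (n : ℝ) * q)
    {Z₀ : Finset Z} {r : Z → ℕ} (hr : IsRank T Z₀ r) (hne : Z₀.Nonempty) {eb : ℕ}
    (heb : eb = ∑ y : Z, (Z₀.filter (fun y' => y ∈ Z₀ ∧ T.Adj y y' ∧ r y < r y')).card)
    (hbase : Z₀.card ≤ eb) (g : Z → V) :
    ((Ext T H r Z₀.card g).card : ℝ) ≤
      (36 * ((n : ℝ) * q)) ^ (Finset.univ.filter (fun z => z ∉ Z₀)).card *
        (12 * ((n : ℝ) * q)) ^ (eb + (Finset.univ.filter (fun z => z ∉ Z₀)).card) := by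
  have hpar' : ∀ z, ∃ y, z ∉ Z₀ → T.Adj y z ∧ r y < r z := by
    intro z
    by_cases hz : z ∈ Z₀
    · exact ⟨z, fun h => absurd hz h⟩
    · obtain ⟨y, hy⟩ := hr.par z hz
      exact ⟨y, fun _ => hy⟩
  choose par hpar using hpar'
  have ha0 : 0 < (n : ℝ) * q := by linarith
  by_cases hE : (Ext T H r Z₀.card g).Nonempty
  · obtain ⟨f, hf, hbd⟩ := ext_greedy (M := Finset.univ.sup r + 1) hr hpar
      (fun z => Nat.lt_succ_of_le (Finset.le_sup (Finset.mem_univ z))) _ Z₀.card g rfl le_rfl hE
    have hfilter : Finset.univ.filter (fun z => Z₀.card ≤ r z) =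
        Finset.univ.filter (fun z => z ∉ Z₀) := by
      ext z
      simp only [Finset.mem_filter, Finset.mem_univ, true_and, not_lt, ← hr.low z]
    rw [hfilter] at hbd
    have h1 : ((Ext T H r Z₀.card g).card : ℝ) ≤
        ∏ z ∈ Finset.univ.filter (fun z => z ∉ Z₀), ((cand H r par z f).card : ℝ) := by
      exact_mod_cast hbd
    exact h1.trans (prod_cand_le hn hq hV hO ha hr hpar hne heb hbase (mem_Ext.mp hf).1)
  · rw [Finset.not_nonempty_iff_eq_empty] at hE
    rw [hE]
    simp only [Finset.card_empty, Nat.cast_zero]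
    positivity

end Vale.Agent.Lib.P064k
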