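import Vale.Agent.Lib.P064k.Comps
import Vale.Agent.Lib.P064.Spread5

/-!
From graphs and embeddings to permutations and back.
-/

namespace Vale.Agent.Lib.P064k

open Finset SimpleGraph Vale.Agent.Lib.P064
open scoped Classical Nat

set_option linter.unusedSectionVars false
set_option linter.unusedVariables false

universe u u' v

variable {U : Type u'} [Fintype U] {Z : Type u} [Fintype Z]

/-- Permutations fixing the image of an injective map. -/
lemma stab_card {j : Z → U} (hj : Function.Injective j) :
    ((Finset.univ : Finset (Equiv.Perm U)).filter (fun τ => ∀ z, τ (j z) = j z)).card =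
      (Fintype.card U - Fintype.card Z)! := by
  set p : U → Prop := fun x => ¬ x ∈ Set.range j with hp
  have h1 : Fintype.card {x // p x} = Fintype.card U - Fintype.card Z := by
    have h2 := Fintype.card_subtype_compl (fun x => x ∈ Set.range j)
    have h3 : Fintype.card {x // x ∈ Set.range j} = Fintype.card Z := by
      have := Set.card_range_of_injective hj
      convert this using 2
    rw [← h3]
    convert h2 using 2
  rw [← h1, ← Fintype.card_perm, ← Fintype.card_subtype]
  refine Fintype.card_congr ?_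
  refine Equiv.trans (Equiv.subtypeEquivRight ?_) (Equiv.Perm.subtypeEquivSubtypePerm p).symm
  intro τ
  constructor
  · intro h a ha
    have ha' : a ∈ Set.range j := by
      by_contra hc
      exact ha hc
    obtain ⟨z, rfl⟩ := ha'
    exact h z
  · intro h z
    refine h (j z) ?_
    intro hc
    exact hc ⟨z, rfl⟩

/-- Permutations with prescribed values on the image of an injective map. -/
lemma fib_card {j f : Z → U} (hj : Function.Injective j) (hf : Function.Injective f) :
    ((Finset.univ : Finset (Equiv.Perm U)).filter (fun σ => ∀ z, σ (j z) = f z)).card =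
      (Fintype.card U - Fintype.card Z)! := by
  rw [← stab_card hj]
  set e : {x // x ∈ Set.range j} ≃ {x // x ∈ Set.range f} :=
    (Equiv.ofInjective j hj).symm.trans (Equiv.ofInjective f hf) with he
  set σ₀ : Equiv.Perm U := e.extendSubtype with hσ₀
  have h0 : ∀ z, σ₀ (j z) = f z := by
    intro z
    have h1 : j z ∈ Set.range j := ⟨z, rfl⟩
    rw [hσ₀, Equiv.extendSubtype_apply_of_mem e (j z) h1]
    have h2 : (⟨j z, h1⟩ : {x // x ∈ Set.range j}) = Equiv.ofInjective j hj z := rfl
    rw [he, h2]
    simp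
  refine Finset.card_bij' (fun σ _ => σ₀⁻¹ * σ) (fun τ _ => σ₀ * τ) ?_ ?_ ?_ ?_
  · intro σ hσ
    refine Finset.mem_filter.mpr ⟨Finset.mem_univ _, fun z => ?_⟩
    have h1 := (Finset.mem_filter.mp hσ).2 z
    rw [Equiv.Perm.mul_apply, h1, ← h0 z]
    simp
  · intro τ hτ
    refine Finset.mem_filter.mpr ⟨Finset.mem_univ _, fun z => ?_⟩
    have h1 := (Finset.mem_filter.mp hτ).2 z
    rw [Equiv.Perm.mul_apply, h1, h0]
  · intro σ _
    simp
  · intro τ _
    simp

/-- From permutations to embeddings. -/
lemma mm_le_emb {F G : Finset (Sym2 U)} {T : SimpleGraph Z} {j : Z → U} (hj : Function.Injective j)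
    (hT : ∀ a b, T.Adj a b → s(j a, j b) ∈ F) :
    mm G F ≤ (Fintype.card U - Fintype.card Z)! *
      (Emb T (SimpleGraph.fromEdgeSet (G : Set (Sym2 U))) Finset.univ).card := by
  unfold mm
  refine Finset.card_le_mul_card_image_of_maps_to (f := fun σ : Equiv.Perm U => fun z => σ (j z))
    ?_ _ ?_
  · intro σ hσ
    refine mem_Emb.mpr ⟨σ.injective.comp hj, fun a b hab => ?_, fun _ => Finset.mem_univ _⟩
    have h1 := mem_intoP.mp hσ _ (hT a b hab)
    rw [SimpleGraph.fromEdgeSet_adj]
    refine ⟨by simpa using h1, fun h => hab.ne (hj (σ.injective h))⟩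
  · intro f hf
    have hf' : Function.Injective f := (mem_Emb.mp hf).1
    rw [← fib_card hj hf']
    refine Finset.card_le_card fun σ hσ => ?_
    have h1 := (Finset.mem_filter.mp hσ).2
    exact Finset.mem_filter.mpr ⟨Finset.mem_univ _, fun z => congrFun h1 z⟩

/-- From embeddings to permutations. -/
lemma emb_mul_le_mm {V₀ : Type v} [Fintype V₀] {E W : Finset (Sym2 U)} {T : SimpleGraph Z}
    {H : SimpleGraph V₀} {ι : V₀ → U} (hι : Function.Injective ι) {j : Z → U}
    (hj : Function.Injective j) (hW : ∀ e ∈ W, ∃ a b, T.Adj a b ∧ e = s(j a, j b))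
    (hE : ∀ a b, H.Adj a b → s(ι a, ι b) ∈ E) :
    (Emb T H Finset.univ).card * (Fintype.card U - Fintype.card Z)! ≤ mm E W := by
  set fibr : (Z → V₀) → Finset (Equiv.Perm U) := fun f =>
    (Finset.univ : Finset (Equiv.Perm U)).filter (fun σ => ∀ z, σ (j z) = ι (f z)) with hfibr
  have h1 : ∀ f ∈ Emb T H Finset.univ, (fibr f).card = (Fintype.card U - Fintype.card Z)! := by
    intro f hf
    exact fib_card hj (hι.comp (mem_Emb.mp hf).1)
  have h2 : ((Emb T H Finset.univ).biUnion fibr).card =
      (Emb T H Finset.univ).card * (Fintype.card U - Fintype.card Z)! := by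
    rw [Finset.card_biUnion]
    · rw [Finset.sum_congr rfl h1, Finset.sum_const, smul_eq_mul]
    · intro f _ f' _ hne
      refine Finset.disjoint_left.mpr fun σ h3 h4 => hne ?_
      funext z
      have h5 := (Finset.mem_filter.mp h3).2 z
      have h6 := (Finset.mem_filter.mp h4).2 z
      exact hι (h5.symm.trans h6)
  rw [← h2]
  refine Finset.card_le_card ?_
  intro σ hσ
  obtain ⟨f, hf, hσf⟩ := Finset.mem_biUnion.mp hσ
  have h3 := (Finset.mem_filter.mp hσf).2
  refine mem_intoP.mpr fun e he => ?_
  obtain ⟨a, b, hab, rfl⟩ := hW e he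
  simp only [Sym2.map_mk, h3]
  exact hE _ _ ((mem_Emb.mp hf).2.1 a b hab)

/-- The number of copies in a graph given by a set of pairs. -/
lemma copyCount_le_choose {T : SimpleGraph Z} (hno : ∀ z, ∃ y, T.Adj z y) (G : Finset (Sym2 U)) :
    (SimpleGraph.fromEdgeSet (G : Set (Sym2 U))).copyCount T ≤ G.card.choose (numEdges T) := by
  set Gg := SimpleGraph.fromEdgeSet (G : Set (Sym2 U)) with hGg
  rw [copyCount_eq_card_image_copyToSubgraph, ← Finset.card_powersetCard]
  refine Finset.card_le_card_of_injOn (fun S' => S'.edgeSet.toFinset) ?_ ?_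
  · intro S' hS'
    obtain ⟨f, _, rfl⟩ := Finset.mem_image.mp (Finset.mem_coe.mp hS')
    refine Finset.mem_coe.mpr (Finset.mem_powersetCard.mpr ⟨?_, ?_⟩)
    · intro e he
      have h1 : e ∈ f.toSubgraph.edgeSet := Set.mem_toFinset.mp he
      have h2 := f.toSubgraph.edgeSet_subset h1
      induction e using Sym2.ind with
      | _ a b =>
        have h3 : Gg.Adj a b := h2
        rw [hGg, SimpleGraph.fromEdgeSet_adj] at h3
        exact h3.1
    · have h1 : numEdges f.toSubgraph.coe = numEdges T := (numEdges_iso f.isoToSubgraph).symm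
      rw [numEdges_coe] at h1
      rw [← h1, Set.ncard_eq_toFinset_card']
  · intro S₁ h₁ S₂ h₂ heq
    obtain ⟨f₁, _, rfl⟩ := Finset.mem_image.mp (Finset.mem_coe.mp h₁)
    obtain ⟨f₂, _, rfl⟩ := Finset.mem_image.mp (Finset.mem_coe.mp h₂)
    have hE : f₁.toSubgraph.edgeSet = f₂.toSubgraph.edgeSet := by
      have := heq
      simp only [Set.toFinset_inj] at this
      exact this
    have hadj : ∀ a b, f₁.toSubgraph.Adj a b ↔ f₂.toSubgraph.Adj a b := by
      intro a b
      rw [← Subgraph.mem_edgeSet, ← Subgraph.mem_edgeSet, hE]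
    refine Subgraph.ext ?_ ?_
    · ext x
      constructor
      · intro hx
        obtain ⟨z, rfl⟩ := (toSubgraph_verts _ _ f₁ _).mp hx
        obtain ⟨y, hy⟩ := hno z
        have h3 : f₁.toSubgraph.Adj (f₁ z) (f₁ y) := (toSubgraph_adj _ _ f₁ z y).mpr hy
        exact ((hadj _ _).mp h3).fst_mem
      · intro hx
        obtain ⟨z, rfl⟩ := (toSubgraph_verts _ _ f₂ _).mp hx
        obtain ⟨y, hy⟩ := hno z
        have h3 : f₂.toSubgraph.Adj (f₂ z) (f₂ y) := (toSubgraph_adj _ _ f₂ z y).mpr hy
        exact ((hadj _ _).mpr h3).fst_mem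
    · funext a b
      exact propext (hadj a b)

end Vale.Agent.Lib.P064k
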