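import Vale.Agent.Lib.P064k.Perm

/-!
Removal of pendant edges and the chain of extremal subsets.
-/

namespace Vale.Agent.Lib.P064k

open Finset
open scoped Classical Nat

set_option linter.unusedSectionVars false
set_option linter.unusedVariables false

variable {V : Type*} [Fintype V]

/-- The vertices covered by a set of pairs. -/
noncomputable def vtx (B : Finset (Sym2 V)) : Finset V := B.biUnion Sym2.toFinset

lemma mem_vtx {B : Finset (Sym2 V)} {x : V} : x ∈ vtx B ↔ ∃ e ∈ B, x ∈ e := by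
  simp [vtx]

lemma vtx_mono {B B' : Finset (Sym2 V)} (h : B ⊆ B') : vtx B ⊆ vtx B' :=
  Finset.biUnion_subset_biUnion_of_subset_left _ h

/-- The pairs of `B` at the vertex `x`. -/
noncomputable def at' (B : Finset (Sym2 V)) (x : V) : Finset (Sym2 V) := B.filter (fun e => x ∈ e)

lemma mem_at' {B : Finset (Sym2 V)} {x : V} {e : Sym2 V} : e ∈ at' B x ↔ e ∈ B ∧ x ∈ e := by
  simp [at']

/-- Every covered vertex lies in at least two pairs. -/
def IsM (K : Finset (Sym2 V)) : Prop := ∀ x ∈ vtx K, 2 ≤ (at' K x).card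

/-- No pair of `W` is a loop. -/
def NoDiag (W : Finset (Sym2 V)) : Prop := ∀ e ∈ W, ¬ e.IsDiag

lemma NoDiag.mono {W W' : Finset (Sym2 V)} (h : W ⊆ W') (hW : NoDiag W') : NoDiag W :=
  fun e he => hW e (h he)

/-- The counting step for a pendant edge. -/
theorem leaf_count {G A : Finset (Sym2 V)} {D : ℕ} (hD : ∀ x, (at' G x).card ≤ D) {y z : V}
    (hyz : y ≠ z) (he : s(y, z) ∈ A) (hz : z ∉ vtx (A.erase s(y, z))) {X : Finset V}
    (hX : X = insert y (vtx (A.erase s(y, z)))) :
    mm G A * (Xᶜ).card ≤ mm G (A.erase s(y, z)) * D := by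
  set e := s(y, z) with he'
  have hzX : z ∉ X := by
    rw [hX]
    simp only [Finset.mem_insert, not_or]
    exact ⟨hyz.symm, hz⟩
  have hyX : y ∈ X := by
    rw [hX]
    exact Finset.mem_insert_self _ _
  set P₁ := (intoP G A) ×ˢ (Xᶜ) with hP₁
  set P₂ := (intoP G (A.erase e)).sigma
    (fun σ => (Xᶜ).filter (fun w => s(σ y, σ w) ∈ G)) with hP₂
  have hcard : P₁.card ≤ P₂.card := by
    refine Finset.card_le_card_of_injOn
      (fun a => (⟨a.1 * Equiv.swap z a.2, a.2⟩ : Σ _ : Equiv.Perm V, V)) ?_ ?_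
    · rintro ⟨σ, w⟩ hσw
      have hσw' := Finset.mem_coe.mp hσw
      rcases Finset.mem_product.mp hσw' with ⟨h1, h2⟩
      have hw : w ∉ X := by simpa using h2
      have hwy : y ≠ w := fun h => hw (h ▸ hyX)
      refine Finset.mem_coe.mpr (Finset.mem_sigma.mpr ⟨?_, ?_⟩)
      · refine mem_intoP.mpr fun e' he'' => ?_
        rw [map_mul_eq]
        have hfix : Sym2.map (Equiv.swap z w) e' = e' := by
          have hv : ∀ a ∈ e', a ≠ z ∧ a ≠ w := by
            intro a ha
            have ha' : a ∈ vtx (A.erase e) := mem_vtx.mpr ⟨e', he'', ha⟩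
            refine ⟨fun h => hz (h ▸ ha'), fun h => hw ?_⟩
            rw [hX, ← h]
            exact Finset.mem_insert_of_mem ha'
          induction e' using Sym2.ind with
          | _ a b =>
            have ha := hv a (Sym2.mem_mk_left a b)
            have hb := hv b (Sym2.mem_mk_right a b)
            simp [Equiv.swap_apply_of_ne_of_ne ha.1 ha.2, Equiv.swap_apply_of_ne_of_ne hb.1 hb.2]
        rw [hfix]
        exact mem_intoP.mp h1 e' (Finset.mem_of_mem_erase he'')
      · refine Finset.mem_filter.mpr ⟨h2, ?_⟩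
        have h3 := mem_intoP.mp h1 e he
        have h4 : (σ * Equiv.swap z w) y = σ y := by
          simp [Equiv.swap_apply_of_ne_of_ne hyz hwy]
        have h5 : (σ * Equiv.swap z w) w = σ z := by simp
        simp only [h4, h5]
        simpa [he'] using h3
    · rintro ⟨σ, w⟩ _ ⟨σ', w'⟩ _ h
      simp only [Sigma.mk.injEq, heq_eq_eq] at h
      rcases h with ⟨h1, h2⟩
      subst h2
      have h3 := mul_right_cancel h1
      rw [h3]
  rw [hP₁, Finset.card_product] at hcard
  refine hcard.trans ?_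
  rw [hP₂, Finset.card_sigma]
  have h6 : ∀ σ ∈ intoP G (A.erase e), ((Xᶜ).filter (fun w => s(σ y, σ w) ∈ G)).card ≤ D := by
    intro σ _
    refine le_trans ?_ (hD (σ y))
    refine Finset.card_le_card_of_injOn (fun w => s(σ y, σ w)) ?_ ?_
    · intro w hw
      have hw' := Finset.mem_coe.mp hw
      exact Finset.mem_coe.mpr (mem_at'.mpr ⟨(Finset.mem_filter.mp hw').2, Sym2.mem_mk_left _ _⟩)
    · intro w _ w' _ h
      have h1 : s(σ y, σ w) = s(σ y, σ w') := h
      exact σ.injective (Sym2.congr_right.mp h1)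
  calc ∑ σ ∈ intoP G (A.erase e), ((Xᶜ).filter (fun w => s(σ y, σ w) ∈ G)).card
      ≤ ∑ _σ ∈ intoP G (A.erase e), D := Finset.sum_le_sum h6
    _ = _ := by rw [Finset.sum_const, smul_eq_mul]; rfl

/-- If `A` goes into `G` then its vertices go into the vertices of `G`. -/
lemma vtx_card_le_of_mm {G A : Finset (Sym2 V)} (h : mm G A ≠ 0) : (vtx A).card ≤ (vtx G).card := by
  obtain ⟨σ, hσ⟩ := Finset.card_pos.mp (Nat.pos_of_ne_zero h)
  refine Finset.card_le_card_of_injOn σ ?_ (fun _ _ _ _ h' => σ.injective h')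
  intro x hx
  obtain ⟨e, he, hxe⟩ := mem_vtx.mp (Finset.mem_coe.mp hx)
  exact Finset.mem_coe.mpr (mem_vtx.mpr ⟨_, mem_intoP.mp hσ e he, Sym2.mem_map.mpr ⟨x, hxe, rfl⟩⟩)

/-- Removal of a pendant edge, in real form. -/
theorem leaf_real {G A : Finset (Sym2 V)} {D n : ℕ} (hn : 0 < n)
    (hD : ∀ x, (at' G x).card ≤ D) (hG : (vtx G).card ≤ n) (hN : 2 * n ≤ Fintype.card V) {y z : V}
    (hyz : y ≠ z) (he : s(y, z) ∈ A) (hz : z ∉ vtx (A.erase s(y, z))) :
    (mm G A : ℝ) ≤ ((D : ℝ) / n) * (mm G (A.erase s(y, z)) : ℝ) := by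
  have hn' : (0 : ℝ) < n := by exact_mod_cast hn
  by_cases h0 : mm G A = 0
  · rw [h0]
    simp only [Nat.cast_zero]
    positivity
  · set X := insert y (vtx (A.erase s(y, z))) with hX
    have h1 := leaf_count hD hyz he hz hX
    have hXA : X ⊆ vtx A := by
      intro x hx
      rcases Finset.mem_insert.mp hx with rfl | hx'
      · exact mem_vtx.mpr ⟨_, he, Sym2.mem_mk_left _ _⟩
      · exact vtx_mono (Finset.erase_subset _ _) hx'
    have h2 : X.card ≤ n := (Finset.card_le_card hXA).trans ((vtx_card_le_of_mm h0).trans hG)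
    have h3 : n ≤ (Xᶜ).card := by
      rw [Finset.card_compl]
      omega
    have h4 : mm G A * n ≤ mm G (A.erase s(y, z)) * D :=
      (Nat.mul_le_mul_left _ h3).trans h1
    have h5 : (mm G A : ℝ) * n ≤ (mm G (A.erase s(y, z)) : ℝ) * D := by exact_mod_cast h4
    rw [div_mul_eq_mul_div, le_div_iff₀ hn']
    linarith

/-- A set of pairs which is not in the class has a pendant edge. -/
lemma exists_leaf {A : Finset (Sym2 V)} (hA : NoDiag A) (h : ¬ IsM A) :
    ∃ y z, y ≠ z ∧ s(y, z) ∈ A ∧ z ∉ vtx (A.erase s(y, z)) := by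
  unfold IsM at h
  push Not at h
  obtain ⟨z, hz, hc⟩ := h
  obtain ⟨e, he, hze⟩ := mem_vtx.mp hz
  have h1 : at' A z = {e} := by
    have h2 : e ∈ at' A z := mem_at'.mpr ⟨he, hze⟩
    have h3 : (at' A z).card = 1 := by
      have : 0 < (at' A z).card := Finset.card_pos.mpr ⟨e, h2⟩
      omega
    obtain ⟨a, ha⟩ := Finset.card_eq_one.mp h3
    rw [ha] at h2 ⊢
    rw [Finset.mem_singleton.mp h2]
  induction e using Sym2.ind with
  | _ a b =>
    have hab : a ≠ b := fun hab => hA _ he (by simp [hab])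
    rcases Sym2.mem_iff.mp hze with rfl | rfl
    · -- `z = a`
      refine ⟨b, z, hab.symm, ?_, ?_⟩
      · rw [Sym2.eq_swap]; exact he
      · intro hm
        obtain ⟨e', he', hz'⟩ := mem_vtx.mp hm
        have h2 : e' ∈ at' A z := mem_at'.mpr ⟨Finset.mem_of_mem_erase he', hz'⟩
        rw [h1, Finset.mem_singleton] at h2
        rw [h2] at he'
        have := Finset.ne_of_mem_erase he'
        exact this Sym2.eq_swap
    · refine ⟨a, z, hab, he, ?_⟩
      intro hm
      obtain ⟨e', he', hz'⟩ := mem_vtx.mp hm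
      have h2 : e' ∈ at' A z := mem_at'.mpr ⟨Finset.mem_of_mem_erase he', hz'⟩
      rw [h1, Finset.mem_singleton] at h2
      rw [h2] at he'
      exact Finset.ne_of_mem_erase he' rfl

/-- Removal of all pendant edges. -/
theorem pend {G : Finset (Sym2 V)} {D n : ℕ} (hn : 0 < n)
    (hD : ∀ x, (at' G x).card ≤ D) (hG : (vtx G).card ≤ n) (hN : 2 * n ≤ Fintype.card V) :
    ∀ (m : ℕ) (A : Finset (Sym2 V)), A.card = m → NoDiag A →
      (mm G A : ℝ) ≤ ∑ K ∈ A.powerset.filter IsM,
        ((D : ℝ) / n) ^ (A.card - K.card) * (mm G K : ℝ) := by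
  have hc : (0 : ℝ) ≤ (D : ℝ) / n := by positivity
  intro m
  induction m with
  | zero =>
    intro A hA hd
    have hA0 : A = ∅ := Finset.card_eq_zero.mp hA
    subst hA0
    have hM : IsM (∅ : Finset (Sym2 V)) := by
      intro x hx
      simp [vtx] at hx
    have h1 : (∅ : Finset (Sym2 V)) ∈ (∅ : Finset (Sym2 V)).powerset.filter IsM :=
      Finset.mem_filter.mpr ⟨Finset.mem_powerset_self _, hM⟩
    have h2 := Finset.single_le_sum (f := fun K => ((D : ℝ) / n) ^ ((∅ : Finset (Sym2 V)).card - K.card) * (mm G K : ℝ))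
      (fun K _ => by positivity) h1
    simpa using h2
  | succ m ih =>
    intro A hA hd
    by_cases hM : IsM A
    · have h1 : A ∈ A.powerset.filter IsM :=
        Finset.mem_filter.mpr ⟨Finset.mem_powerset_self A, hM⟩
      have h2 := Finset.single_le_sum (f := fun K => ((D : ℝ) / n) ^ (A.card - K.card) * (mm G K : ℝ))
        (fun K _ => by positivity) h1
      simpa using h2
    · obtain ⟨y, z, hyz, he, hz⟩ := exists_leaf hd hM
      have h1 := leaf_real hn hD hG hN hyz he hz
      have hcard : (A.erase s(y, z)).card = m := by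
        rw [Finset.card_erase_of_mem he, hA]
        rfl
      have h2 := ih (A.erase s(y, z)) hcard (NoDiag.mono (Finset.erase_subset _ _) hd)
      refine h1.trans ?_
      refine (mul_le_mul_of_nonneg_left h2 hc).trans ?_
      rw [Finset.mul_sum]
      have hsub : (A.erase s(y, z)).powerset.filter IsM ⊆ A.powerset.filter IsM := by
        intro K hK
        rcases Finset.mem_filter.mp hK with ⟨h3, h4⟩
        exact Finset.mem_filter.mpr
          ⟨Finset.mem_powerset.mpr ((Finset.mem_powerset.mp h3).trans (Finset.erase_subset _ _)), h4⟩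
      refine le_trans (le_of_eq ?_) (Finset.sum_le_sum_of_subset_of_nonneg hsub
        (fun K _ _ => by positivity))
      refine Finset.sum_congr rfl fun K hK => ?_
      have hK' : K ⊆ A.erase s(y, z) := Finset.mem_powerset.mp (Finset.mem_filter.mp hK).1
      have hle : K.card ≤ m := hcard ▸ Finset.card_le_card hK'
      rw [hcard, hA, ← mul_assoc, ← pow_succ']
      congr 2
      omega

/-- The interval sum. -/
lemma interval_sum {W K : Finset (Sym2 V)} (hK : K ⊆ W) (p c : ℝ) :
    ∑ A ∈ W.powerset.filter (fun A => K ⊆ A), p ^ (W.card - A.card) * c ^ (A.card - K.card) =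
      (p + c) ^ (W.card - K.card) := by
  have h1 := Finset.sum_pow_mul_eq_add_pow c p (W \ K)
  have h2 : (W \ K).card = W.card - K.card := Finset.card_sdiff_of_subset hK
  rw [h2] at h1
  rw [add_comm, ← h1]
  refine Finset.sum_nbij' (fun A => A \ K) (fun B => B ∪ K) ?_ ?_ ?_ ?_ ?_
  · intro A hA
    rcases Finset.mem_filter.mp hA with ⟨h3, h4⟩
    exact Finset.mem_powerset.mpr (Finset.sdiff_subset_sdiff (Finset.mem_powerset.mp h3) le_rfl)
  · intro B hB
    have h3 := Finset.mem_powerset.mp hB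
    refine Finset.mem_filter.mpr ⟨Finset.mem_powerset.mpr ?_, Finset.subset_union_right⟩
    exact Finset.union_subset (h3.trans Finset.sdiff_subset) hK
  · intro A hA
    rcases Finset.mem_filter.mp hA with ⟨h3, h4⟩
    exact Finset.sdiff_union_of_subset h4
  · intro B hB
    have h3 := Finset.mem_powerset.mp hB
    refine Finset.union_sdiff_cancel_right ?_
    exact Finset.disjoint_of_subset_left h3 Finset.sdiff_disjoint
  · intro A hA
    rcases Finset.mem_filter.mp hA with ⟨h3, h4⟩
    have h5 := Finset.mem_powerset.mp h3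
    have h6 : (A \ K).card = A.card - K.card := Finset.card_sdiff_of_subset h4
    have h7 : A.card ≤ W.card := Finset.card_le_card h5
    have h8 : K.card ≤ A.card := Finset.card_le_card h4
    rw [h6, mul_comm]
    congr 2
    omega

/-- One step of the chain: from `G` to its extremal subset `F`. -/
theorem step_R {G F : Finset (Sym2 V)} {D n : ℕ} {p : ℝ} (hn : 0 < n) (hp : 0 < p)
    (hFG : F ⊆ G)
    (hF : ∀ S : Finset (Sym2 V), (mm G S : ℝ) * p ^ F.card ≤ (mm G F : ℝ) * p ^ S.card)
    (hpos : 0 < mm G F)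
    (hD : ∀ x, (at' F x).card ≤ D) (hFv : (vtx F).card ≤ n) (hN : 2 * n ≤ Fintype.card V)
    {W : Finset (Sym2 V)} (hW : NoDiag W) :
    (mm G W : ℝ) ≤ ∑ K ∈ W.powerset.filter IsM,
      (p + (D : ℝ) / n) ^ (W.card - K.card) * (mm F K : ℝ) := by
  set c := (D : ℝ) / n with hc
  have hc0 : 0 ≤ c := by positivity
  have h1 := planted hp hFG hF hpos W
  refine h1.trans ?_
  have h2 : ∑ A ∈ W.powerset, p ^ (W.card - A.card) * (mm F A : ℝ) ≤
      ∑ A ∈ W.powerset, p ^ (W.card - A.card) * ∑ K ∈ A.powerset.filter IsM,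
        c ^ (A.card - K.card) * (mm F K : ℝ) := by
    refine Finset.sum_le_sum fun A hA => ?_
    refine mul_le_mul_of_nonneg_left ?_ (by positivity)
    exact pend hn hD hFv hN _ A rfl (NoDiag.mono (Finset.mem_powerset.mp hA) hW)
  refine h2.trans (le_of_eq ?_)
  simp_rw [Finset.mul_sum]
  rw [Finset.sum_comm' (s' := fun K => W.powerset.filter (fun A => K ⊆ A))
    (t' := W.powerset.filter IsM)]
  · refine Finset.sum_congr rfl fun K hK => ?_
    have hKW : K ⊆ W := Finset.mem_powerset.mp (Finset.mem_filter.mp hK).1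
    rw [← interval_sum hKW p c, Finset.sum_mul]
    refine Finset.sum_congr rfl fun A _ => ?_
    ring
  · intro A K
    simp only [Finset.mem_powerset, Finset.mem_filter]
    constructor
    · rintro ⟨h3, h4, h5⟩
      exact ⟨⟨h3, h4⟩, h4.trans h3, h5⟩
    · rintro ⟨⟨h3, h4⟩, _, h5⟩
      exact ⟨h3, h4, h5⟩

/-- The number of chains. -/
noncomputable def Ch : ℕ → Finset (Sym2 V) → ℕ
  | 0, W => if W = ∅ then 1 else 0
  | k + 1, W => ∑ K ∈ W.powerset.filter IsM, Ch k K

/-- The size of the extremal subset. -/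
lemma shrink_of {m f : ℕ} (hf : 0 < f) (h : (6 : ℝ) ^ f ≤ (m.choose f : ℝ)) : 2 * f ≤ m := by
  have hf' : (0 : ℝ) < f := by exact_mod_cast hf
  have h1 : (m.choose f : ℝ) ≤ (m : ℝ) ^ f / (f ! : ℝ) := Nat.choose_le_pow_div f m
  have hfac : (0 : ℝ) < (f ! : ℝ) := by exact_mod_cast Nat.factorial_pos f
  have h2 : (f : ℝ) ^ f / (f ! : ℝ) ≤ Real.exp f :=
    Real.pow_div_factorial_le_exp _ (Nat.cast_nonneg f) f
  have h3 : Real.exp f ≤ 3 ^ f := by
    have : Real.exp f = Real.exp 1 ^ f := by
      rw [← Real.exp_nat_mul]; simp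
    rw [this]
    exact pow_le_pow_left₀ (Real.exp_pos 1).le Real.exp_one_lt_three.le f
  have h4 : (f : ℝ) ^ f ≤ 3 ^ f * (f ! : ℝ) := by
    have := (div_le_iff₀ hfac).mp (h2.trans h3)
    linarith
  have h5 : (6 : ℝ) ^ f * (f : ℝ) ^ f ≤ (3 * (m : ℝ)) ^ f := by
    calc (6 : ℝ) ^ f * (f : ℝ) ^ f ≤ ((m : ℝ) ^ f / (f ! : ℝ)) * (3 ^ f * (f ! : ℝ)) :=
          mul_le_mul (h.trans h1) h4 (by positivity) (by positivity)
      _ = (3 * (m : ℝ)) ^ f := by
          rw [mul_pow]
          field_simp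
  rw [← mul_pow] at h5
  have h6 : 6 * (f : ℝ) ≤ 3 * (m : ℝ) :=
    (pow_le_pow_iff_left₀ (by positivity) (by positivity) hf.ne').mp h5
  have h7 : ((2 * f : ℕ) : ℝ) ≤ (m : ℝ) := by
    push_cast
    linarith
  exact_mod_cast h7

/-- The chain bound. -/
theorem chain_bound {H : Finset (Sym2 V)} {D n : ℕ} {q : ℝ} (hn : 0 < n) (hq : 0 < q)
    (hD : ∀ x, (at' H x).card ≤ D) (hv : (vtx H).card ≤ n) (hN : 2 * n ≤ Fintype.card V)
    (HS : ∀ G ⊆ H, ∀ F ⊆ G, (mm G F : ℝ) ≤
      (G.card.choose F.card : ℝ) * ((Fintype.card V)! : ℝ) * q ^ F.card) :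
    ∀ (k : ℕ) (G : Finset (Sym2 V)), G ⊆ H → G.card < 2 ^ k → ∀ W : Finset (Sym2 V), NoDiag W →
      (mm G W : ℝ) ≤ ((Fintype.card V)! : ℝ) * (6 * q + (D : ℝ) / n) ^ W.card * (Ch k W : ℝ) := by
  set N := Fintype.card V with hNdef
  have hfac : (0 : ℝ) < (N ! : ℝ) := by exact_mod_cast Nat.factorial_pos N
  set w := 6 * q + (D : ℝ) / n with hw
  have hw0 : 0 ≤ w := by positivity
  intro k
  induction k with
  | zero =>
    intro G _ hG W _
    have hG0 : G = ∅ := by
      rw [pow_zero] at hG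
      exact Finset.card_eq_zero.mp (by omega)
    subst hG0
    by_cases hW : W = ∅
    · subst hW
      rw [mm_empty_right]
      simp [Ch, hNdef]
    · rw [mm_empty_left (Finset.nonempty_iff_ne_empty.mpr hW)]
      simp [Ch, hW]
  | succ k ih =>
    intro G hGH hG W hW
    have hp : 0 < 6 * q := by positivity
    obtain ⟨F, hFG, hF⟩ := exists_extremal G hp
    have hFH := hFG.trans hGH
    have hlow : (N ! : ℝ) * (6 * q) ^ F.card ≤ (mm G F : ℝ) := by
      have := hF ∅
      rw [mm_empty_right] at this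
      simpa using this
    have hpos : 0 < mm G F := by
      have h1 : (0 : ℝ) < (mm G F : ℝ) :=
        lt_of_lt_of_le (mul_pos hfac (pow_pos hp _)) hlow
      exact_mod_cast h1
    have hDF : ∀ x, (at' F x).card ≤ D := fun x =>
      (Finset.card_le_card (Finset.filter_subset_filter _ hFH)).trans (hD x)
    have hFv : (vtx F).card ≤ n := (Finset.card_le_card (vtx_mono hFH)).trans hv
    have hFsize : F.card < 2 ^ k := by
      by_cases hF0 : F.card = 0
      · rw [hF0]
        positivity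
      · have h1 := HS G hGH F hFG
        have h2 : (N ! : ℝ) * ((6 : ℝ) ^ F.card * q ^ F.card) ≤
            (G.card.choose F.card : ℝ) * (N ! : ℝ) * q ^ F.card := by
          rw [← mul_pow]
          exact hlow.trans h1
        have h3 : (6 : ℝ) ^ F.card ≤ (G.card.choose F.card : ℝ) := by
          have h4 : (N ! : ℝ) * q ^ F.card > 0 := mul_pos hfac (pow_pos hq _)
          have h5 : (6 : ℝ) ^ F.card * ((N ! : ℝ) * q ^ F.card) ≤
              (G.card.choose F.card : ℝ) * ((N ! : ℝ) * q ^ F.card) := by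
            calc _ = (N ! : ℝ) * ((6 : ℝ) ^ F.card * q ^ F.card) := by ring
              _ ≤ _ := h2
              _ = _ := by ring
          exact le_of_mul_le_mul_right h5 h4
        have h6 := shrink_of (Nat.pos_of_ne_zero hF0) h3
        rw [pow_succ] at hG
        omega
    have h1 := step_R hn hp hFG hF hpos hDF hFv hN hW
    refine h1.trans ?_
    have h2 : ∀ K ∈ W.powerset.filter IsM,
        w ^ (W.card - K.card) * (mm F K : ℝ) ≤ (N ! : ℝ) * w ^ W.card * (Ch k K : ℝ) := by
      intro K hK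
      have hKW : K ⊆ W := Finset.mem_powerset.mp (Finset.mem_filter.mp hK).1
      have hle : K.card ≤ W.card := Finset.card_le_card hKW
      have h3 := ih F hFH hFsize K (NoDiag.mono hKW hW)
      calc w ^ (W.card - K.card) * (mm F K : ℝ)
          ≤ w ^ (W.card - K.card) * ((N ! : ℝ) * w ^ K.card * (Ch k K : ℝ)) :=
            mul_le_mul_of_nonneg_left h3 (by positivity)
        _ = (N ! : ℝ) * (w ^ (W.card - K.card) * w ^ K.card) * (Ch k K : ℝ) := by ring
        _ = (N ! : ℝ) * w ^ W.card * (Ch k K : ℝ) := by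
            rw [← pow_add]
            congr 3
            omega
    refine (Finset.sum_le_sum h2).trans (le_of_eq ?_)
    rw [← Finset.mul_sum]
    simp only [Ch]
    push_cast
    rfl

end Vale.Agent.Lib.P064k
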