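import Vale.Agent.Lib.P064k.Label

/-!
Counting labellings compatible with a selection: classes of the link graph.
-/

namespace Vale.Agent.Lib.P064k

open Finset
open scoped Classical Nat

set_option linter.unusedSectionVars false
set_option linter.unusedVariables false

variable {V : Type*} [Fintype V]

/-- A nonempty set of pairs in the class covers at least three vertices. -/
lemma three_le_vtx {K : Finset (Sym2 V)} (hK : NoDiag K) (hM : IsM K) (hne : K.Nonempty) :
    3 ≤ (vtx K).card := by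
  obtain ⟨e, he⟩ := hne
  induction e using Sym2.ind with
  | _ u w =>
    have huw : u ≠ w := fun h => hK _ he (by simp [h])
    have hu : u ∈ vtx K := mem_vtx.mpr ⟨_, he, Sym2.mem_mk_left _ _⟩
    have hw : w ∈ vtx K := mem_vtx.mpr ⟨_, he, Sym2.mem_mk_right _ _⟩
    obtain ⟨f, hf, hfne⟩ := Finset.exists_mem_ne (hM u hu) s(u, w)
    rcases mem_at'.mp hf with ⟨hf1, hf2⟩
    obtain ⟨z, rfl⟩ := Sym2.mem_iff_exists.mp hf2
    have hzu : z ≠ u := fun h => hK _ hf1 (by simp [h])
    have hzw : z ≠ w := fun h => hfne (by rw [h])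
    have hz : z ∈ vtx K := mem_vtx.mpr ⟨_, hf1, Sym2.mem_mk_right _ _⟩
    have hsub : ({u, w, z} : Finset V) ⊆ vtx K := by
      intro x hx
      simp only [Finset.mem_insert, Finset.mem_singleton] at hx
      rcases hx with rfl | rfl | rfl <;> assumption
    have hcard : ({u, w, z} : Finset V).card = 3 :=
      Finset.card_eq_three.mpr ⟨u, w, z, huw, hzu.symm, hzw.symm, rfl⟩
    calc 3 = ({u, w, z} : Finset V).card := hcard.symm
      _ ≤ _ := Finset.card_le_card hsub

section Selection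

variable {K : Finset (Sym2 V)} (s : ↥(vtx K) → Sym2 V × Sym2 V)

/-- The link graph of a selection. -/
noncomputable def linkG : SimpleGraph (Sym2 V) :=
  SimpleGraph.fromRel (fun e f => ∃ x, s x = (e, f))

/-- The class of a pair. -/
noncomputable def cmpOf (e : Sym2 V) : (linkG s).ConnectedComponent :=
  (linkG s).connectedComponentMk e

/-- The classes of the pairs of `K`. -/
noncomputable def Cl : Finset (linkG s).ConnectedComponent := K.image (cmpOf s)

/-- The number of pairs in a class. -/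
noncomputable def nC (C : (linkG s).ConnectedComponent) : ℕ :=
  (K.filter (fun e => cmpOf s e = C)).card

/-- The links in a class. -/
noncomputable def XC (C : (linkG s).ConnectedComponent) : Finset ↥(vtx K) :=
  Finset.univ.filter (fun x => cmpOf s (s x).1 = C)

/-- The labellings compatible with a selection. -/
noncomputable def Cmp (k : ℕ) : Finset (Sym2 V → ℕ) :=
  (Pi' k K).filter (fun t => ∀ x, t (s x).1 = t (s x).2)

lemma cmp_eq_of_ne {x : ↥(vtx K)} (hx : (s x).1 ≠ (s x).2) :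
    cmpOf s (s x).2 = cmpOf s (s x).1 := by
  have h : (linkG s).Adj (s x).1 (s x).2 := by
    rw [linkG, SimpleGraph.fromRel_adj]
    exact ⟨hx, Or.inl ⟨x, rfl⟩⟩
  exact (SimpleGraph.ConnectedComponent.sound h.reachable).symm

lemma const_of_reachable {t : Sym2 V → ℕ} (ht : ∀ x, t (s x).1 = t (s x).2) {e f : Sym2 V}
    (h : (linkG s).Reachable e f) : t e = t f := by
  obtain ⟨p⟩ := h
  induction p with
  | nil => rfl
  | cons hadj p ih =>
    rw [← ih]
    rw [linkG, SimpleGraph.fromRel_adj] at hadj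
    rcases hadj.2 with ⟨x, hx⟩ | ⟨x, hx⟩
    · have := ht x
      rw [hx] at this
      exact this
    · have := ht x
      rw [hx] at this
      exact this.symm

/-- The number of compatible labellings. -/
lemma card_Cmp_le (k : ℕ) : (Cmp s k).card ≤ k ^ (Cl s).card := by
  have hrep : ∀ C : ↥(Cl s), ∃ e ∈ K, cmpOf s e = C.1 := fun C =>
    Finset.mem_image.mp C.2
  choose rep hrep1 hrep2 using hrep
  have h1 : (Fintype.piFinset (fun _ : ↥(Cl s) => Finset.range k)).card = k ^ (Cl s).card := by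
    rw [Fintype.card_piFinset]
    simp
  rw [← h1]
  refine Finset.card_le_card_of_injOn (fun t C => t (rep C)) ?_ ?_
  · intro t ht
    have ht' := (Finset.mem_filter.mp (Finset.mem_coe.mp ht)).1
    refine Finset.mem_coe.mpr (Fintype.mem_piFinset.mpr fun C => ?_)
    exact Finset.mem_range.mpr ((mem_Pi'.mp ht').1 _ (hrep1 C))
  · intro t ht t' ht' heq
    rcases Finset.mem_filter.mp (Finset.mem_coe.mp ht) with ⟨h2, h3⟩
    rcases Finset.mem_filter.mp (Finset.mem_coe.mp ht') with ⟨h4, h5⟩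
    funext e
    by_cases he : e ∈ K
    · set C : ↥(Cl s) := ⟨cmpOf s e, Finset.mem_image_of_mem _ he⟩ with hC
      have h6 : cmpOf s (rep C) = cmpOf s e := hrep2 C
      have h7 : (linkG s).Reachable e (rep C) := SimpleGraph.ConnectedComponent.exact h6.symm
      rw [const_of_reachable s h3 h7, const_of_reachable s h5 h7]
      exact congrFun heq C
    · rw [(mem_Pi'.mp h2).2 e he, (mem_Pi'.mp h4).2 e he]

/-- The number of selectors of a pair. -/
noncomputable def sd (e : Sym2 V) : Finset ↥(vtx K) :=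
  Finset.univ.filter (fun x => (s x).1 = e ∨ (s x).2 = e)

variable {s}

lemma sel_mem (hs : s ∈ Sel K) (x : ↥(vtx K)) {e : Sym2 V} (he : x ∈ sd s e) : e ∈ K ∧ x.1 ∈ e := by
  have h1 := mem_Sel.mp hs x
  rcases (Finset.mem_filter.mp he).2 with rfl | rfl
  · exact mem_at'.mp h1.1
  · exact mem_at'.mp h1.2

lemma sd_card_le (hs : s ∈ Sel K) (e : Sym2 V) : (sd s e).card ≤ 2 := by
  refine le_trans ?_ (pair_card_le e)
  refine Finset.card_le_card_of_injOn (fun x => x.1) ?_ ?_
  · intro x hx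
    exact Finset.mem_coe.mpr
      (Finset.mem_filter.mpr ⟨Finset.mem_univ _, (sel_mem hs x (Finset.mem_coe.mp hx)).2⟩)
  · intro x _ y _ h
    exact Subtype.ext h

/-- Double counting in a class. -/
lemma two_lC_le (hs : s ∈ Sel K) (hne : ∀ x, (s x).1 ≠ (s x).2) (C : (linkG s).ConnectedComponent) :
    2 * (XC s C).card ≤ ∑ e ∈ K.filter (fun e => cmpOf s e = C), (sd s e).card := by
  have h1 := Finset.sum_card_bipartiteAbove_eq_sum_card_bipartiteBelow
    (s := XC s C) (t := K.filter (fun e => cmpOf s e = C))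
    (fun (x : ↥(vtx K)) (e : Sym2 V) => (s x).1 = e ∨ (s x).2 = e)
  have h2 : 2 * (XC s C).card ≤ ∑ x ∈ XC s C, ((K.filter (fun e => cmpOf s e = C)).filter
      (fun e => (s x).1 = e ∨ (s x).2 = e)).card := by
    rw [mul_comm, ← smul_eq_mul, ← Finset.sum_const]
    refine Finset.sum_le_sum fun x hx => ?_
    have hx1 : cmpOf s (s x).1 = C := (Finset.mem_filter.mp hx).2
    have hx2 : cmpOf s (s x).2 = C := (cmp_eq_of_ne s (hne x)).trans hx1
    have h3 := mem_Sel.mp hs x
    have h4 : ({(s x).1, (s x).2} : Finset (Sym2 V)) ⊆ (K.filter (fun e => cmpOf s e = C)).filter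
        (fun e => (s x).1 = e ∨ (s x).2 = e) := by
      intro e he
      simp only [Finset.mem_insert, Finset.mem_singleton] at he
      rcases he with rfl | rfl
      · exact Finset.mem_filter.mpr
          ⟨Finset.mem_filter.mpr ⟨(mem_at'.mp h3.1).1, hx1⟩, Or.inl rfl⟩
      · exact Finset.mem_filter.mpr
          ⟨Finset.mem_filter.mpr ⟨(mem_at'.mp h3.2).1, hx2⟩, Or.inr rfl⟩
    calc 2 = ({(s x).1, (s x).2} : Finset (Sym2 V)).card := (Finset.card_pair (hne x)).symm
      _ ≤ _ := Finset.card_le_card h4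
  refine h2.trans ?_
  unfold Finset.bipartiteAbove Finset.bipartiteBelow at h1
  refine le_of_eq_of_le h1 ?_
  refine Finset.sum_le_sum fun e _ => ?_
  refine Finset.card_le_card fun x hx => ?_
  exact Finset.mem_filter.mpr ⟨Finset.mem_univ _, (Finset.mem_filter.mp hx).2⟩

lemma lC_le_nC (hs : s ∈ Sel K) (hne : ∀ x, (s x).1 ≠ (s x).2) (C : (linkG s).ConnectedComponent) :
    (XC s C).card ≤ nC s C := by
  have h1 := two_lC_le hs hne C
  have h2 : ∑ e ∈ K.filter (fun e => cmpOf s e = C), (sd s e).card ≤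
      ∑ _e ∈ K.filter (fun e => cmpOf s e = C), 2 :=
    Finset.sum_le_sum fun e _ => sd_card_le hs e
  rw [Finset.sum_const, smul_eq_mul] at h2
  unfold nC
  omega

/-- In a class with as many links as pairs all pairs are selected at both ends. -/
lemma sd_eq_two (hs : s ∈ Sel K) (hne : ∀ x, (s x).1 ≠ (s x).2)
    {C : (linkG s).ConnectedComponent} (hC : (XC s C).card = nC s C) {e : Sym2 V} (he : e ∈ K)
    (heC : cmpOf s e = C) : (sd s e).card = 2 := by
  have h1 := two_lC_le hs hne C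
  have h2 : ∑ _e ∈ K.filter (fun e => cmpOf s e = C), 2 ≤
      ∑ e ∈ K.filter (fun e => cmpOf s e = C), (sd s e).card := by
    rw [Finset.sum_const, smul_eq_mul]
    rw [hC] at h1
    unfold nC at h1
    omega
  have h3 := (Finset.sum_eq_sum_iff_of_le (s := K.filter (fun e => cmpOf s e = C))
    (f := fun e => (sd s e).card) (g := fun _ => 2) (fun e _ => sd_card_le hs e)).mp
    (le_antisymm (Finset.sum_le_sum fun e _ => sd_card_le hs e) h2)
  exact h3 e (Finset.mem_filter.mpr ⟨he, heC⟩)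

/-- Every end of a pair selected twice selects it. -/
lemma selects_of_two (hK : NoDiag K) (hs : s ∈ Sel K) {e : Sym2 V} (he : e ∈ K)
    (h2 : (sd s e).card = 2) {y : V} (hy : y ∈ e) : ∃ x : ↥(vtx K), x.1 = y ∧ x ∈ sd s e := by
  have h3 : ((sd s e).image (fun x => x.1)) = Finset.univ.filter (fun x => x ∈ e) := by
    refine Finset.eq_of_subset_of_card_le ?_ ?_
    · intro v hv
      obtain ⟨x, hx, rfl⟩ := Finset.mem_image.mp hv
      exact Finset.mem_filter.mpr ⟨Finset.mem_univ _, (sel_mem hs x hx).2⟩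
    · rw [Finset.card_image_of_injective _ Subtype.val_injective, h2]
      exact pair_card_le e
  have h4 : y ∈ (sd s e).image (fun x => x.1) := by
    rw [h3]
    exact Finset.mem_filter.mpr ⟨Finset.mem_univ _, hy⟩
  obtain ⟨x, hx, hxy⟩ := Finset.mem_image.mp h4
  exact ⟨x, hxy, hx⟩

/-- The pairs in a class with as many links as pairs form a set in the class `IsM`. -/
lemma isM_of_cyc (hK : NoDiag K) (hs : s ∈ Sel K) (hne : ∀ x, (s x).1 ≠ (s x).2)
    {C : (linkG s).ConnectedComponent} (hC : (XC s C).card = nC s C) :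
    IsM (K.filter (fun e => cmpOf s e = C)) := by
  intro y hy
  obtain ⟨e, he, hye⟩ := mem_vtx.mp hy
  rcases Finset.mem_filter.mp he with ⟨he1, he2⟩
  obtain ⟨x, hxy, hx⟩ := selects_of_two hK hs he1 (sd_eq_two hs hne hC he1 he2) hye
  have h1 := mem_Sel.mp hs x
  rw [hxy] at h1
  have hC1 : cmpOf s (s x).1 = C := by
    rcases (Finset.mem_filter.mp hx).2 with h | h
    · rw [h]; exact he2
    · rw [← cmp_eq_of_ne s (hne x), h]; exact he2
  have hC2 : cmpOf s (s x).2 = C := (cmp_eq_of_ne s (hne x)).trans hC1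
  have h2 : (s x).1 ∈ at' (K.filter (fun e => cmpOf s e = C)) y :=
    mem_at'.mpr ⟨Finset.mem_filter.mpr ⟨(mem_at'.mp h1.1).1, hC1⟩, (mem_at'.mp h1.1).2⟩
  have h3 : (s x).2 ∈ at' (K.filter (fun e => cmpOf s e = C)) y :=
    mem_at'.mpr ⟨Finset.mem_filter.mpr ⟨(mem_at'.mp h1.2).1, hC2⟩, (mem_at'.mp h1.2).2⟩
  exact Finset.one_lt_card.mpr ⟨_, h2, _, h3, hne x⟩

/-- A class with as many links as pairs has at least three links. -/
lemma three_le_lC (hK : NoDiag K) (hs : s ∈ Sel K) (hne : ∀ x, (s x).1 ≠ (s x).2)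
    {C : (linkG s).ConnectedComponent} (hCl : C ∈ Cl s) (hC : (XC s C).card = nC s C) :
    3 ≤ (XC s C).card := by
  obtain ⟨e₀, he₀, he₀C⟩ := Finset.mem_image.mp hCl
  have hM := isM_of_cyc hK hs hne hC
  have h3 := three_le_vtx (NoDiag.mono (Finset.filter_subset _ _) hK) hM
    ⟨e₀, Finset.mem_filter.mpr ⟨he₀, he₀C⟩⟩
  refine h3.trans ?_
  have h4 : vtx (K.filter (fun e => cmpOf s e = C)) ⊆ (XC s C).image (fun x => x.1) := by
    intro y hy
    obtain ⟨e, he, hye⟩ := mem_vtx.mp hy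
    rcases Finset.mem_filter.mp he with ⟨he1, he2⟩
    obtain ⟨x, hxy, hx⟩ := selects_of_two hK hs he1 (sd_eq_two hs hne hC he1 he2) hye
    refine Finset.mem_image.mpr ⟨x, Finset.mem_filter.mpr ⟨Finset.mem_univ _, ?_⟩, hxy⟩
    rcases (Finset.mem_filter.mp hx).2 with h | h
    · rw [h]; exact he2
    · rw [← cmp_eq_of_ne s (hne x), h]; exact he2
  exact (Finset.card_le_card h4).trans Finset.card_image_le

/-- The bound for the compatible labellings. -/
theorem Cmp_bound (hK : NoDiag K) (hs : s ∈ Sel K) (hne : ∀ x, (s x).1 ≠ (s x).2) (k : ℕ) :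
    ∃ c ν : ℕ, (Cmp s k).card ≤ k ^ c ∧ c + (vtx K).card ≤ K.card + ν ∧ 3 * ν ≤ (vtx K).card ∧
      ∀ S ⊆ K, (∀ B ⊆ S, B.Nonempty → ¬ IsM B) → ν ≤ (K \ S).card := by
  classical
  set Cy := (Cl s).filter (fun C => (XC s C).card = nC s C) with hCy
  refine ⟨(Cl s).card, Cy.card, card_Cmp_le s k, ?_, ?_, ?_⟩
  · -- the sum over classes
    have h1 : K.card = ∑ C ∈ Cl s, nC s C := Finset.card_eq_sum_card_image _ _
    have h2 : (vtx K).card = ∑ C ∈ Cl s, (XC s C).card := by
      have h3 : ∀ x ∈ (Finset.univ : Finset ↥(vtx K)), cmpOf s (s x).1 ∈ Cl s := fun x _ =>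
        Finset.mem_image_of_mem _ (mem_at'.mp (mem_Sel.mp hs x).1).1
      have h4 := Finset.card_eq_sum_card_fiberwise h3
      rw [Finset.card_univ, Fintype.card_coe] at h4
      exact h4
    rw [h1, h2]
    have h5 : ∀ C ∈ Cl s, 1 + (XC s C).card ≤ nC s C + (if (XC s C).card = nC s C then 1 else 0) := by
      intro C _
      have := lC_le_nC hs hne C
      split_ifs with h
      · omega
      · omega
    have h6 := Finset.sum_le_sum h5
    rw [Finset.sum_add_distrib, Finset.sum_add_distrib, Finset.sum_boole] at h6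
    simp only [Finset.sum_const, smul_eq_mul, mul_one, Nat.cast_id] at h6
    exact h6
  · have h2 : ∑ C ∈ Cy, 3 ≤ ∑ C ∈ Cy, (XC s C).card := by
      refine Finset.sum_le_sum fun C hC => ?_
      rcases Finset.mem_filter.mp hC with ⟨h3, h4⟩
      exact three_le_lC hK hs hne h3 h4
    rw [Finset.sum_const, smul_eq_mul, mul_comm] at h2
    refine h2.trans ?_
    have h3 : ∀ x ∈ (Finset.univ : Finset ↥(vtx K)), cmpOf s (s x).1 ∈ Cl s := fun x _ =>
      Finset.mem_image_of_mem _ (mem_at'.mp (mem_Sel.mp hs x).1).1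
    have h4 := Finset.card_eq_sum_card_fiberwise h3
    rw [Finset.card_univ, Fintype.card_coe] at h4
    rw [h4]
    exact Finset.sum_le_sum_of_subset (Finset.filter_subset _ _)
  · intro S _ hS
    have h1 : Cy ⊆ (K \ S).image (cmpOf s) := by
      intro C hC
      rcases Finset.mem_filter.mp hC with ⟨h2, h3⟩
      obtain ⟨e₀, he₀, he₀C⟩ := Finset.mem_image.mp h2
      have hM := isM_of_cyc hK hs hne h3
      by_contra hcon
      refine hS _ ?_ ⟨e₀, Finset.mem_filter.mpr ⟨he₀, he₀C⟩⟩ hM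
      intro e he
      rcases Finset.mem_filter.mp he with ⟨he1, he2⟩
      by_contra heS
      exact hcon (Finset.mem_image.mpr ⟨e, Finset.mem_sdiff.mpr ⟨he1, heS⟩, he2⟩)
    exact (Finset.card_le_card h1).trans Finset.card_image_le

end Selection

/-- The bound for labellings. -/
theorem Lab_bound {K : Finset (Sym2 V)} (hK : NoDiag K) {k cm : ℕ} (hk : 1 ≤ k)
    (hcm : ∀ c ν : ℕ, c + (vtx K).card ≤ K.card + ν → 3 * ν ≤ (vtx K).card →
      (∀ S ⊆ K, (∀ B ⊆ S, B.Nonempty → ¬ IsM B) → ν ≤ (K \ S).card) → c ≤ cm) :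
    (Lab k K).card ≤ 16 ^ K.card * k ^ cm := by
  set S' := (Sel K).filter (fun s => ∀ x, (s x).1 ≠ (s x).2) with hS'
  have hsub : Lab k K ⊆ S'.biUnion (fun s => Cmp s k) := by
    intro t ht
    rcases mem_Lab.mp ht with ⟨h1, h2, h3⟩
    have hex : ∀ x : ↥(vtx K), ∃ p : Sym2 V × Sym2 V, p.1 ∈ at' K x.1 ∧ p.2 ∈ at' K x.1 ∧
        p.1 ≠ p.2 ∧ t p.1 = t p.2 := by
      intro x
      obtain ⟨a, ha, b, hb, hab, hc, _⟩ := h3 x.1 x.2
      exact ⟨(a, b), ha, hb, hab, hc⟩
    choose s hs1 hs2 hs3 hs4 using hex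
    refine Finset.mem_biUnion.mpr ⟨s, Finset.mem_filter.mpr
      ⟨mem_Sel.mpr fun x => ⟨hs1 x, hs2 x⟩, hs3⟩, Finset.mem_filter.mpr ⟨mem_Pi'.mpr ⟨h1, h2⟩, hs4⟩⟩
  refine (Finset.card_le_card hsub).trans ?_
  have h1 : ∀ s ∈ S', (Cmp s k).card ≤ k ^ cm := by
    intro s hs
    rcases Finset.mem_filter.mp hs with ⟨h2, h3⟩
    obtain ⟨c, ν, h4, h5, h6, h7⟩ := Cmp_bound hK h2 h3 k
    exact h4.trans (Nat.pow_le_pow_right hk (hcm c ν h5 h6 h7))
  refine (Finset.card_biUnion_le_card_mul _ _ _ h1).trans ?_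
  refine Nat.mul_le_mul_right _ ?_
  exact (Finset.card_le_card (Finset.filter_subset _ _)).trans (card_Sel_le K)

/-- The bound for chains. -/
theorem Ch_bound {W : Finset (Sym2 V)} (hW : NoDiag W) {k cm : ℕ} (hk : 1 ≤ k)
    (hcm : ∀ K ⊆ W, IsM K → ∀ c ν : ℕ, c + (vtx K).card ≤ K.card + ν → 3 * ν ≤ (vtx K).card →
      (∀ S ⊆ K, (∀ B ⊆ S, B.Nonempty → ¬ IsM B) → ν ≤ (K \ S).card) → c ≤ cm) :
    Ch (k + 1) W ≤ 32 ^ W.card * k ^ cm := by
  simp only [Ch]
  have h1 : ∀ K ∈ W.powerset.filter IsM, Ch k K ≤ 16 ^ W.card * k ^ cm := by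
    intro K hK
    rcases Finset.mem_filter.mp hK with ⟨h2, h3⟩
    have hKW := Finset.mem_powerset.mp h2
    refine (Ch_le_Lab k K h3).trans ((Lab_bound (NoDiag.mono hKW hW) hk (hcm K hKW h3)).trans ?_)
    refine Nat.mul_le_mul_right _ ?_
    exact Nat.pow_le_pow_right (by norm_num) (Finset.card_le_card hKW)
  refine (Finset.sum_le_sum h1).trans ?_
  rw [Finset.sum_const, smul_eq_mul]
  have h2 : (W.powerset.filter IsM).card ≤ 2 ^ W.card := by
    refine (Finset.card_filter_le _ _).trans ?_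
    rw [Finset.card_powerset]
  calc (W.powerset.filter IsM).card * (16 ^ W.card * k ^ cm)
      ≤ 2 ^ W.card * (16 ^ W.card * k ^ cm) := Nat.mul_le_mul_right _ h2
    _ = 32 ^ W.card * k ^ cm := by
        rw [← mul_assoc, ← mul_pow]
        norm_num

end Vale.Agent.Lib.P064k
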