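import Vale.Agent.Lib.P064k.MainDense

/-!
Forests among sets of pairs, and the exponent for connected graphs.
-/

namespace Vale.Agent.Lib.P064k

open Finset SimpleGraph Vale.Agent.Lib.P064
open scoped Classical Nat

set_option linter.unusedSectionVars false
set_option linter.unusedVariables false

universe u u' v

variable {U : Type u'} [Fintype U] {V₀ : Type v} [Fintype V₀] {Z : Type u} [Fintype Z]

lemma edgesF_mono {T T' : SimpleGraph Z} (h : T' ≤ T) : edgesF T' ⊆ edgesF T := by
  intro e he
  rw [mem_edgesF] at he ⊢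
  exact SimpleGraph.edgeSet_mono h he

lemma imgE_mono {j : Z → U} {X Y : Finset (Sym2 Z)} (h : X ⊆ Y) : imgE j X ⊆ imgE j Y :=
  Finset.image_subset_image h

lemma numEdges_tree {T : SimpleGraph Z} (hT : T.IsTree) : numEdges T + 1 = Fintype.card Z := by
  have h := hT.card_edgeFinset
  rw [← h]
  congr 1
  unfold numEdges
  rw [Set.ncard_eq_toFinset_card']
  rfl

/-- A set of pairs inside the image of a forest has more vertices than pairs. -/
theorem forest_count {T : SimpleGraph Z} (hT : T.IsAcyclic) {j : Z → U} (hj : Function.Injective j)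
    {B : Finset (Sym2 U)} (hB : B ⊆ imgE j (edgesF T)) (hne : B.Nonempty) :
    B.card + 1 ≤ (vtx B).card := by
  set B₀ := (edgesF T).filter (fun e => Sym2.map j e ∈ B) with hB₀
  have himg : B₀.image (Sym2.map j) = B := by
    ext e
    constructor
    · intro he
      obtain ⟨e', he', rfl⟩ := Finset.mem_image.mp he
      exact (Finset.mem_filter.mp he').2
    · intro he
      obtain ⟨e', he', rfl⟩ := Finset.mem_image.mp (hB he)
      exact Finset.mem_image.mpr ⟨e', Finset.mem_filter.mpr ⟨he', he⟩, rfl⟩
  have hcard : B₀.card = B.card := by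
    rw [← himg, Finset.card_image_of_injective _ (Sym2.map.injective hj)]
  have hE : ∀ e ∈ B₀, e ∈ T.edgeSet := fun e he => mem_edgesF.mp (Finset.mem_filter.mp he).1
  set J := subOfEdges T B₀ hE with hJ
  have h1 := numEdges_le_sum J.coe (hT.subgraph J)
  have h2 : numEdges J.coe = B₀.card := by
    rw [numEdges_coe, hJ, subOfEdges_edgeSet, Set.ncard_coe_finset]
  have h3 : Fintype.card J.verts = (vertsOf B₀).card :=
    Fintype.card_of_subtype (p := fun x => x ∈ J.verts) (vertsOf B₀) (fun x => Iff.rfl)
  have h4 : (vertsOf B₀).card ≤ (vtx B).card := by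
    have h5 : (vertsOf B₀).image j ⊆ vtx B := by
      intro x hx
      obtain ⟨z, hz, rfl⟩ := Finset.mem_image.mp hx
      obtain ⟨e, he, hze⟩ := mem_vertsOf.mp hz
      refine mem_vtx.mpr ⟨Sym2.map j e, ?_, Sym2.mem_map.mpr ⟨z, hze, rfl⟩⟩
      rw [← himg]
      exact Finset.mem_image_of_mem _ he
    have h6 := Finset.card_le_card h5
    rwa [Finset.card_image_of_injective _ hj] at h6
  have hne₀ : B₀.Nonempty := by
    rw [← Finset.card_pos, hcard]
    exact Finset.card_pos.mpr hne
  obtain ⟨e, he⟩ := hne₀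
  have hne₁ : (vertsOf B₀).Nonempty := by
    induction e using Sym2.ind with
    | _ a b => exact ⟨a, mem_vertsOf.mpr ⟨_, he, Sym2.mem_mk_left a b⟩⟩
  have hpos : ∀ inst : Fintype J.coe.ConnectedComponent, 0 < @Fintype.card _ inst := by
    intro inst
    obtain ⟨z, hz⟩ := hne₁
    exact @Fintype.card_pos_iff _ inst |>.mpr ⟨J.coe.connectedComponentMk ⟨z, hz⟩⟩
  have h1' : numEdges J.coe + 1 ≤ Fintype.card J.verts :=
    le_trans (Nat.add_le_add_left (Nat.succ_le_of_lt (hpos _)) _) h1
  omega

/-- A set of pairs with every covered vertex in at least two pairs has at least as many pairs as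
vertices. -/
lemma vtx_le_of_isM {K : Finset (Sym2 U)} (hM : IsM K) : (vtx K).card ≤ K.card := by
  have h1 := sum_at_le K
  have h2 : ∑ x ∈ vtx K, 2 ≤ ∑ x ∈ vtx K, (at' K x).card := Finset.sum_le_sum hM
  rw [Finset.sum_const, smul_eq_mul] at h2
  omega

/-- The image of a forest contains no nonempty set in which every covered vertex is in at least two
pairs. -/
theorem noCore_img {T : SimpleGraph Z} (hT : T.IsAcyclic) {j : Z → U} (hj : Function.Injective j)
    {B : Finset (Sym2 U)} (hB : B ⊆ imgE j (edgesF T)) (hne : B.Nonempty) : ¬ IsM B := by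
  intro hM
  have h1 := forest_count hT hj hB hne
  have h2 := vtx_le_of_isM hM
  omega

/-- The number of independent cycles. -/
noncomputable def cyc (T : SimpleGraph Z) : ℕ := numEdges T + 1 - Fintype.card Z

lemma card_le_of_connected {T : SimpleGraph Z} (hT : T.Connected) :
    Fintype.card Z ≤ numEdges T + 1 := by
  obtain ⟨T', hle, hT'⟩ := hT.exists_isTree_le
  have h1 := numEdges_tree hT'
  have h2 : numEdges T' ≤ numEdges T := by
    rw [← card_edgesF, ← card_edgesF]
    exact Finset.card_le_card (edgesF_mono hle)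
  omega

/-- The exponent for connected graphs. -/
theorem cm_conn {T : SimpleGraph Z} (hT : T.Connected) {j : Z → U} (hj : Function.Injective j)
    {K : Finset (Sym2 U)} (hK : K ⊆ imgE j (edgesF T)) (hM : IsM K) {c ν : ℕ}
    (h1 : c + (vtx K).card ≤ K.card + ν) (h2 : 3 * ν ≤ (vtx K).card)
    (h3 : ∀ S ⊆ K, (∀ B ⊆ S, B.Nonempty → ¬ IsM B) → ν ≤ (K \ S).card) : c ≤ 2 * cyc T - 1 := by
  obtain ⟨T', hle, hT'⟩ := hT.exists_isTree_le
  have hn1 := numEdges_tree hT'
  set S₀ := imgE j (edgesF T') with hS₀
  set W := imgE j (edgesF T) with hW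
  have hS₀W : S₀ ⊆ W := imgE_mono (edgesF_mono hle)
  have hWc : W.card = numEdges T := by rw [hW, card_imgE hj, card_edgesF]
  have hS₀c : S₀.card = numEdges T' := by rw [hS₀, card_imgE hj, card_edgesF]
  have hg : (W \ S₀).card = cyc T := by
    rw [Finset.card_sdiff_of_subset hS₀W, hWc, hS₀c]
    unfold cyc
    omega
  set S := K ∩ S₀ with hS
  have hSK : S ⊆ K := Finset.inter_subset_left
  have hSS₀ : S ⊆ S₀ := Finset.inter_subset_right
  have hno : ∀ B ⊆ S, B.Nonempty → ¬ IsM B := fun B hB hne =>
    noCore_img hT'.isAcyclic hj (hB.trans hSS₀) hne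
  have h4 := h3 S hSK hno
  have h5 : (K \ S).card ≤ cyc T := by
    rw [← hg]
    refine Finset.card_le_card ?_
    intro e he
    rcases Finset.mem_sdiff.mp he with ⟨h6, h7⟩
    refine Finset.mem_sdiff.mpr ⟨hK h6, fun h8 => h7 (Finset.mem_inter.mpr ⟨h6, h8⟩)⟩
  have h6 : K.card = S.card + (K \ S).card := by
    rw [Finset.card_sdiff_of_subset hSK]
    have := Finset.card_le_card hSK
    omega
  by_cases hSne : S.Nonempty
  · have h7 := forest_count hT'.isAcyclic hj hSS₀ hSne
    have h8 := Finset.card_le_card (vtx_mono hSK)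
    omega
  · rw [Finset.not_nonempty_iff_eq_empty] at hSne
    have h60 : S.card = 0 := by rw [hSne, Finset.card_empty]
    by_cases hKne : K.Nonempty
    · have hd : NoDiag K := NoDiag.mono hK (noDiag_imgE hj T)
      have h7 := three_le_vtx hd hM hKne
      omega
    · rw [Finset.not_nonempty_iff_eq_empty] at hKne
      rw [hKne] at h1 h2
      simp only [vtx, Finset.biUnion_empty, Finset.card_empty] at h1 h2
      omega

end Vale.Agent.Lib.P064k
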