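import Vale.Agent.Lib.P064k.Conn

/-!
Sets of pairs of cycle type: their copies in a sparse graph are pairwise disjoint, and so there are
few of them.
-/

namespace Vale.Agent.Lib.P064k

open Finset SimpleGraph Vale.Agent.Lib.P064
open scoped Classical Nat

set_option linter.unusedSectionVars false
set_option linter.unusedVariables false

universe u u' v

variable {U : Type u'} [Fintype U] {V₀ : Type v} [Fintype V₀] {Z : Type u} [Fintype Z]

/-- A set of pairs of cycle type. -/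
structure IsCyc (K : Finset (Sym2 U)) : Prop where
  nd : NoDiag K
  isM : IsM K
  ne : K.Nonempty
  card : (vtx K).card = K.card
  cross : ∀ X : Finset U, (∃ x ∈ vtx K, x ∈ X) → (∃ x ∈ vtx K, x ∉ X) →
    ∃ e ∈ K, (∃ x ∈ e, x ∈ X) ∧ (∃ y ∈ e, y ∉ X)

/-- In the image of a connected graph with one independent cycle, every nonempty set of pairs with
all covered vertices in at least two pairs is of cycle type. -/
theorem isCyc_of_uni {T : SimpleGraph Z} (hT : T.Connected) (hg : cyc T = 1) {j : Z → U}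
    (hj : Function.Injective j) {K : Finset (Sym2 U)} (hK : K ⊆ imgE j (edgesF T)) (hM : IsM K)
    (hne : K.Nonempty) : IsCyc K := by
  obtain ⟨T', hle, hT'⟩ := hT.exists_isTree_le
  have hn1 := numEdges_tree hT'
  set S₀ := imgE j (edgesF T') with hS₀
  set W := imgE j (edgesF T) with hW
  have hS₀W : S₀ ⊆ W := imgE_mono (edgesF_mono hle)
  have hWc : W.card = numEdges T := by rw [hW, card_imgE hj, card_edgesF]
  have hS₀c : S₀.card = numEdges T' := by rw [hS₀, card_imgE hj, card_edgesF]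
  have hcg : (W \ S₀).card = 1 := by
    rw [Finset.card_sdiff_of_subset hS₀W, hWc, hS₀c]
    unfold cyc at hg
    omega
  obtain ⟨e₀, he₀⟩ := Finset.card_eq_one.mp hcg
  have hsub : ∀ e ∈ W, e ≠ e₀ → e ∈ S₀ := by
    intro e he hne'
    by_contra h
    have h1 : e ∈ W \ S₀ := Finset.mem_sdiff.mpr ⟨he, h⟩
    rw [he₀] at h1
    exact hne' (Finset.mem_singleton.mp h1)
  have hcore : ∀ B ⊆ K, B.Nonempty → IsM B → e₀ ∈ B := by
    intro B hB hBne hBM
    by_contra h
    refine noCore_img hT'.isAcyclic hj (B := B) ?_ hBne hBM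
    intro e he
    exact hsub e (hK (hB he)) (fun h1 => h (h1 ▸ he))
  have hd : NoDiag K := NoDiag.mono hK (noDiag_imgE hj T)
  have he₀K : e₀ ∈ K := hcore K (Finset.Subset.refl _) hne hM
  have h3 := three_le_vtx hd hM hne
  have h4 := vtx_le_of_isM hM
  refine ⟨hd, hM, hne, ?_, ?_⟩
  · have h5 : (K.erase e₀).Nonempty := by
      rw [← Finset.card_pos, Finset.card_erase_of_mem he₀K]
      omega
    have h6 : K.erase e₀ ⊆ S₀ := fun e he =>
      hsub e (hK (Finset.mem_of_mem_erase he)) (Finset.ne_of_mem_erase he)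
    have h7 := forest_count hT'.isAcyclic hj h6 h5
    have h8 := Finset.card_le_card (vtx_mono (Finset.erase_subset e₀ K))
    rw [Finset.card_erase_of_mem he₀K] at h7
    omega
  · intro X ⟨x₁, hx₁, hx₁X⟩ ⟨x₂, hx₂, hx₂X⟩
    by_contra hcon
    push Not at hcon
    set K₁ := K.filter (fun e => ∃ x ∈ e, x ∈ X) with hK₁
    set K₂ := K.filter (fun e => ¬ ∃ x ∈ e, x ∈ X) with hK₂
    have hK₁ne : K₁.Nonempty := by
      obtain ⟨e, he, hxe⟩ := mem_vtx.mp hx₁
      exact ⟨e, Finset.mem_filter.mpr ⟨he, x₁, hxe, hx₁X⟩⟩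
    have hK₂ne : K₂.Nonempty := by
      obtain ⟨e, he, hxe⟩ := mem_vtx.mp hx₂
      refine ⟨e, Finset.mem_filter.mpr ⟨he, ?_⟩⟩
      rintro ⟨x, hx, hxX⟩
      exact hx₂X (hcon e he ⟨x, hx, hxX⟩ x₂ hxe)
    have hM₁ : IsM K₁ := by
      intro y hy
      obtain ⟨e, he, hye⟩ := mem_vtx.mp hy
      obtain ⟨he1, x, hx, hxX⟩ := Finset.mem_filter.mp he
      have hyX : y ∈ X := hcon e he1 ⟨x, hx, hxX⟩ y hye
      have hyK : y ∈ vtx K := mem_vtx.mpr ⟨e, he1, hye⟩
      refine (hM y hyK).trans (Finset.card_le_card ?_)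
      intro e' he'
      rcases mem_at'.mp he' with ⟨h5, h6⟩
      exact mem_at'.mpr ⟨Finset.mem_filter.mpr ⟨h5, y, h6, hyX⟩, h6⟩
    have hM₂ : IsM K₂ := by
      intro y hy
      obtain ⟨e, he, hye⟩ := mem_vtx.mp hy
      obtain ⟨he1, he2⟩ := Finset.mem_filter.mp he
      have hyX : y ∉ X := fun h => he2 ⟨y, hye, h⟩
      have hyK : y ∈ vtx K := mem_vtx.mpr ⟨e, he1, hye⟩
      refine (hM y hyK).trans (Finset.card_le_card ?_)
      intro e' he'
      rcases mem_at'.mp he' with ⟨h5, h6⟩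
      refine mem_at'.mpr ⟨Finset.mem_filter.mpr ⟨h5, ?_⟩, h6⟩
      rintro ⟨x, hx, hxX⟩
      exact hyX (hcon e' h5 ⟨x, hx, hxX⟩ y h6)
    have h5 := hcore K₁ (Finset.filter_subset _ _) hK₁ne hM₁
    have h6 := hcore K₂ (Finset.filter_subset _ _) hK₂ne hM₂
    exact (Finset.mem_filter.mp h6).2 (Finset.mem_filter.mp h5).2

lemma vtx_imgP (σ : Equiv.Perm U) (B : Finset (Sym2 U)) : vtx (imgP σ B) = (vtx B).image σ := by
  ext x
  constructor
  · intro hx
    obtain ⟨e, he, hxe⟩ := mem_vtx.mp hx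
    obtain ⟨e', he', rfl⟩ := Finset.mem_image.mp he
    obtain ⟨y, hy, rfl⟩ := Sym2.mem_map.mp hxe
    exact Finset.mem_image_of_mem _ (mem_vtx.mpr ⟨e', he', hy⟩)
  · intro hx
    obtain ⟨y, hy, rfl⟩ := Finset.mem_image.mp hx
    obtain ⟨e, he, hye⟩ := mem_vtx.mp hy
    exact mem_vtx.mpr ⟨Sym2.map σ e, Finset.mem_image_of_mem _ he, Sym2.mem_map.mpr ⟨y, hye, rfl⟩⟩

lemma card_vtx_imgP (σ : Equiv.Perm U) (B : Finset (Sym2 U)) :
    (vtx (imgP σ B)).card = (vtx B).card := by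
  rw [vtx_imgP, Finset.card_image_of_injective _ σ.injective]

/-- The image of a set of cycle type is of cycle type. -/
theorem IsCyc.img {K : Finset (Sym2 U)} (h : IsCyc K) (σ : Equiv.Perm U) : IsCyc (imgP σ K) := by
  refine ⟨?_, ?_, ?_, ?_, ?_⟩
  · intro e he
    obtain ⟨e', he', rfl⟩ := Finset.mem_image.mp he
    rw [Sym2.isDiag_map σ.injective]
    exact h.nd e' he'
  · intro x hx
    rw [vtx_imgP] at hx
    obtain ⟨y, hy, rfl⟩ := Finset.mem_image.mp hx
    refine (h.isM y hy).trans ?_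
    have h1 : (at' K y).image (Sym2.map σ) ⊆ at' (imgP σ K) (σ y) := by
      intro e he
      obtain ⟨e', he', rfl⟩ := Finset.mem_image.mp he
      rcases mem_at'.mp he' with ⟨h2, h3⟩
      exact mem_at'.mpr ⟨Finset.mem_image_of_mem _ h2, Sym2.mem_map.mpr ⟨y, h3, rfl⟩⟩
    have h2 := Finset.card_le_card h1
    rwa [Finset.card_image_of_injective _ (map_perm_inj σ)] at h2
  · obtain ⟨e, he⟩ := h.ne
    exact ⟨_, Finset.mem_image_of_mem _ he⟩
  · rw [card_vtx_imgP, card_imgP]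
    exact h.card
  · intro X ⟨x₁, hx₁, hx₁X⟩ ⟨x₂, hx₂, hx₂X⟩
    rw [vtx_imgP] at hx₁ hx₂
    obtain ⟨y₁, hy₁, rfl⟩ := Finset.mem_image.mp hx₁
    obtain ⟨y₂, hy₂, rfl⟩ := Finset.mem_image.mp hx₂
    obtain ⟨e, he, ⟨x, hx, hxX⟩, ⟨y, hy, hyX⟩⟩ := h.cross (Finset.univ.filter (fun a => σ a ∈ X))
      ⟨y₁, hy₁, Finset.mem_filter.mpr ⟨Finset.mem_univ _, hx₁X⟩⟩
      ⟨y₂, hy₂, fun h3 => hx₂X (Finset.mem_filter.mp h3).2⟩
    refine ⟨Sym2.map σ e, Finset.mem_image_of_mem _ he, ⟨σ x, Sym2.mem_map.mpr ⟨x, hx, rfl⟩,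
      (Finset.mem_filter.mp hxX).2⟩, ⟨σ y, Sym2.mem_map.mpr ⟨y, hy, rfl⟩, fun h3 => hyX
        (Finset.mem_filter.mpr ⟨Finset.mem_univ _, h3⟩)⟩⟩

/-- Two different sets of cycle type of the same size which share a vertex have a union with more
pairs than vertices. -/
theorem excess {B B' : Finset (Sym2 U)} (hB : IsCyc B) (hB' : IsCyc B') (hc : B.card = B'.card)
    (hne : B ≠ B') (hint : ∃ x, x ∈ vtx B ∧ x ∈ vtx B') :
    (vtx (B ∪ B')).card + 1 ≤ (B ∪ B').card := by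
  set Y := vtx B' \ vtx B with hY
  set D := B' \ B with hD
  have hv : vtx (B ∪ B') = vtx B ∪ Y := by
    ext x
    constructor
    · intro hx
      obtain ⟨e, he, hxe⟩ := mem_vtx.mp hx
      rcases Finset.mem_union.mp he with h1 | h1
      · exact Finset.mem_union_left _ (mem_vtx.mpr ⟨e, h1, hxe⟩)
      · by_cases h2 : x ∈ vtx B
        · exact Finset.mem_union_left _ h2
        · exact Finset.mem_union_right _ (Finset.mem_sdiff.mpr ⟨mem_vtx.mpr ⟨e, h1, hxe⟩, h2⟩)
    · intro hx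
      rcases Finset.mem_union.mp hx with h1 | h1
      · exact vtx_mono Finset.subset_union_left h1
      · exact vtx_mono Finset.subset_union_right (Finset.mem_sdiff.mp h1).1
  have hvc : (vtx (B ∪ B')).card = B.card + Y.card := by
    rw [hv, Finset.card_union_of_disjoint Finset.disjoint_sdiff, hB.card]
  have hec : (B ∪ B').card = B.card + D.card := by
    rw [← Finset.union_sdiff_self_eq_union, Finset.card_union_of_disjoint Finset.disjoint_sdiff]
  rw [hvc, hec]
  by_cases hYe : Y.Nonempty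
  · -- a crossing pair
    obtain ⟨y₀, hy₀⟩ := hYe
    obtain ⟨x, hx1, hx2⟩ := hint
    obtain ⟨e, he, ⟨y, hy, hyY⟩, ⟨z, hz, hzY⟩⟩ := hB'.cross Y
      ⟨y₀, (Finset.mem_sdiff.mp hy₀).1, hy₀⟩ ⟨x, hx2, fun h => (Finset.mem_sdiff.mp h).2 hx1⟩
    have hoff : ∀ a ∈ Y, ∀ e' ∈ B', a ∈ e' → e' ∈ D := by
      intro a ha e' he' hae'
      refine Finset.mem_sdiff.mpr ⟨he', fun h => (Finset.mem_sdiff.mp ha).2 (mem_vtx.mpr ⟨e', h, hae'⟩)⟩
    have heD : e ∈ D := hoff y hyY e he hy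
    have h1 : ∑ a ∈ Y, (at' D a).card = ∑ e' ∈ D, (Y.filter (fun a => a ∈ e')).card := by
      simp only [at']
      exact Finset.sum_card_bipartiteAbove_eq_sum_card_bipartiteBelow _
    have h2 : ∑ a ∈ Y, 2 ≤ ∑ a ∈ Y, (at' D a).card := by
      refine Finset.sum_le_sum fun a ha => ?_
      refine (hB'.isM a (Finset.mem_sdiff.mp ha).1).trans (Finset.card_le_card ?_)
      intro e' he'
      rcases mem_at'.mp he' with ⟨h3, h4⟩
      exact mem_at'.mpr ⟨hoff a ha e' h3 h4, h4⟩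
    rw [Finset.sum_const, smul_eq_mul] at h2
    have h3 : ∀ e' : Sym2 U, (Y.filter (fun a => a ∈ e')).card ≤ 2 := by
      intro e'
      refine le_trans (Finset.card_le_card ?_) (pair_card_le e')
      intro a ha
      exact Finset.mem_filter.mpr ⟨Finset.mem_univ _, (Finset.mem_filter.mp ha).2⟩
    have h4 : (Y.filter (fun a => a ∈ e)).card ≤ 1 := by
      have hyz : y ≠ z := fun h => hzY (h ▸ hyY)
      have he' : e = s(y, z) := (Sym2.mem_and_mem_iff hyz).mp ⟨hy, hz⟩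
      refine Finset.card_le_one.mpr ?_
      intro a ha b hb
      have ha' := Finset.mem_filter.mp ha
      have hb' := Finset.mem_filter.mp hb
      rw [he', Sym2.mem_iff] at ha' hb'
      rcases ha'.2 with rfl | rfl
      · rcases hb'.2 with rfl | rfl
        · rfl
        · exact absurd hb'.1 hzY
      · exact absurd ha'.1 hzY
    have h5 : ∑ e' ∈ D, (Y.filter (fun a => a ∈ e')).card ≤ 2 * D.card - 1 := by
      rw [← Finset.add_sum_erase D _ heD]
      have h6 : ∑ e' ∈ D.erase e, (Y.filter (fun a => a ∈ e')).card ≤ (D.erase e).card * 2 := by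
        rw [← smul_eq_mul, ← Finset.sum_const]
        exact Finset.sum_le_sum fun e' _ => h3 e'
      rw [Finset.card_erase_of_mem heD] at h6
      have h7 : 1 ≤ D.card := Finset.card_pos.mpr ⟨e, heD⟩
      omega
    have h7 : 1 ≤ D.card := Finset.card_pos.mpr ⟨e, heD⟩
    omega
  · rw [Finset.not_nonempty_iff_eq_empty] at hYe
    have h1 : D.Nonempty := by
      rw [Finset.nonempty_iff_ne_empty]
      intro h2
      have h3 : B' ⊆ B := Finset.sdiff_eq_empty_iff_subset.mp h2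
      exact hne (Finset.eq_of_subset_of_card_le h3 hc.le).symm
    have h2 := Finset.card_pos.mpr h1
    rw [hYe, Finset.card_empty]
    omega

/-- A set of pairs in the image of `H` has `1 ≤ n^v q^e`. -/
lemma one_le_of_sub {H : SimpleGraph V₀} {n : ℕ} {q : ℝ} (hn : 0 < n) (hq : 0 < q)
    (hyp : ∀ F : H.Subgraph, 1 ≤ expCopies n q F.coe) {ι : V₀ → U} (hι : Function.Injective ι)
    {W : Finset (Sym2 U)} (hW : W ⊆ imgE ι (edgesF H)) :
    1 ≤ (n : ℝ) ^ (vtx W).card * q ^ W.card := by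
  set B₀ := (edgesF H).filter (fun e => Sym2.map ι e ∈ W) with hB₀
  have himg : B₀.image (Sym2.map ι) = W := by
    ext e
    constructor
    · intro he
      obtain ⟨e', he', rfl⟩ := Finset.mem_image.mp he
      exact (Finset.mem_filter.mp he').2
    · intro he
      obtain ⟨e', he', rfl⟩ := Finset.mem_image.mp (hW he)
      exact Finset.mem_image.mpr ⟨e', Finset.mem_filter.mpr ⟨he', he⟩, rfl⟩
  have hcard : B₀.card = W.card := by
    rw [← himg, Finset.card_image_of_injective _ (Sym2.map.injective hι)]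
  have h1 := one_le_of_edges hq hyp B₀ (fun e he => mem_edgesF.mp (Finset.mem_filter.mp he).1)
  rw [hcard] at h1
  have h4 : (vertsOf B₀).card ≤ (vtx W).card := by
    have h5 : (vertsOf B₀).image ι ⊆ vtx W := by
      intro x hx
      obtain ⟨z, hz, rfl⟩ := Finset.mem_image.mp hx
      obtain ⟨e, he, hze⟩ := mem_vertsOf.mp hz
      refine mem_vtx.mpr ⟨Sym2.map ι e, ?_, Sym2.mem_map.mpr ⟨z, hze, rfl⟩⟩
      rw [← himg]
      exact Finset.mem_image_of_mem _ he
    have h6 := Finset.card_le_card h5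
    rwa [Finset.card_image_of_injective _ hι] at h6
  have hn1 : (1 : ℝ) ≤ n := by exact_mod_cast hn
  calc (1 : ℝ) ≤ _ := h1
    _ ≤ _ := mul_le_mul_of_nonneg_right (pow_le_pow_right₀ hn1 h4) (by positivity)

/-- In a sparse graph, the copies of a short set of cycle type are pairwise disjoint. -/
theorem disjoint_of_ne {H : SimpleGraph V₀} {n m : ℕ} {q : ℝ} (hn : 0 < n) (hq : 0 < q)
    (hyp : ∀ F : H.Subgraph, 1 ≤ expCopies n q F.coe) {ι : V₀ → U} (hι : Function.Injective ι)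
    {K : Finset (Sym2 U)} (hK : IsCyc K) (hKm : K.card ≤ m) (ha : 1 ≤ (n : ℝ) * q)
    (ham : ((n : ℝ) * q) ^ (2 * m) < n) {σ σ' : Equiv.Perm U}
    (h1 : σ ∈ intoP (imgE ι (edgesF H)) K) (h2 : σ' ∈ intoP (imgE ι (edgesF H)) K)
    (hne : imgP σ K ≠ imgP σ' K) : Disjoint (vtx (imgP σ K)) (vtx (imgP σ' K)) := by
  by_contra hnd
  rw [Finset.not_disjoint_iff] at hnd
  obtain ⟨x, hx1, hx2⟩ := hnd
  have hex := excess (hK.img σ) (hK.img σ') (by rw [card_imgP, card_imgP]) hne ⟨x, hx1, hx2⟩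
  set B := imgP σ K with hB
  set B' := imgP σ' K with hB'
  have hBE : ∀ τ ∈ intoP (imgE ι (edgesF H)) K, imgP τ K ⊆ imgE ι (edgesF H) := by
    intro τ hτ e he
    obtain ⟨e', he', rfl⟩ := Finset.mem_image.mp he
    exact mem_intoP.mp hτ e' he'
  have hU : B ∪ B' ⊆ imgE ι (edgesF H) := Finset.union_subset (hBE σ h1) (hBE σ' h2)
  have h3 := one_le_of_sub hn hq hyp hι hU
  set e₀ := (B ∪ B').card with he₀
  set v₀ := (vtx (B ∪ B')).card with hv₀
  have he₀le : e₀ ≤ 2 * m := by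
    have h4 := Finset.card_union_le B B'
    have h41 : B.card = K.card := card_imgP σ K
    have h42 : B'.card = K.card := card_imgP σ' K
    omega
  have hn1 : (1 : ℝ) ≤ n := by exact_mod_cast hn
  have hn' : (0 : ℝ) < n := by exact_mod_cast hn
  have h5 : (n : ℝ) ≤ ((n : ℝ) * q) ^ e₀ := by
    have h6 : ((n : ℝ) * q) ^ e₀ = (n : ℝ) ^ (e₀ - v₀) * ((n : ℝ) ^ v₀ * q ^ e₀) := by
      rw [mul_pow, ← mul_assoc, ← pow_add]
      congr 2
      omega
    rw [h6]
    have h7 : (n : ℝ) ≤ (n : ℝ) ^ (e₀ - v₀) := by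
      calc (n : ℝ) = (n : ℝ) ^ 1 := (pow_one _).symm
        _ ≤ _ := pow_le_pow_right₀ hn1 (by omega)
    calc (n : ℝ) ≤ (n : ℝ) ^ (e₀ - v₀) := h7
      _ = (n : ℝ) ^ (e₀ - v₀) * 1 := (mul_one _).symm
      _ ≤ _ := mul_le_mul_of_nonneg_left h3 (by positivity)
  have h6 : ((n : ℝ) * q) ^ e₀ ≤ ((n : ℝ) * q) ^ (2 * m) := pow_le_pow_right₀ ha he₀le
  linarith

/-- The graph on the covered vertices. -/
def cycG (K : Finset (Sym2 U)) : SimpleGraph ↥(vtx K) where
  Adj a b := a ≠ b ∧ s(a.1, b.1) ∈ K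
  symm := ⟨fun a b h => ⟨h.1.symm, by rw [Sym2.eq_swap]; exact h.2⟩⟩
  loopless := ⟨fun a h => h.1 rfl⟩

lemma mem_vtx_imgP (σ : Equiv.Perm U) {K : Finset (Sym2 U)} {x : U} (hx : x ∈ vtx K) :
    σ x ∈ vtx (imgP σ K) := by
  rw [vtx_imgP]
  exact Finset.mem_image_of_mem _ hx

/-- The count of a set of cycle type whose copies are pairwise disjoint. -/
theorem cycle_count {E K : Finset (Sym2 U)} {q : ℝ} (hq : 0 < q) (hK : IsCyc K)
    (hHS : ∀ F ⊆ E, (mm F F : ℝ) ≤ ((Fintype.card U)! : ℝ) * q ^ F.card)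
    (hdisj : ∀ σ ∈ intoP E K, ∀ σ' ∈ intoP E K, imgP σ K ≠ imgP σ' K →
      Disjoint (vtx (imgP σ K)) (vtx (imgP σ' K))) :
    (mm E K : ℝ) ≤ ((Fintype.card U - K.card)! : ℝ) * (3 * (((Fintype.card U : ℝ) * q) ^ K.card)) := by
  set N := Fintype.card U with hN
  set c := K.card with hc
  have hAc : Fintype.card ↥(vtx K) = c := by
    rw [Fintype.card_coe, hK.card]
  set TK := cycG K with hTK
  set XK := Emb TK (SimpleGraph.fromEdgeSet (K : Set (Sym2 U))) Finset.univ with hXK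
  set a := XK.card with ha
  have hstep2 : mm K K ≤ (N - c)! * a := by
    have h1 := mm_le_emb (F := K) (G := K) (T := TK) (j := Subtype.val) Subtype.val_injective
      (fun x y hxy => hxy.2)
    rwa [hAc] at h1
  set BB := (intoP E K).image (fun σ => imgP σ K) with hBB
  set t := BB.card with ht
  have hstep1 : mm E K ≤ mm K K * t := by
    refine Finset.card_le_mul_card_image _ _ ?_
    intro B hB
    obtain ⟨σ₀, hσ₀, rfl⟩ := Finset.mem_image.mp hB
    refine Finset.card_le_card_of_injOn (fun σ => σ₀⁻¹ * σ) ?_ ?_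
    · intro σ hσ
      have hσ' := (Finset.mem_filter.mp (Finset.mem_coe.mp hσ)).2
      refine Finset.mem_coe.mpr (mem_intoP.mpr fun e he => ?_)
      rw [map_mul_eq]
      have h1 : Sym2.map σ e ∈ imgP σ₀ K := by
        rw [← hσ']
        exact Finset.mem_image_of_mem _ he
      obtain ⟨e', he', h2⟩ := Finset.mem_image.mp h1
      rw [← h2, ← map_mul_eq, inv_mul_cancel, map_one_eq]
      exact he'
    · intro σ _ σ' _ h
      exact mul_left_cancel h
  by_cases ht0 : t = 0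
  · rw [ht0, mul_zero] at hstep1
    have h0 : mm E K = 0 := by omega
    rw [h0]
    simp only [Nat.cast_zero]
    positivity
  have htpos : 0 < t := Nat.pos_of_ne_zero ht0
  have hIc : Fintype.card ↥BB = t := by rw [Fintype.card_coe]
  have hIex : ∀ i : ↥BB, ∃ σ, σ ∈ intoP E K ∧ imgP σ K = i.1 := fun i => by
    obtain ⟨σ, hσ, h⟩ := Finset.mem_image.mp i.2
    exact ⟨σ, hσ, h⟩
  choose sg hsg1 hsg2 using hIex
  have hdI : ∀ i i' : ↥BB, i ≠ i' → Disjoint (vtx i.1) (vtx i'.1) := by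
    intro i i' hne
    rw [← hsg2 i, ← hsg2 i']
    refine hdisj _ (hsg1 i) _ (hsg1 i') ?_
    rw [hsg2, hsg2]
    exact fun h => hne (Subtype.ext h)
  have hmemI : ∀ (i : ↥BB) {x : U}, x ∈ vtx K → sg i x ∈ vtx i.1 := by
    intro i x hx
    have := mem_vtx_imgP (sg i) hx
    rwa [hsg2] at this
  have heqI : ∀ (i i' : ↥BB) {x x' : U}, x ∈ vtx K → x' ∈ vtx K → sg i x = sg i' x' → i = i' := by
    intro i i' x x' hx hx' h
    by_contra hne
    have h1 := hmemI i hx
    have h2 := hmemI i' hx'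
    rw [h] at h1
    exact Finset.disjoint_left.mp (hdI i i' hne) h1 h2
  -- the union
  have hZ'c : Fintype.card (↥BB × ↥(vtx K)) = t * c := by
    rw [Fintype.card_prod, hIc, hAc]
  set j : ↥BB × ↥(vtx K) → U := fun p => sg p.1 p.2.1 with hj
  have hjinj : Function.Injective j := by
    rintro ⟨i, x⟩ ⟨i', x'⟩ h
    have h1 : i = i' := heqI i i' x.2 x'.2 h
    subst h1
    have h2 : x.1 = x'.1 := (sg i).injective h
    rw [Subtype.ext h2]
  set W' := BB.biUnion id with hW'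
  have hW'c : W'.card = t * c := by
    rw [hW', Finset.card_biUnion]
    · have h1 : ∀ B ∈ BB, (id B).card = c := by
        intro B hB
        obtain ⟨σ, _, rfl⟩ := Finset.mem_image.mp hB
        exact card_imgP σ K
      rw [Finset.sum_congr rfl h1, Finset.sum_const, smul_eq_mul]
    · intro B hB B' hB' hne
      refine Finset.disjoint_left.mpr fun e he he' => ?_
      have h1 : Disjoint (vtx B) (vtx B') := by
        refine hdI ⟨B, hB⟩ ⟨B', hB'⟩ ?_
        exact fun h => hne (congrArg Subtype.val h)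
      induction e using Sym2.ind with
      | _ u w =>
        exact Finset.disjoint_left.mp h1 (mem_vtx.mpr ⟨_, he, Sym2.mem_mk_left u w⟩)
          (mem_vtx.mpr ⟨_, he', Sym2.mem_mk_left u w⟩)
  have hW'E : W' ⊆ E := by
    intro e he
    obtain ⟨B, hB, he'⟩ := Finset.mem_biUnion.mp he
    obtain ⟨σ, hσ, rfl⟩ := Finset.mem_image.mp hB
    obtain ⟨e', he'', rfl⟩ := Finset.mem_image.mp he'
    exact mem_intoP.mp hσ e' he''
  set TT : SimpleGraph (↥BB × ↥(vtx K)) :=
    { Adj := fun p p' => p.1 = p'.1 ∧ TK.Adj p.2 p'.2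
      symm := ⟨fun p p' h => ⟨h.1.symm, h.2.symm⟩⟩
      loopless := ⟨fun p h => h.2.ne rfl⟩ } with hTT
  set H' := SimpleGraph.fromEdgeSet (W' : Set (Sym2 U)) with hH'
  have h1 : (Emb TT H' Finset.univ).card * (N - t * c)! ≤ mm W' W' := by
    have h2 := emb_mul_le_mm (E := W') (W := W') (T := TT) (H := H') (ι := id) (j := j)
      Function.injective_id hjinj ?_ ?_
    · rwa [hZ'c] at h2
    · intro e he
      obtain ⟨B, hB, he'⟩ := Finset.mem_biUnion.mp he
      have hi : imgP (sg ⟨B, hB⟩) K = B := hsg2 ⟨B, hB⟩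
      rw [id, ← hi] at he'
      obtain ⟨e', he'', rfl⟩ := Finset.mem_image.mp he'
      induction e' using Sym2.ind with
      | _ u w =>
        have huv : u ≠ w := fun h => hK.nd _ he'' (by simp [h])
        have hu : u ∈ vtx K := mem_vtx.mpr ⟨_, he'', Sym2.mem_mk_left u w⟩
        have hw : w ∈ vtx K := mem_vtx.mpr ⟨_, he'', Sym2.mem_mk_right u w⟩
        refine ⟨(⟨B, hB⟩, ⟨u, hu⟩), (⟨B, hB⟩, ⟨w, hw⟩), ⟨rfl, ?_, he''⟩, rfl⟩
        exact fun h => huv (congrArg Subtype.val h)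
    · intro x y hxy
      exact (SimpleGraph.fromEdgeSet_adj _ |>.mp hxy).1
  have hnv : ∀ x : ↥(vtx K), ∃ y : ↥(vtx K), TK.Adj x y := by
    intro x
    obtain ⟨e, he, hxe⟩ := mem_vtx.mp x.2
    obtain ⟨y, rfl⟩ := Sym2.mem_iff_exists.mp hxe
    have hxy : x.1 ≠ y := fun h => hK.nd _ he (by simp [← h])
    have hy : y ∈ vtx K := mem_vtx.mpr ⟨_, he, Sym2.mem_mk_right _ _⟩
    exact ⟨⟨y, hy⟩, fun h => hxy (congrArg Subtype.val h), he⟩
  have hβK : ∀ β ∈ XK, ∀ x : ↥(vtx K), β x ∈ vtx K := by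
    intro β hβ x
    obtain ⟨y, hy⟩ := hnv x
    have h2 := (mem_Emb.mp hβ).2.1 x y hy
    have h3 := (SimpleGraph.fromEdgeSet_adj _ |>.mp h2).1
    exact mem_vtx.mpr ⟨_, h3, Sym2.mem_mk_left _ _⟩
  obtain ⟨x₀⟩ : Nonempty ↥(vtx K) := by
    obtain ⟨e, he⟩ := hK.ne
    induction e using Sym2.ind with
    | _ u w => exact ⟨⟨u, mem_vtx.mpr ⟨_, he, Sym2.mem_mk_left u w⟩⟩⟩
  -- the lower bound for embeddings
  have h2 : t ! * a ^ t ≤ (Emb TT H' Finset.univ).card := by
    set D := (Finset.univ : Finset (Equiv.Perm ↥BB)) ×ˢ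
      (Fintype.piFinset (fun _ : ↥BB => XK)) with hD
    have hDc : D.card = t ! * a ^ t := by
      rw [hD, Finset.card_product, Finset.card_univ, Fintype.card_perm, hIc,
        Fintype.card_piFinset, Finset.prod_const, Finset.card_univ, hIc]
    rw [← hDc]
    refine Finset.card_le_card_of_injOn
      (fun d => fun p => sg (d.1 p.1) (d.2 p.1 p.2)) ?_ ?_
    · rintro ⟨τ, β⟩ hd
      have hd' := Finset.mem_coe.mp hd
      have hβ : ∀ i, β i ∈ XK := fun i =>
        Fintype.mem_piFinset.mp (Finset.mem_product.mp hd').2 i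
      refine Finset.mem_coe.mpr (mem_Emb.mpr ⟨?_, ?_, fun _ => Finset.mem_univ _⟩)
      · rintro ⟨i, x⟩ ⟨i', x'⟩ h
        have h3 : τ i = τ i' := heqI _ _ (hβK _ (hβ i) x) (hβK _ (hβ i') x') h
        have h4 : i = i' := τ.injective h3
        subst h4
        have h5 : β i x = β i x' := (sg (τ i)).injective h
        have h6 : x = x' := (mem_Emb.mp (hβ i)).1 h5
        rw [h6]
      · rintro ⟨i, x⟩ ⟨i', x'⟩ ⟨h3, h4⟩
        simp only at h3 h4
        subst h3
        have h5 := (mem_Emb.mp (hβ i)).2.1 x x' h4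
        have h6 := SimpleGraph.fromEdgeSet_adj _ |>.mp h5
        rw [hH', SimpleGraph.fromEdgeSet_adj]
        refine ⟨?_, fun h => h6.2 ((sg (τ i)).injective h)⟩
        refine Finset.mem_coe.mpr (Finset.mem_biUnion.mpr ⟨(τ i).1, (τ i).2, ?_⟩)
        rw [id, ← hsg2 (τ i)]
        exact Finset.mem_image.mpr ⟨_, h6.1, rfl⟩
    · rintro ⟨τ, β⟩ hd ⟨τ', β'⟩ hd' h
      have hd1 := Finset.mem_coe.mp hd
      have hd2 := Finset.mem_coe.mp hd'
      have hβ : ∀ i, β i ∈ XK := fun i =>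
        Fintype.mem_piFinset.mp (Finset.mem_product.mp hd1).2 i
      have hβ' : ∀ i, β' i ∈ XK := fun i =>
        Fintype.mem_piFinset.mp (Finset.mem_product.mp hd2).2 i
      have h3 : ∀ (i : ↥BB) (x : ↥(vtx K)), sg (τ i) (β i x) = sg (τ' i) (β' i x) := fun i x =>
        congrFun h (i, x)
      have h4 : τ = τ' := by
        ext i
        have := heqI _ _ (hβK _ (hβ i) x₀) (hβK _ (hβ' i) x₀) (h3 i x₀)
        rw [this]
      subst h4
      have h5 : β = β' := by
        funext i x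
        exact (sg (τ i)).injective (h3 i x)
      rw [h5]
  -- the numerics
  have hN0 : (0 : ℝ) ≤ (N : ℝ) * q := by positivity
  have h3 : t * c ≤ N := by
    have := Fintype.card_le_of_injective j hjinj
    rwa [hZ'c] at this
  have h4 : (t ! : ℝ) * (a : ℝ) ^ t ≤ (((N : ℝ) * q) ^ c) ^ t := by
    have h5 : ((t ! * a ^ t * (N - t * c)! : ℕ) : ℝ) ≤ ((mm W' W' : ℕ) : ℝ) := by
      exact_mod_cast (Nat.mul_le_mul_right _ h2).trans h1
    have h6 := h5.trans (hHS W' hW'E)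
    have h7 : ((N ! : ℕ) : ℝ) = ((N - t * c)! : ℝ) * (N.descFactorial (t * c) : ℝ) := by
      exact_mod_cast (Nat.factorial_mul_descFactorial h3).symm
    have h8 : (0 : ℝ) < ((N - t * c)! : ℝ) := by exact_mod_cast Nat.factorial_pos _
    have h9 : (N.descFactorial (t * c) : ℝ) ≤ (N : ℝ) ^ (t * c) := by
      exact_mod_cast Nat.descFactorial_le_pow _ _
    rw [hW'c, h7] at h6
    push_cast at h6
    have h10 : (t ! : ℝ) * (a : ℝ) ^ t * ((N - t * c)! : ℝ) ≤
        ((N : ℝ) ^ (t * c) * q ^ (t * c)) * ((N - t * c)! : ℝ) := by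
      calc _ ≤ _ := h6
        _ = ((N - t * c)! : ℝ) * ((N.descFactorial (t * c) : ℝ) * q ^ (t * c)) := by ring
        _ ≤ ((N - t * c)! : ℝ) * ((N : ℝ) ^ (t * c) * q ^ (t * c)) := by
            refine mul_le_mul_of_nonneg_left ?_ h8.le
            exact mul_le_mul_of_nonneg_right h9 (by positivity)
        _ = _ := by ring
    have h11 := le_of_mul_le_mul_right h10 h8
    refine h11.trans (le_of_eq ?_)
    rw [← mul_pow, ← pow_mul, mul_comm t c]
  have h5 : (t : ℝ) * a ≤ 3 * ((N : ℝ) * q) ^ c := by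
    have h6 := pow_self_le t
    have h7 : ((t : ℝ) * a) ^ t ≤ (3 * ((N : ℝ) * q) ^ c) ^ t := by
      rw [mul_pow, mul_pow]
      calc (t : ℝ) ^ t * (a : ℝ) ^ t ≤ (3 ^ t * (t ! : ℝ)) * (a : ℝ) ^ t :=
            mul_le_mul_of_nonneg_right h6 (by positivity)
        _ = 3 ^ t * ((t ! : ℝ) * (a : ℝ) ^ t) := by ring
        _ ≤ 3 ^ t * (((N : ℝ) * q) ^ c) ^ t := mul_le_mul_of_nonneg_left h4 (by positivity)
    exact (pow_le_pow_iff_left₀ (by positivity) (by positivity) ht0).mp h7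
  have h6 : (mm E K : ℝ) ≤ (((N - c)! * a) * t : ℕ) := by
    exact_mod_cast hstep1.trans (Nat.mul_le_mul_right _ hstep2)
  push_cast at h6
  have h7 : (0 : ℝ) ≤ ((N - c)! : ℝ) := by positivity
  calc (mm E K : ℝ) ≤ ((N - c)! : ℝ) * (a : ℝ) * (t : ℝ) := h6
    _ = ((N - c)! : ℝ) * ((t : ℝ) * a) := by ring
    _ ≤ _ := mul_le_mul_of_nonneg_left h5 h7

end Vale.Agent.Lib.P064k
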