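import Vale.Agent.Lib.P064k.Strip
import Vale.Agent.Lib.P064.Gen9

/-!
The comparison with a loss of `(log n)^{2/3}` per edge, when `n q ≥ log n`.
-/

namespace Vale.Agent.Lib.P064k

open Finset SimpleGraph Vale.Agent.Lib.P064
open scoped Classical Nat

set_option linter.unusedSectionVars false
set_option linter.unusedVariables false

universe u u' v

variable {U : Type u'} [Fintype U] {V₀ : Type v} [Fintype V₀] {Z : Type u} [Fintype Z]

lemma toFinset_card_le (e : Sym2 U) : (Sym2.toFinset e).card ≤ 2 := by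
  induction e using Sym2.ind with
  | _ a b =>
    have h : Sym2.toFinset s(a, b) ⊆ {a, b} := by
      intro x hx
      simpa using hx
    exact (Finset.card_le_card h).trans Finset.card_le_two

lemma vtx_card_le (B : Finset (Sym2 U)) : (vtx B).card ≤ 2 * B.card := by
  unfold vtx
  have := Finset.card_biUnion_le_card_mul B Sym2.toFinset 2 (fun e _ => toFinset_card_le e)
  omega

lemma vtx_le_add {K W : Finset (Sym2 U)} (hK : K ⊆ W) :
    (vtx W).card ≤ (vtx K).card + 2 * (W.card - K.card) := by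
  have h1 : vtx W ⊆ vtx K ∪ vtx (W \ K) := by
    intro x hx
    obtain ⟨e, he, hxe⟩ := mem_vtx.mp hx
    by_cases hek : e ∈ K
    · exact Finset.mem_union_left _ (mem_vtx.mpr ⟨e, hek, hxe⟩)
    · exact Finset.mem_union_right _ (mem_vtx.mpr ⟨e, Finset.mem_sdiff.mpr ⟨he, hek⟩, hxe⟩)
  have h2 := (Finset.card_le_card h1).trans (Finset.card_union_le _ _)
  have h3 := vtx_card_le (W \ K)
  rw [Finset.card_sdiff_of_subset hK] at h3
  omega

/-- The exponent for graphs with many vertices. -/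
lemma cm_dense {K W : Finset (Sym2 U)} (hK : K ⊆ W) (hv : 2 * W.card ≤ 3 * (vtx W).card) {c ν : ℕ}
    (h1 : c + (vtx K).card ≤ K.card + ν) (h2 : 3 * ν ≤ (vtx K).card) : c ≤ 2 * W.card / 3 := by
  have h3 := vtx_le_add hK
  have h4 := Finset.card_le_card hK
  omega

lemma desc_two_le {n v : ℕ} (hv : v ≤ n) :
    ((2 * n).descFactorial v : ℝ) ≤ 6 ^ v * (n.descFactorial v : ℝ) := by
  have h1 : ((2 * n).descFactorial v : ℝ) ≤ ((2 * n : ℕ) : ℝ) ^ v := by
    exact_mod_cast Nat.descFactorial_le_pow _ _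
  have h2 := pow_le_three_desc hv
  calc ((2 * n).descFactorial v : ℝ) ≤ ((2 * n : ℕ) : ℝ) ^ v := h1
    _ = 2 ^ v * (n : ℝ) ^ v := by push_cast; rw [mul_pow]
    _ ≤ 2 ^ v * (3 ^ v * (n.descFactorial v : ℝ)) := mul_le_mul_of_nonneg_left h2 (by positivity)
    _ = _ := by rw [← mul_assoc, ← mul_pow]; norm_num

lemma pow_le_lam {b : ℝ} (hb : 1 ≤ b) {c e : ℕ} (h : 3 * c ≤ 2 * e) :
    b ^ c ≤ (b ^ ((2 : ℝ) / 3)) ^ e := by
  have hb0 : 0 < b := by linarith
  rw [← Real.rpow_natCast (b ^ ((2 : ℝ) / 3)) e, ← Real.rpow_mul hb0.le, ← Real.rpow_natCast b c]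
  refine Real.rpow_le_rpow_of_exponent_le hb ?_
  have : (3 : ℝ) * c ≤ 2 * e := by exact_mod_cast h
  linarith

/-- The vertices of the image of a graph without isolated vertices. -/
lemma vtx_imgE {j : Z → U} (hj : Function.Injective j) {F : SimpleGraph Z}
    (hno : ∀ z, ∃ y, F.Adj z y) : (vtx (imgE j (edgesF F))).card = Fintype.card Z := by
  have h : vtx (imgE j (edgesF F)) = Finset.univ.image j := by
    ext x
    constructor
    · intro hx
      obtain ⟨e, he, hxe⟩ := mem_vtx.mp hx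
      obtain ⟨e', _, rfl⟩ := Finset.mem_image.mp he
      obtain ⟨y, _, rfl⟩ := Sym2.mem_map.mp hxe
      exact Finset.mem_image_of_mem _ (Finset.mem_univ _)
    · intro hx
      obtain ⟨z, _, rfl⟩ := Finset.mem_image.mp hx
      obtain ⟨y, hy⟩ := hno z
      refine mem_vtx.mpr ⟨s(j z, j y), Finset.mem_image.mpr ⟨s(z, y), mem_edgesF.mpr hy, rfl⟩, ?_⟩
      exact Sym2.mem_mk_left _ _
  rw [h, Finset.card_image_of_injective _ hj, Finset.card_univ]

/-- The bound for a host with vertex set of size `2n`, from a degree bound. -/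
theorem chain_exists {H : SimpleGraph V₀} {n D k : ℕ} {q : ℝ} (hn : 0 < n) (hq : 0 < q)
    (hV : Fintype.card V₀ ≤ n) (hyp : ∀ F : H.Subgraph, 1 ≤ expCopies n q F.coe)
    (hD : ∀ u, (nb H u).card ≤ D) (hk : numEdges H < 2 ^ k) (F : SimpleGraph Z)
    (hZ : Fintype.card Z ≤ 2 * n) :
    ∃ (U : Type v) (_ : Fintype U) (j : Z → U), Function.Injective j ∧
      ((Emb F H Finset.univ).card : ℝ) ≤ ((2 * n).descFactorial (Fintype.card Z) : ℝ) *
      (6 * q + (D : ℝ) / n) ^ numEdges F * (Ch k (imgE j (edgesF F)) : ℝ) := by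
  have hU : Fintype.card (V₀ ⊕ ULift.{v} (Fin (2 * n - Fintype.card V₀))) = 2 * n := by
    rw [Fintype.card_sum, Fintype.card_ulift, Fintype.card_fin]
    omega
  let U : Type v := V₀ ⊕ ULift.{v} (Fin (2 * n - Fintype.card V₀))
  let ι : V₀ → U := fun x => Sum.inl x
  have hιinj : Function.Injective ι := fun a b h => Sum.inl.inj h
  have hZU : Fintype.card Z ≤ Fintype.card U := by
    have : Fintype.card U = 2 * n := hU
    rw [this]; exact hZ
  obtain ⟨je⟩ := Function.Embedding.nonempty_of_card_le hZU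
  exact ⟨U, inferInstance, je, je.injective,
    emb_chain hn hq hV hyp hιinj hU hD hk je.injective F⟩

/-- Stage A for graphs without isolated vertices. -/
theorem emb_noiso_dense {H : SimpleGraph V₀} {n : ℕ} {q : ℝ} (hn : 1 ≤ n)
    (hV : Fintype.card V₀ ≤ n) (hq : 0 < q) (hCq : constC * q ≤ 1)
    (hyp : ∀ F : H.Subgraph, 1 ≤ expCopies n q F.coe)
    (hnq : ((Nat.log 2 n + 1 : ℕ) : ℝ) ≤ n * q)
    (F : SimpleGraph Z) (hno : ∀ z, ∃ y, F.Adj z y) :
    ((Emb F H Finset.univ).card : ℝ) ≤ (n.descFactorial (Fintype.card Z) : ℝ) *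
      (constC * (((2 * (Nat.log 2 n + 1) : ℕ) : ℝ) ^ ((2 : ℝ) / 3)) * q) ^ numEdges F := by
  have hC := constC_pos
  set ell := Nat.log 2 n + 1 with hell
  have hell1 : 1 ≤ ell := by omega
  set b : ℝ := ((2 * ell : ℕ) : ℝ) with hb
  have hb1 : 1 ≤ b := by
    have : 1 ≤ 2 * ell := by omega
    rw [hb]
    exact_mod_cast this
  set lam : ℝ := b ^ ((2 : ℝ) / 3) with hlam
  have hlam1 : 1 ≤ lam := Real.one_le_rpow hb1 (by norm_num)
  set e := numEdges F with he
  set v := Fintype.card Z with hv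
  have hve : v ≤ 2 * e := card_le_two_edges F hno
  have hdn : (0 : ℝ) ≤ (n.descFactorial v : ℝ) := by positivity
  have hexp : (constC * lam * q) ^ e = (constC * q) ^ e * lam ^ e := by
    rw [← mul_pow]
    congr 1
    ring
  by_cases hvn : v ≤ n
  swap
  · have h0 : Emb F H Finset.univ = ∅ := by
      refine Finset.eq_empty_of_forall_notMem fun f hf => ?_
      rcases mem_Emb.mp hf with ⟨h1, _, _⟩
      have := Fintype.card_le_of_injective f h1
      omega
    rw [h0]
    simp only [Finset.card_empty, Nat.cast_zero]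
    positivity
  by_cases h3 : 2 * e ≤ 3 * v
  swap
  · -- many edges
    have h1 := emb_all_tok hn hV hq hCq hyp v Z F rfl
    refine h1.trans (mul_le_mul_of_nonneg_left ?_ hdn)
    rw [hexp]
    refine mul_le_mul_of_nonneg_left ?_ (by positivity)
    have h4 : min v e ≤ v := min_le_left _ _
    have h5 : ((ell : ℕ) : ℝ) ≤ b := by
      rw [hb]
      push_cast
      have : (0 : ℝ) ≤ (ell : ℝ) := by positivity
      linarith
    have hell' : (1 : ℝ) ≤ (ell : ℝ) := by exact_mod_cast hell1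
    calc ((ell : ℕ) : ℝ) ^ (min v e) ≤ ((ell : ℕ) : ℝ) ^ v := pow_le_pow_right₀ hell' h4
      _ ≤ b ^ v := pow_le_pow_left₀ (by positivity) h5 v
      _ ≤ lam ^ e := pow_le_lam hb1 (by omega)
  · -- few edges
    have hn0 : 0 < n := hn
    have hn' : (0 : ℝ) < n := by exact_mod_cast hn0
    have hnt : n < 2 ^ ell := Nat.lt_pow_succ_log_self (by norm_num) n
    have hdeg := deg_lt hn0 hq (oBound_of_hyp hq hyp) hell1 hnt le_rfl hnq
    set D := ⌊72 * ((n : ℝ) * q)⌋₊ with hD
    have hD1 : ∀ u, (nb H u).card ≤ D := fun u => Nat.le_floor (hdeg u).le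
    have hD2 : (D : ℝ) ≤ 72 * ((n : ℝ) * q) := Nat.floor_le (by positivity)
    have hk : numEdges H < 2 ^ (2 * ell) := by
      calc numEdges H ≤ (Fintype.card V₀) ^ 2 := numEdges_le_sq H
        _ ≤ n ^ 2 := Nat.pow_le_pow_left hV 2
        _ < (2 ^ ell) ^ 2 := Nat.pow_lt_pow_left hnt (by norm_num)
        _ = 2 ^ (2 * ell) := by rw [← pow_mul]; congr 1; ring
    obtain ⟨U', _, j, hj, h1⟩ := chain_exists hn0 hq hV hyp hD1 hk F (by omega)
    set W := imgE j (edgesF F) with hW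
    have hWc : W.card = e := by
      rw [hW, card_imgE hj, card_edgesF]
    have hvW : (vtx W).card = v := vtx_imgE hj hno
    have hCh : Ch (2 * ell) W ≤ 32 ^ W.card * (2 * ell - 1) ^ (2 * W.card / 3) := by
      have e1 : 2 * ell = (2 * ell - 1) + 1 := by omega
      rw [e1]
      simp only [Nat.add_sub_cancel]
      refine Ch_bound (noDiag_imgE hj F) (by omega) ?_
      intro K hK _ c ν h4 h5 _
      exact cm_dense hK (by rw [hWc, hvW]; exact h3) h4 h5
    rw [hWc] at hCh
    have hCh' : (Ch (2 * ell) W : ℝ) ≤ 32 ^ e * lam ^ e := by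
      have h5 : (Ch (2 * ell) W : ℝ) ≤ 32 ^ e * (((2 * ell - 1 : ℕ) : ℝ)) ^ (2 * e / 3) := by
        exact_mod_cast hCh
      refine h5.trans (mul_le_mul_of_nonneg_left ?_ (by positivity))
      have h6 : ((2 * ell - 1 : ℕ) : ℝ) ≤ b := by
        rw [hb]
        exact_mod_cast Nat.sub_le _ _
      calc ((2 * ell - 1 : ℕ) : ℝ) ^ (2 * e / 3) ≤ b ^ (2 * e / 3) :=
            pow_le_pow_left₀ (by positivity) h6 _
        _ ≤ lam ^ e := pow_le_lam hb1 (by omega)
    have hw : 6 * q + (D : ℝ) / n ≤ 78 * q := by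
      have : (D : ℝ) / n ≤ 72 * q := by
        rw [div_le_iff₀ hn']
        linarith
      linarith
    have hw0 : 0 ≤ 6 * q + (D : ℝ) / n := by positivity
    have hpow : (6 * q + (D : ℝ) / n) ^ e ≤ (78 * q) ^ e := pow_le_pow_left₀ hw0 hw e
    have h6v : (6 : ℝ) ^ v ≤ 36 ^ e := by
      have : (36 : ℝ) ^ e = 6 ^ (2 * e) := by
        rw [pow_mul]; norm_num
      rw [this]
      exact pow_le_pow_right₀ (by norm_num) hve
    have hdd := desc_two_le hvn
    have hdd' : ((2 * n).descFactorial v : ℝ) ≤ 36 ^ e * (n.descFactorial v : ℝ) :=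
      hdd.trans (mul_le_mul_of_nonneg_right h6v hdn)
    have hconst : (36 : ℝ) * 78 * 32 ≤ constC := by
      unfold constC
      norm_num
    have hfin : (36 : ℝ) ^ e * (78 * q) ^ e * 32 ^ e ≤ (constC * q) ^ e := by
      rw [← mul_pow, ← mul_pow]
      refine pow_le_pow_left₀ (by positivity) ?_ e
      have : (36 : ℝ) * (78 * q) * 32 = (36 * 78 * 32) * q := by ring
      rw [this]
      exact mul_le_mul_of_nonneg_right hconst hq.le
    calc ((Emb F H Finset.univ).card : ℝ)
        ≤ ((2 * n).descFactorial v : ℝ) * (6 * q + (D : ℝ) / n) ^ e * (Ch (2 * ell) W : ℝ) := h1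
      _ ≤ (36 ^ e * (n.descFactorial v : ℝ)) * (78 * q) ^ e * (32 ^ e * lam ^ e) := by
          refine mul_le_mul ?_ hCh' (by positivity) (by positivity)
          exact mul_le_mul hdd' hpow (by positivity) (by positivity)
      _ = (n.descFactorial v : ℝ) * ((36 : ℝ) ^ e * (78 * q) ^ e * 32 ^ e) * lam ^ e := by ring
      _ ≤ (n.descFactorial v : ℝ) * (constC * q) ^ e * lam ^ e := by
          refine mul_le_mul_of_nonneg_right ?_ (by positivity)
          exact mul_le_mul_of_nonneg_left hfin hdn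
      _ = _ := by rw [hexp]; ring

/-- Stage A for all graphs. -/
theorem emb_dense {H : SimpleGraph V₀} {n : ℕ} {q : ℝ} (hn : 1 ≤ n)
    (hV : Fintype.card V₀ ≤ n) (hq : 0 < q) (hCq : constC * q ≤ 1)
    (hyp : ∀ F : H.Subgraph, 1 ≤ expCopies n q F.coe)
    (hnq : ((Nat.log 2 n + 1 : ℕ) : ℝ) ≤ n * q)
    (F : SimpleGraph Z) :
    ((Emb F H Finset.univ).card : ℝ) ≤ (n.descFactorial (Fintype.card Z) : ℝ) *
      (constC * (((2 * (Nat.log 2 n + 1) : ℕ) : ℝ) ^ ((2 : ℝ) / 3)) * q) ^ numEdges F := by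
  have hC := constC_pos
  have hs : 0 ≤ constC * (((2 * (Nat.log 2 n + 1) : ℕ) : ℝ) ^ ((2 : ℝ) / 3)) * q := by positivity
  exact emb_strip hs hV (fun Z _ F hno => emb_noiso_dense hn hV hq hCq hyp hnq F hno)
    (Fintype.card Z) Z F rfl

end Vale.Agent.Lib.P064k
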