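import Vale.Agent.Lib.P064k.Bridge

/-!
The hypothesis on the subgraphs of `H` in terms of permutations, and the chain bound for embeddings.
-/

namespace Vale.Agent.Lib.P064k

open Finset SimpleGraph Vale.Agent.Lib.P064
open scoped Classical Nat

set_option linter.unusedSectionVars false
set_option linter.unusedVariables false

universe u u' v

variable {U : Type u'} [Fintype U] {V₀ : Type v} [Fintype V₀] {Z : Type u} [Fintype Z]

/-- The hypothesis bounds the automorphisms. -/
lemma aut_le_desc {H : SimpleGraph V₀} {n : ℕ} {q : ℝ} (hq : 0 < q) (J : H.Subgraph)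
    (h : 1 ≤ expCopies n q J.coe) :
    (Nat.card (J.coe ≃g J.coe) : ℝ) ≤
      (n.descFactorial (Fintype.card J.verts) : ℝ) * q ^ numEdges J.coe := by
  unfold expCopies at h
  have h2 := labelled_eq (⊤ : SimpleGraph (Fin n)) J.coe
  rw [labelled_top] at h2
  have hA : ∀ inst : Fintype (J.coe ≃g J.coe),
      @Fintype.card _ inst = Nat.card (J.coe ≃g J.coe) := by
    intro inst
    rw [← @Nat.card_eq_fintype_card _ inst]
  rw [hA] at h2
  set c : ℝ := ((⊤ : SimpleGraph (Fin n)).copyCount J.coe : ℝ) with hcdef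
  set A : ℝ := (Nat.card (J.coe ≃g J.coe) : ℝ) with hAdef
  have hA0 : 0 ≤ A := Nat.cast_nonneg _
  have hd : ((n.descFactorial (Fintype.card J.verts) : ℕ) : ℝ) = c * A := by
    rw [hcdef, hAdef]
    exact_mod_cast h2
  rw [hd]
  calc A = A * 1 := (mul_one A).symm
    _ ≤ A * (c * q ^ numEdges J.coe) := mul_le_mul_of_nonneg_left h hA0
    _ = _ := by ring

/-- The hypothesis in terms of permutations. -/
theorem HS_of_hyp {H : SimpleGraph V₀} {n : ℕ} {q : ℝ} (hq : 0 < q) (hV : Fintype.card V₀ ≤ n)
    (hyp : ∀ F : H.Subgraph, 1 ≤ expCopies n q F.coe) {ι : V₀ → U} (hι : Function.Injective ι)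
    (hN : n ≤ Fintype.card U) {G F : Finset (Sym2 U)}
    (hFE : ∀ e ∈ F, ∃ e' ∈ H.edgeSet, Sym2.map ι e' = e) (hFG : F ⊆ G) :
    (mm G F : ℝ) ≤ (G.card.choose F.card : ℝ) * ((Fintype.card U)! : ℝ) * q ^ F.card := by
  set F₀ : Finset (Sym2 V₀) := (Finset.univ : Finset (Sym2 V₀)).filter (fun e => Sym2.map ι e ∈ F)
    with hF₀
  have hinj := Sym2.map.injective hι
  have hE : ∀ e ∈ F₀, e ∈ H.edgeSet := by
    intro e he
    obtain ⟨e', he', h1⟩ := hFE _ (Finset.mem_filter.mp he).2
    rw [← hinj h1]
    exact he'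
  have hFF : F₀.image (Sym2.map ι) = F := by
    ext e
    constructor
    · intro he
      obtain ⟨e', he', rfl⟩ := Finset.mem_image.mp he
      exact (Finset.mem_filter.mp he').2
    · intro he
      obtain ⟨e', _, rfl⟩ := hFE e he
      exact Finset.mem_image_of_mem _ (Finset.mem_filter.mpr ⟨Finset.mem_univ _, he⟩)
  have hcard : F₀.card = F.card := by
    rw [← hFF, Finset.card_image_of_injective _ hinj]
  set J := subOfEdges H F₀ hE with hJ
  have hJe : numEdges J.coe = F.card := by
    rw [numEdges_coe, hJ, subOfEdges_edgeSet, Set.ncard_coe_finset, hcard]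
  have hJv : Fintype.card J.verts ≤ n :=
    (Fintype.card_subtype_le _).trans hV
  -- the pattern
  set j : J.verts → U := fun a => ι a.1 with hj
  have hjinj : Function.Injective j := hι.comp Subtype.val_injective
  have hT : ∀ a b, J.coe.Adj a b → s(j a, j b) ∈ F := by
    intro a b hab
    have h1 : s(a.1, b.1) ∈ F₀ := hab
    exact (Finset.mem_filter.mp h1).2
  have hno : ∀ z : J.verts, ∃ y, J.coe.Adj z y := by
    rintro ⟨z, hz⟩
    obtain ⟨e, he, hze⟩ := mem_vertsOf.mp (Finset.mem_coe.mp hz)
    obtain ⟨y, rfl⟩ := Sym2.mem_iff_exists.mp hze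
    have hy : y ∈ J.verts := Finset.mem_coe.mpr (mem_vertsOf.mpr ⟨_, he, Sym2.mem_mk_right _ _⟩)
    exact ⟨⟨y, hy⟩, he⟩
  set Gg := SimpleGraph.fromEdgeSet (G : Set (Sym2 U)) with hGg
  have h1 := mm_le_emb (G := G) hjinj hT
  have h2 := labelled_eq Gg J.coe
  rw [labelled_eq_emb] at h2
  have hA : ∀ inst : Fintype (J.coe ≃g J.coe),
      @Fintype.card _ inst = Nat.card (J.coe ≃g J.coe) := by
    intro inst
    rw [← @Nat.card_eq_fintype_card _ inst]
  rw [hA] at h2
  have h3 := copyCount_le_choose hno G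
  rw [hJe] at h3
  have h4 := aut_le_desc hq J (hyp J)
  rw [hJe] at h4
  have h5 : (n.descFactorial (Fintype.card J.verts) : ℝ) *
      ((Fintype.card U - Fintype.card J.verts)! : ℝ) ≤ ((Fintype.card U)! : ℝ) := by
    have h6 : n.descFactorial (Fintype.card J.verts) ≤
        (Fintype.card U).descFactorial (Fintype.card J.verts) :=
      Nat.descFactorial_le _ hN
    have h7 := Nat.factorial_mul_descFactorial (hJv.trans hN)
    have h8 : n.descFactorial (Fintype.card J.verts) *
        (Fintype.card U - Fintype.card J.verts)! ≤ (Fintype.card U)! := by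
      rw [← h7, mul_comm]
      exact Nat.mul_le_mul_left _ h6
    exact_mod_cast h8
  have hq' : 0 ≤ q ^ F.card := by positivity
  have hc0 : (0 : ℝ) ≤ (G.card.choose F.card : ℝ) := by positivity
  calc (mm G F : ℝ)
      ≤ ((Fintype.card U - Fintype.card J.verts)! : ℝ) *
          ((Emb J.coe Gg Finset.univ).card : ℝ) := by exact_mod_cast h1
    _ = ((Fintype.card U - Fintype.card J.verts)! : ℝ) *
          ((Gg.copyCount J.coe : ℝ) * (Nat.card (J.coe ≃g J.coe) : ℝ)) := by
        rw [h2]
        push_cast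
        rfl
    _ ≤ ((Fintype.card U - Fintype.card J.verts)! : ℝ) *
          ((G.card.choose F.card : ℝ) * ((n.descFactorial (Fintype.card J.verts) : ℝ) * q ^ F.card)) := by
        refine mul_le_mul_of_nonneg_left ?_ (by positivity)
        refine mul_le_mul ?_ h4 (by positivity) hc0
        exact_mod_cast h3
    _ = (G.card.choose F.card : ℝ) * ((n.descFactorial (Fintype.card J.verts) : ℝ) *
          ((Fintype.card U - Fintype.card J.verts)! : ℝ)) * q ^ F.card := by ring
    _ ≤ _ := by
        refine mul_le_mul_of_nonneg_right ?_ hq'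
        exact mul_le_mul_of_nonneg_left h5 hc0

/-- The edges of a graph, as a set of pairs. -/
noncomputable def edgesF {A : Type*} [Fintype A] (F : SimpleGraph A) : Finset (Sym2 A) :=
  (Finset.univ : Finset (Sym2 A)).filter (fun e => e ∈ F.edgeSet)

lemma mem_edgesF {A : Type*} [Fintype A] {F : SimpleGraph A} {e : Sym2 A} :
    e ∈ edgesF F ↔ e ∈ F.edgeSet := by
  simp [edgesF]

lemma card_edgesF {A : Type*} [Fintype A] (F : SimpleGraph A) :
    (edgesF F).card = numEdges F := by
  unfold numEdges
  rw [← Set.ncard_coe_finset]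
  congr 1
  ext e
  simp [edgesF]

/-- The image of a set of pairs under an injective map. -/
noncomputable def imgE {A B : Type*} (j : A → B) (X : Finset (Sym2 A)) : Finset (Sym2 B) :=
  X.image (Sym2.map j)

lemma card_imgE {A B : Type*} {j : A → B} (hj : Function.Injective j) (X : Finset (Sym2 A)) :
    (imgE j X).card = X.card :=
  Finset.card_image_of_injective _ (Sym2.map.injective hj)

lemma noDiag_imgE {j : Z → U} (hj : Function.Injective j) (F : SimpleGraph Z) :
    NoDiag (imgE j (edgesF F)) := by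
  intro e he
  obtain ⟨e', he', rfl⟩ := Finset.mem_image.mp he
  have h1 := mem_edgesF.mp he'
  rw [Sym2.isDiag_map hj]
  exact F.not_isDiag_of_mem_edgeSet h1

/-- The chain bound for embeddings. -/
theorem emb_chain {H : SimpleGraph V₀} {n D k : ℕ} {q : ℝ} (hn : 0 < n) (hq : 0 < q)
    (hV : Fintype.card V₀ ≤ n) (hyp : ∀ F : H.Subgraph, 1 ≤ expCopies n q F.coe)
    {ι : V₀ → U} (hι : Function.Injective ι) (hU : Fintype.card U = 2 * n)
    (hD : ∀ u, (nb H u).card ≤ D) (hk : numEdges H < 2 ^ k) {j : Z → U}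
    (hj : Function.Injective j) (F : SimpleGraph Z) :
    ((Emb F H Finset.univ).card : ℝ) ≤ ((2 * n).descFactorial (Fintype.card Z) : ℝ) *
      (6 * q + (D : ℝ) / n) ^ numEdges F * (Ch k (imgE j (edgesF F)) : ℝ) := by
  set E := imgE ι (edgesF H) with hE
  set W := imgE j (edgesF F) with hW
  have hWc : W.card = numEdges F := by
    rw [hW, card_imgE hj, card_edgesF]
  have hZU : Fintype.card Z ≤ Fintype.card U := Fintype.card_le_of_injective j hj
  have hEc : E.card = numEdges H := by
    rw [hE, card_imgE hι, card_edgesF]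
  -- the degree bound
  have hdeg : ∀ x, (at' E x).card ≤ D := by
    intro x
    by_cases hx : ∃ u, ι u = x
    · obtain ⟨u, rfl⟩ := hx
      refine le_trans ?_ (hD u)
      have hsub : at' E (ι u) ⊆ (nb H u).image (fun w => s(ι u, ι w)) := by
        intro e he
        rcases mem_at'.mp he with ⟨h1, h2⟩
        obtain ⟨e', he', rfl⟩ := Finset.mem_image.mp h1
        have he'' := mem_edgesF.mp he'
        induction e' using Sym2.ind with
        | _ a b =>
          have hab : H.Adj a b := he''
          simp only [Sym2.map_mk] at h2 ⊢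
          rcases Sym2.mem_iff.mp h2 with h3 | h3
          · have h4 := hι h3
            subst h4
            exact Finset.mem_image.mpr ⟨b, mem_nb.mpr hab, by simp⟩
          · have h4 := hι h3
            subst h4
            exact Finset.mem_image.mpr ⟨a, mem_nb.mpr hab.symm, Sym2.eq_swap⟩
      exact (Finset.card_le_card hsub).trans Finset.card_image_le
    · have h0 : at' E x = ∅ := by
        refine Finset.eq_empty_of_forall_notMem fun e he => ?_
        rcases mem_at'.mp he with ⟨h1, h2⟩
        obtain ⟨e', _, rfl⟩ := Finset.mem_image.mp h1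
        obtain ⟨y, hy, rfl⟩ := Sym2.mem_map.mp h2
        exact hx ⟨y, rfl⟩
      rw [h0]
      simp
  -- the vertices
  have hvE : (vtx E).card ≤ n := by
    have hsub : vtx E ⊆ Finset.univ.image ι := by
      intro x hx
      obtain ⟨e, he, hxe⟩ := mem_vtx.mp hx
      obtain ⟨e', _, rfl⟩ := Finset.mem_image.mp he
      obtain ⟨y, _, rfl⟩ := Sym2.mem_map.mp hxe
      exact Finset.mem_image_of_mem _ (Finset.mem_univ _)
    refine (Finset.card_le_card hsub).trans (Finset.card_image_le.trans ?_)
    rw [Finset.card_univ]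
    exact hV
  have hHS : ∀ G ⊆ E, ∀ F' ⊆ G, (mm G F' : ℝ) ≤
      (G.card.choose F'.card : ℝ) * ((Fintype.card U)! : ℝ) * q ^ F'.card := by
    intro G hG F' hF'
    refine HS_of_hyp hq hV hyp hι (by omega) ?_ hF'
    intro e he
    obtain ⟨e', he', rfl⟩ := Finset.mem_image.mp (hG (hF' he))
    exact ⟨e', mem_edgesF.mp he', rfl⟩
  have hchain := chain_bound hn hq hdeg hvE (by omega) hHS k E (Finset.Subset.refl _)
    (by rw [hEc]; exact hk) W (noDiag_imgE hj F)
  rw [hWc] at hchain
  have h1 := emb_mul_le_mm (T := F) (H := H) (E := E) (W := W) hι hj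
    (by
      intro e he
      obtain ⟨e', he', rfl⟩ := Finset.mem_image.mp he
      have he'' := mem_edgesF.mp he'
      induction e' using Sym2.ind with
      | _ a b => exact ⟨a, b, he'', rfl⟩)
    (by
      intro a b hab
      exact Finset.mem_image.mpr ⟨s(a, b), mem_edgesF.mpr hab, rfl⟩)
  have h2 : ((Fintype.card U - Fintype.card Z)! : ℝ) > 0 := by
    exact_mod_cast Nat.factorial_pos _
  have h3 := Nat.factorial_mul_descFactorial hZU
  rw [hU] at h3 hchain h1
  set f := ((2 * n - Fintype.card Z)! : ℝ) with hf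
  have h2' : 0 < f := by
    rw [hf]
    exact_mod_cast Nat.factorial_pos _
  have h3' : ((2 * n)! : ℝ) = f * ((2 * n).descFactorial (Fintype.card Z) : ℝ) := by
    rw [hf]
    exact_mod_cast h3.symm
  have h4 : ((Emb F H Finset.univ).card : ℝ) * f ≤ (mm E W : ℝ) := by
    rw [hf]
    exact_mod_cast h1
  have h5 : ((Emb F H Finset.univ).card : ℝ) * f ≤ (((2 * n).descFactorial (Fintype.card Z) : ℝ) *
      (6 * q + (D : ℝ) / n) ^ numEdges F * (Ch k W : ℝ)) * f := by
    calc _ ≤ (mm E W : ℝ) := h4
      _ ≤ _ := hchain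
      _ = _ := by rw [h3']; ring
  exact le_of_mul_le_mul_right h5 h2'

end Vale.Agent.Lib.P064k
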