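import Vale.Agent.Lib.P064k.Branch

/-!
Connected graphs with one independent cycle in a graph with vertices of high degree.
-/

namespace Vale.Agent.Lib.P064k

open Finset SimpleGraph Vale.Agent.Lib.P064
open scoped Classical Nat

set_option linter.unusedSectionVars false
set_option linter.unusedVariables false

universe u u' v

variable {U : Type u'} [Fintype U] {V₀ : Type v} [Fintype V₀] {Z : Type u} [Fintype Z]

/-- A set of pairs with at least as many pairs as vertices contains a nonempty core. -/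
lemma exists_core : ∀ (k : ℕ) (A : Finset (Sym2 U)), A.card = k → NoDiag A → A.Nonempty →
    (vtx A).card ≤ A.card → ∃ K ⊆ A, K.Nonempty ∧ IsM K := by
  intro k
  induction k with
  | zero =>
    intro A hk _ hne _
    rw [Finset.card_eq_zero.mp hk] at hne
    exact absurd hne Finset.not_nonempty_empty
  | succ k ih =>
    intro A hk hd hne hv
    by_cases hM : IsM A
    · exact ⟨A, Finset.Subset.refl _, hne, hM⟩
    · obtain ⟨y, z, hyz, hmem, hz⟩ := exists_leaf hd hM
      set A' := A.erase s(y, z) with hA'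
      have hc : A'.card = k := by
        rw [hA', Finset.card_erase_of_mem hmem, hk]
        rfl
      have hsub : vtx A' ⊆ (vtx A).erase z := by
        intro x hx
        refine Finset.mem_erase.mpr ⟨fun h => hz (h ▸ hx), vtx_mono (Finset.erase_subset _ _) hx⟩
      have hzv : z ∈ vtx A := mem_vtx.mpr ⟨_, hmem, by simp⟩
      have hyv : y ∈ vtx A := mem_vtx.mpr ⟨_, hmem, by simp⟩
      have hv' : (vtx A').card ≤ A'.card := by
        have h1 := Finset.card_le_card hsub
        rw [Finset.card_erase_of_mem hzv] at h1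
        omega
      have hne' : A'.Nonempty := by
        rw [← Finset.card_pos, hc]
        have h1 : 1 < (vtx A).card := Finset.one_lt_card.mpr ⟨y, hyv, z, hzv, hyz⟩
        omega
      obtain ⟨K, hK, h1, h2⟩ := ih A' hc (NoDiag.mono (Finset.erase_subset _ _) hd) hne' hv'
      exact ⟨K, hK.trans (Finset.erase_subset _ _), h1, h2⟩

/-- The count of the core. -/
lemma core_count {H : SimpleGraph V₀} {n : ℕ} {q : ℝ} (hn : 0 < n) (hq : 0 < q)
    (hV : Fintype.card V₀ ≤ n) (hyp : ∀ F : H.Subgraph, 1 ≤ expCopies n q F.coe)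
    {ι : V₀ → U} (hι : Function.Injective ι) (hU : Fintype.card U = 2 * n)
    (ha : 1 ≤ (n : ℝ) * q) {K : Finset (Sym2 U)} (hK : IsCyc K) {m : ℕ} (hKm : K.card ≤ m)
    (ham : ((n : ℝ) * q) ^ (2 * m) < n) :
    ((Emb (cycG K) H Finset.univ).card : ℝ) ≤ 3 * (2 * ((n : ℝ) * q)) ^ K.card := by
  set E := imgE ι (edgesF H) with hE
  have h3 := cycle_count hq hK
    (fun F hF => self_count hq hV hyp hι (by omega) hF)
    (fun σ hσ σ' hσ' hne => disjoint_of_ne hn hq hyp hι hK hKm ha ham hσ hσ' hne)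
  have hAc : Fintype.card ↥(vtx K) = K.card := by rw [Fintype.card_coe, hK.card]
  have h1 := emb_mul_le_mm (T := cycG K) (H := H) (E := E) (W := K) hι
    (j := fun x : ↥(vtx K) => x.1) Subtype.val_injective
    (by
      intro e he
      induction e using Sym2.ind with
      | _ a b =>
        have hne : a ≠ b := fun h => hK.nd _ he (by simp [h])
        have ha' : a ∈ vtx K := mem_vtx.mpr ⟨_, he, by simp⟩
        have hb' : b ∈ vtx K := mem_vtx.mpr ⟨_, he, by simp⟩
        exact ⟨⟨a, ha'⟩, ⟨b, hb'⟩, ⟨fun h => hne (congrArg Subtype.val h), he⟩, rfl⟩)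
    (by
      intro a b hab
      exact Finset.mem_image.mpr ⟨s(a, b), mem_edgesF.mpr hab, rfl⟩)
  rw [hAc] at h1
  have hf : (0 : ℝ) < ((Fintype.card U - K.card)! : ℝ) := by exact_mod_cast Nat.factorial_pos _
  have h4 : ((Emb (cycG K) H Finset.univ).card : ℝ) * ((Fintype.card U - K.card)! : ℝ) ≤ (mm E K : ℝ) := by
    exact_mod_cast h1
  have h5 : ((Emb (cycG K) H Finset.univ).card : ℝ) * ((Fintype.card U - K.card)! : ℝ) ≤
      (3 * ((Fintype.card U : ℝ) * q) ^ K.card) * ((Fintype.card U - K.card)! : ℝ) := by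
    calc _ ≤ (mm E K : ℝ) := h4
      _ ≤ _ := h3
      _ = _ := by ring
  have h6 := le_of_mul_le_mul_right h5 hf
  rw [hU] at h6
  push_cast at h6
  have e1 : 2 * (n : ℝ) * q = 2 * ((n : ℝ) * q) := by ring
  rwa [e1] at h6

/-- The bound for a short connected graph with one independent cycle, given an ambient set. -/
theorem emb_hub_aux {H : SimpleGraph V₀} {n : ℕ} {q : ℝ} (hn : 0 < n) (hq : 0 < q)
    (hV : Fintype.card V₀ ≤ n) (hyp : ∀ F : H.Subgraph, 1 ≤ expCopies n q F.coe)
    (ha : 1 ≤ (n : ℝ) * q) {ι : V₀ → U} (hι : Function.Injective ι) (hU : Fintype.card U = 2 * n)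
    {j : Z → U} (hj : Function.Injective j) {T : SimpleGraph Z} (hT : T.Connected) (hg : cyc T = 1)
    (ham : ((n : ℝ) * q) ^ (2 * numEdges T) < n) :
    ((Emb T H Finset.univ).card : ℝ) ≤
      3 * (36 * ((n : ℝ) * q)) ^ numEdges T * (12 * ((n : ℝ) * q)) ^ (2 * numEdges T) := by
  have hcE := card_le_of_connected hT
  have hcy : cyc T = numEdges T + 1 - Fintype.card Z := rfl
  obtain ⟨W, hW⟩ : ∃ W, W = imgE j (edgesF T) := ⟨_, rfl⟩
  have hWc : W.card = numEdges T := by rw [hW, card_imgE hj, card_edgesF]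
  have hWv : (vtx W).card ≤ Fintype.card Z := by
    have hsub : vtx W ⊆ Finset.univ.image j := by
      intro x hx
      obtain ⟨e', he', hxe⟩ := mem_vtx.mp hx
      rw [hW] at he'
      obtain ⟨e'', _, rfl⟩ := Finset.mem_image.mp he'
      obtain ⟨y, _, rfl⟩ := Sym2.mem_map.mp hxe
      exact Finset.mem_image_of_mem _ (Finset.mem_univ _)
    refine (Finset.card_le_card hsub).trans (Finset.card_image_le.trans ?_)
    rw [Finset.card_univ]
  have hWd : NoDiag W := by
    rw [hW]
    exact noDiag_imgE hj T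
  have he1 : 1 ≤ numEdges T := by
    have h2 : 0 < Fintype.card Z := Fintype.card_pos_iff.mpr hT.nonempty
    omega
  have hWne : W.Nonempty := by
    rw [← Finset.card_pos, hWc]
    omega
  obtain ⟨K, hKW, hKne, hKM⟩ := exists_core _ W rfl hWd hWne (by rw [hWc]; omega)
  have hKW' : K ⊆ imgE j (edgesF T) := hW ▸ hKW
  have hcyc := isCyc_of_uni hT hg hj hKW' hKM hKne
  have hKm : K.card ≤ numEdges T := by
    rw [← hWc]
    exact Finset.card_le_card hKW
  have hcount := core_count hn hq hV hyp hι hU ha hcyc hKm ham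
  -- the inverse on the covered vertices
  have hi' : ∀ x : ↥(vtx K), ∃ z, j z = x.1 := by
    intro x
    obtain ⟨e', he', hxe⟩ := mem_vtx.mp x.2
    obtain ⟨e'', _, h2⟩ := Finset.mem_image.mp (hKW' he')
    rw [← h2] at hxe
    obtain ⟨y, _, hy⟩ := Sym2.mem_map.mp hxe
    exact ⟨y, hy⟩
  choose i hi using hi'
  have hiinj : Function.Injective i := by
    intro x y hxy
    apply Subtype.ext
    rw [← hi x, ← hi y, hxy]
  obtain ⟨Z₀, hZ₀⟩ : ∃ Z₀ : Finset Z, Z₀ = Finset.univ.filter (fun z => j z ∈ vtx K) := ⟨_, rfl⟩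
  have hmZ₀ : ∀ z, z ∈ Z₀ ↔ j z ∈ vtx K := by
    intro z
    rw [hZ₀]
    simp
  have hii : ∀ z (h : j z ∈ vtx K), i ⟨j z, h⟩ = z := by
    intro z h
    exact hj (hi ⟨j z, h⟩)
  have hZ₀c : Z₀.card = K.card := by
    rw [← hcyc.card]
    have h1 : Z₀.image j = vtx K := by
      ext x
      simp only [Finset.mem_image]
      constructor
      · rintro ⟨z, hz, rfl⟩
        exact (hmZ₀ z).mp hz
      · intro hx
        exact ⟨i ⟨x, hx⟩, (hmZ₀ _).mpr (by rw [hi ⟨x, hx⟩]; exact hx), hi ⟨x, hx⟩⟩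
    rw [← h1, Finset.card_image_of_injective _ hj]
  have hZ₀ne : Z₀.Nonempty := by
    rw [← Finset.card_pos, hZ₀c]
    exact Finset.card_pos.mpr hKne
  obtain ⟨r, hr⟩ := exists_rank hT hZ₀ne
  -- the edges inside
  obtain ⟨B, hB⟩ : ∃ B : Z → Finset Z, ∀ y, B y =
      Z₀.filter (fun y' => y ∈ Z₀ ∧ T.Adj y y' ∧ r y < r y') := ⟨_, fun _ => rfl⟩
  have hmB : ∀ y y', y' ∈ B y ↔ y' ∈ Z₀ ∧ y ∈ Z₀ ∧ T.Adj y y' ∧ r y < r y' := by
    intro y y'
    rw [hB, Finset.mem_filter]
  have heb1 : K.card ≤ ∑ y, (B y).card := by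
    have hsub : K ⊆ Finset.univ.biUnion (fun y => (B y).image (fun y' => s(j y, j y'))) := by
      intro e' he'
      obtain ⟨e'', h1, h2⟩ := Finset.mem_image.mp (hKW' he')
      induction e'' using Sym2.ind with
      | _ a b =>
        have hab : T.Adj a b := mem_edgesF.mp h1
        simp only [Sym2.map_mk] at h2
        have hav : j a ∈ vtx K := mem_vtx.mpr ⟨_, he', by rw [← h2]; simp⟩
        have hbv : j b ∈ vtx K := mem_vtx.mpr ⟨_, he', by rw [← h2]; simp⟩
        have hne : r a ≠ r b := fun h => hab.ne (hr.inj h)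
        rcases lt_or_gt_of_ne hne with h3 | h3
        · refine Finset.mem_biUnion.mpr ⟨a, Finset.mem_univ _, Finset.mem_image.mpr ⟨b, ?_, h2⟩⟩
          exact (hmB a b).mpr ⟨(hmZ₀ b).mpr hbv, (hmZ₀ a).mpr hav, hab, h3⟩
        · refine Finset.mem_biUnion.mpr ⟨b, Finset.mem_univ _, Finset.mem_image.mpr ⟨a, ?_, ?_⟩⟩
          · exact (hmB b a).mpr ⟨(hmZ₀ a).mpr hav, (hmZ₀ b).mpr hbv, hab.symm, h3⟩
          · rw [← h2, Sym2.eq_swap]
    calc K.card ≤ _ := Finset.card_le_card hsub
      _ ≤ ∑ y, ((B y).image (fun y' => s(j y, j y'))).card := Finset.card_biUnion_le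
      _ ≤ _ := Finset.sum_le_sum fun y _ => Finset.card_image_le
  have heb2 : ∑ y, (B y).card ≤ numEdges T := by
    rw [← Finset.card_sigma, ← card_edgesF]
    refine Finset.card_le_card_of_injOn (fun x => s(x.1, x.2)) ?_ ?_
    · intro x hx
      have hx' := Finset.mem_sigma.mp (Finset.mem_coe.mp hx)
      exact Finset.mem_coe.mpr (mem_edgesF.mpr ((hmB _ _).mp hx'.2).2.2.1)
    · intro x hx x' hx' hxx
      have h1 := Finset.mem_sigma.mp (Finset.mem_coe.mp hx)
      have h2 := Finset.mem_sigma.mp (Finset.mem_coe.mp hx')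
      have h3 := ((hmB _ _).mp h1.2).2.2.2
      have h4 := ((hmB _ _).mp h2.2).2.2.2
      rcases x with ⟨x1, x2⟩
      rcases x' with ⟨x1', x2'⟩
      rcases Sym2.eq_iff.mp hxx with ⟨h5, h6⟩ | ⟨h5, h6⟩
      · simp only at h5 h6
        subst h5
        subst h6
        rfl
      · simp only at h5 h6 h3 h4
        subst h5
        subst h6
        omega
  obtain ⟨eb, heb⟩ : ∃ eb, eb = ∑ y, (B y).card := ⟨_, rfl⟩
  have heb' : eb = ∑ y : Z, (Z₀.filter (fun y' => y ∈ Z₀ ∧ T.Adj y y' ∧ r y < r y')).card := by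
    rw [heb]
    exact Finset.sum_congr rfl fun y _ => by rw [hB]
  -- the fibres
  have hO := oBound_of_hyp hq hyp
  obtain ⟨a, haa⟩ : ∃ a, a = (n : ℝ) * q := ⟨_, rfl⟩
  obtain ⟨Zc, hZc⟩ : ∃ Zc, Zc = Finset.univ.filter (fun z => z ∉ Z₀) := ⟨_, rfl⟩
  have hcZc : Z₀.card + Zc.card = Fintype.card Z := by
    rw [hZc, Finset.filter_not, Finset.filter_mem_eq_inter, Finset.univ_inter,
      Finset.card_sdiff_of_subset (Finset.subset_univ _), Finset.card_univ]
    have := Finset.card_le_univ Z₀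
    omega
  have hext : ∀ g, ((Ext T H r Z₀.card g).card : ℝ) ≤ (36 * a) ^ Zc.card * (12 * a) ^ (eb + Zc.card) := by
    intro g
    rw [hZc, haa]
    exact ext_le hn hq hV hO ha hr hZ₀ne heb' (by rw [heb, hZ₀c]; exact heb1) g
  rw [← haa] at ha hcount ⊢
  have ha0 : 0 < a := by linarith
  obtain ⟨Bd, hBd⟩ : ∃ Bd, Bd = (36 * a) ^ Zc.card * (12 * a) ^ (eb + Zc.card) := ⟨_, rfl⟩
  rw [← hBd] at hext
  have hBd0 : 0 ≤ Bd := by rw [hBd]; positivity
  obtain ⟨res, hres⟩ : ∃ res : (Z → V₀) → (↥(vtx K) → V₀), ∀ f, res f = fun x => f (i x) :=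
    ⟨fun f x => f (i x), fun _ => rfl⟩
  have hresmem : ∀ f ∈ Emb T H Finset.univ, res f ∈ Emb (cycG K) H Finset.univ := by
    intro f hf
    rcases mem_Emb.mp hf with ⟨h1, h2, _⟩
    refine mem_Emb.mpr ⟨?_, ?_, fun _ => Finset.mem_univ _⟩
    · rw [hres]
      exact fun x y hxy => hiinj (h1 hxy)
    · intro x y hxy
      rw [hres]
      refine h2 _ _ ?_
      obtain ⟨e'', h3, h4⟩ := Finset.mem_image.mp (hKW' hxy.2)
      induction e'' using Sym2.ind with
      | _ c d =>
        have hcd : T.Adj c d := mem_edgesF.mp h3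
        simp only [Sym2.map_mk] at h4
        rcases Sym2.eq_iff.mp h4 with ⟨h5, h6⟩ | ⟨h5, h6⟩
        · have h7 : i x = c := hj ((hi x).trans h5.symm)
          have h8 : i y = d := hj ((hi y).trans h6.symm)
          rw [h7, h8]
          exact hcd
        · have h7 : i x = d := hj ((hi x).trans h6.symm)
          have h8 : i y = c := hj ((hi y).trans h5.symm)
          rw [h7, h8]
          exact hcd.symm
  have hcard : ((Emb T H Finset.univ).card : ℝ) ≤
      ((Emb (cycG K) H Finset.univ).card : ℝ) * Bd := by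
    have h1 : (Emb T H Finset.univ).card = ∑ g ∈ Emb (cycG K) H Finset.univ,
        ((Emb T H Finset.univ).filter (fun f => res f = g)).card :=
      Finset.card_eq_sum_card_fiberwise (fun f hf => Finset.mem_coe.mpr
        (hresmem f (Finset.mem_coe.mp hf)))
    rw [h1]
    push_cast
    rw [← nsmul_eq_mul, ← Finset.sum_const]
    refine Finset.sum_le_sum fun g _ => ?_
    by_cases hne : ((Emb T H Finset.univ).filter (fun f => res f = g)).Nonempty
    · obtain ⟨f₀, hf₀⟩ := hne
      have hf₀g := (Finset.mem_filter.mp hf₀).2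
      refine le_trans ?_ (hext f₀)
      have hsub : (Emb T H Finset.univ).filter (fun f => res f = g) ⊆ Ext T H r Z₀.card f₀ := by
        intro f hf
        rcases Finset.mem_filter.mp hf with ⟨h2, h3⟩
        refine mem_Ext.mpr ⟨h2, fun z hz => ?_⟩
        have h4 : z ∈ Z₀ := (hr.low z).mp hz
        have h5 : j z ∈ vtx K := (hmZ₀ z).mp h4
        have h6 := congrFun (h3.trans hf₀g.symm) ⟨j z, h5⟩
        rw [hres, hres] at h6
        simp only [hii] at h6
        exact h6
      exact_mod_cast Finset.card_le_card hsub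
    · rw [Finset.not_nonempty_iff_eq_empty] at hne
      rw [hne]
      simpa using hBd0
  -- the arithmetic
  have hc12 : (1 : ℝ) ≤ 12 * a := by linarith
  have hce : Z₀.card + Zc.card = numEdges T := by
    rw [hcZc]
    omega
  have h2 : (2 * a) ^ K.card * (36 * a) ^ Zc.card ≤ (36 * a) ^ numEdges T := by
    rw [← hce, hZ₀c, pow_add]
    refine mul_le_mul_of_nonneg_right ?_ (by positivity)
    exact pow_le_pow_left₀ (by positivity) (by linarith) _
  have h3 : (12 * a) ^ (eb + Zc.card) ≤ (12 * a) ^ (2 * numEdges T) := by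
    refine pow_le_pow_right₀ hc12 ?_
    rw [heb]
    omega
  calc ((Emb T H Finset.univ).card : ℝ) ≤ ((Emb (cycG K) H Finset.univ).card : ℝ) * Bd := hcard
    _ ≤ (3 * (2 * a) ^ K.card) * Bd := mul_le_mul_of_nonneg_right hcount hBd0
    _ = 3 * ((2 * a) ^ K.card * (36 * a) ^ Zc.card) * (12 * a) ^ (eb + Zc.card) := by
        rw [hBd]
        ring
    _ ≤ 3 * (36 * a) ^ numEdges T * (12 * a) ^ (2 * numEdges T) := by
        refine mul_le_mul ?_ h3 (by positivity) (by positivity)
        exact mul_le_mul_of_nonneg_left h2 (by norm_num)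

/-- The bound for a short connected graph with one independent cycle and no condition on the degrees. -/
theorem emb_hub {H : SimpleGraph V₀} {n : ℕ} {q : ℝ} (hn : 0 < n) (hq : 0 < q)
    (hV : Fintype.card V₀ ≤ n) (hyp : ∀ F : H.Subgraph, 1 ≤ expCopies n q F.coe)
    (ha : 1 ≤ (n : ℝ) * q) {T : SimpleGraph Z} (hT : T.Connected) (hg : cyc T = 1)
    (ham : ((n : ℝ) * q) ^ (2 * numEdges T) < n) :
    ((Emb T H Finset.univ).card : ℝ) ≤
      3 * (36 * ((n : ℝ) * q)) ^ numEdges T * (12 * ((n : ℝ) * q)) ^ (2 * numEdges T) := by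
  have ha0 : 0 < (n : ℝ) * q := by linarith
  by_cases hvn : Fintype.card Z ≤ n
  swap
  · have h0 : Emb T H Finset.univ = ∅ := by
      refine Finset.eq_empty_of_forall_notMem fun f hf => ?_
      rcases mem_Emb.mp hf with ⟨h1, _, _⟩
      have := Fintype.card_le_of_injective f h1
      omega
    rw [h0]
    simp only [Finset.card_empty, Nat.cast_zero]
    positivity
  have hUc : Fintype.card (V₀ ⊕ ULift.{v} (Fin (2 * n - Fintype.card V₀))) = 2 * n := by
    rw [Fintype.card_sum, Fintype.card_ulift, Fintype.card_fin]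
    omega
  have hZU : Fintype.card Z ≤ Fintype.card (V₀ ⊕ ULift.{v} (Fin (2 * n - Fintype.card V₀))) := by
    rw [hUc]; omega
  obtain ⟨je⟩ := Function.Embedding.nonempty_of_card_le hZU
  exact emb_hub_aux hn hq hV hyp ha (ι := fun x => Sum.inl x) (fun a b h => Sum.inl.inj h) hUc
    je.injective hT hg ham

end Vale.Agent.Lib.P064k
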