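import Vale.Agent.Lib.P064k.Chain

/-!
The number of chains: labellings and selections.
-/

namespace Vale.Agent.Lib.P064k

open Finset
open scoped Classical Nat

set_option linter.unusedSectionVars false
set_option linter.unusedVariables false

variable {V : Type*} [Fintype V]

/-- At every covered vertex the top label is attained at least twice. -/
def TopTwice (K : Finset (Sym2 V)) (t : Sym2 V → ℕ) : Prop :=
  ∀ x ∈ vtx K, ∃ a ∈ at' K x, ∃ b ∈ at' K x, a ≠ b ∧ t a = t b ∧ ∀ g ∈ at' K x, t g ≤ t a

/-- All labellings of `K` with labels below `k`. -/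
noncomputable def Pi' (k : ℕ) (K : Finset (Sym2 V)) : Finset (Sym2 V → ℕ) :=
  Fintype.piFinset (fun e => if e ∈ K then Finset.range k else {0})

lemma mem_Pi' {k : ℕ} {K : Finset (Sym2 V)} {t : Sym2 V → ℕ} :
    t ∈ Pi' k K ↔ (∀ e ∈ K, t e < k) ∧ ∀ e, e ∉ K → t e = 0 := by
  unfold Pi'
  rw [Fintype.mem_piFinset]
  constructor
  · intro h
    refine ⟨fun e he => ?_, fun e he => ?_⟩
    · have := h e
      rw [if_pos he] at this
      exact Finset.mem_range.mp this
    · have := h e
      rw [if_neg he] at this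
      exact Finset.mem_singleton.mp this
  · rintro ⟨h1, h2⟩ e
    by_cases he : e ∈ K
    · rw [if_pos he]
      exact Finset.mem_range.mpr (h1 e he)
    · rw [if_neg he]
      exact Finset.mem_singleton.mpr (h2 e he)

/-- The admissible labellings. -/
noncomputable def Lab (k : ℕ) (K : Finset (Sym2 V)) : Finset (Sym2 V → ℕ) :=
  (Pi' k K).filter (TopTwice K)

lemma mem_Lab {k : ℕ} {K : Finset (Sym2 V)} {t : Sym2 V → ℕ} :
    t ∈ Lab k K ↔ (∀ e ∈ K, t e < k) ∧ (∀ e, e ∉ K → t e = 0) ∧ TopTwice K t := by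
  simp only [Lab, Finset.mem_filter, mem_Pi']
  tauto

/-- Chains are labellings. -/
theorem Ch_le_Lab : ∀ (k : ℕ) (K : Finset (Sym2 V)), IsM K → Ch k K ≤ (Lab k K).card := by
  intro k
  induction k with
  | zero =>
    intro K hK
    by_cases hK0 : K = ∅
    · subst hK0
      simp only [Ch, if_true]
      refine Finset.card_pos.mpr ⟨fun _ => 0, mem_Lab.mpr ⟨?_, ?_, ?_⟩⟩
      · intro e he
        simp at he
      · intro e _
        rfl
      · intro x hx
        simp [vtx] at hx
    · simp [Ch, hK0]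
  | succ k ih =>
    intro K hK
    simp only [Ch]
    have h1 : ∑ K' ∈ K.powerset.filter IsM, Ch k K' ≤
        ∑ K' ∈ K.powerset.filter IsM, (Lab k K').card :=
      Finset.sum_le_sum fun K' hK' => ih K' (Finset.mem_filter.mp hK').2
    refine h1.trans ?_
    rw [← Finset.card_sigma]
    refine Finset.card_le_card_of_injOn
      (fun a => fun e => if e ∈ a.1 then a.2 e + 1 else 0) ?_ ?_
    · rintro ⟨K', t'⟩ ha
      have ha' := Finset.mem_coe.mp ha
      rcases Finset.mem_sigma.mp ha' with ⟨h2, h3⟩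
      have h2' : K' ∈ K.powerset.filter IsM := h2
      have h3' : t' ∈ Lab k K' := h3
      rcases Finset.mem_filter.mp h2' with ⟨h4, h5⟩
      have hKK := Finset.mem_powerset.mp h4
      rcases mem_Lab.mp h3' with ⟨h6, h7, h8⟩
      refine Finset.mem_coe.mpr (mem_Lab.mpr ⟨?_, ?_, ?_⟩)
      · intro e he
        simp only
        by_cases he' : e ∈ K'
        · rw [if_pos he']
          have := h6 e he'
          omega
        · rw [if_neg he']
          omega
      · intro e he
        simp only
        rw [if_neg (fun h => he (hKK h))]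
      · intro x hx
        by_cases hx' : x ∈ vtx K'
        · obtain ⟨a, ha, b, hb, hab, h9, h10⟩ := h8 x hx'
          rcases mem_at'.mp ha with ⟨ha1, ha2⟩
          rcases mem_at'.mp hb with ⟨hb1, hb2⟩
          refine ⟨a, mem_at'.mpr ⟨hKK ha1, ha2⟩, b, mem_at'.mpr ⟨hKK hb1, hb2⟩, hab, ?_, ?_⟩
          · simp only
            rw [if_pos ha1, if_pos hb1, h9]
          · intro g hg
            rcases mem_at'.mp hg with ⟨hg1, hg2⟩
            simp only
            rw [if_pos ha1]
            by_cases hg' : g ∈ K'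
            · rw [if_pos hg']
              have := h10 g (mem_at'.mpr ⟨hg', hg2⟩)
              omega
            · rw [if_neg hg']
              omega
        · have h9 : ∀ g ∈ at' K x, g ∉ K' := fun g hg hg' =>
            hx' (mem_vtx.mpr ⟨g, hg', (mem_at'.mp hg).2⟩)
          have h10 := hK x hx
          obtain ⟨a, ha, b, hb, hab⟩ := Finset.one_lt_card.mp h10
          refine ⟨a, ha, b, hb, hab, ?_, ?_⟩
          · simp only
            rw [if_neg (h9 a ha), if_neg (h9 b hb)]
          · intro g hg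
            simp only
            rw [if_neg (h9 g hg)]
            omega
    · rintro ⟨K₁, t₁⟩ h₁ ⟨K₂, t₂⟩ h₂ heq
      have h₁' := Finset.mem_coe.mp h₁
      have h₂' := Finset.mem_coe.mp h₂
      rcases Finset.mem_sigma.mp h₁' with ⟨_, h3⟩
      rcases Finset.mem_sigma.mp h₂' with ⟨_, h4⟩
      have h3' : t₁ ∈ Lab k K₁ := h3
      have h4' : t₂ ∈ Lab k K₂ := h4
      rcases mem_Lab.mp h3' with ⟨_, h5, _⟩
      rcases mem_Lab.mp h4' with ⟨_, h6, _⟩
      simp only at heq
      have hK12 : K₁ = K₂ := by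
        ext e
        have := congrFun heq e
        by_cases h7 : e ∈ K₁ <;> by_cases h8 : e ∈ K₂ <;> simp_all
      subst hK12
      have ht : t₁ = t₂ := by
        funext e
        have := congrFun heq e
        by_cases h7 : e ∈ K₁
        · simpa [h7] using this
        · rw [h5 e h7, h6 e h7]
      subst ht
      rfl

/-- A selection: for each covered vertex, a pair of distinct pairs at that vertex. -/
noncomputable def Sel (K : Finset (Sym2 V)) : Finset (↥(vtx K) → Sym2 V × Sym2 V) :=
  Fintype.piFinset (fun x => at' K x.1 ×ˢ at' K x.1)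

lemma mem_Sel {K : Finset (Sym2 V)} {s : ↥(vtx K) → Sym2 V × Sym2 V} :
    s ∈ Sel K ↔ ∀ x, (s x).1 ∈ at' K x.1 ∧ (s x).2 ∈ at' K x.1 := by
  simp [Sel, Fintype.mem_piFinset]

lemma pair_card_le (e : Sym2 V) : (Finset.univ.filter (fun x => x ∈ e)).card ≤ 2 := by
  induction e using Sym2.ind with
  | _ a b =>
    have h : Finset.univ.filter (fun x => x ∈ s(a, b)) ⊆ {a, b} := by
      intro x hx
      have h1 := (Finset.mem_filter.mp hx).2
      rcases Sym2.mem_iff.mp h1 with rfl | rfl <;> simp
    exact (Finset.card_le_card h).trans Finset.card_le_two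

lemma sum_at_le (K : Finset (Sym2 V)) : ∑ x ∈ vtx K, (at' K x).card ≤ 2 * K.card := by
  have h1 : ∑ x ∈ vtx K, (at' K x).card = ∑ e ∈ K, ((vtx K).filter (fun x => x ∈ e)).card := by
    simp only [at']
    exact Finset.sum_card_bipartiteAbove_eq_sum_card_bipartiteBelow _
  rw [h1, mul_comm, ← smul_eq_mul, ← Finset.sum_const]
  refine Finset.sum_le_sum fun e _ => ?_
  refine le_trans (Finset.card_le_card ?_) (pair_card_le e)
  intro x hx
  exact Finset.mem_filter.mpr ⟨Finset.mem_univ _, (Finset.mem_filter.mp hx).2⟩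

lemma sq_le_four_pow (d : ℕ) : d ^ 2 ≤ 4 ^ d := by
  have h : d ≤ 2 ^ d := Nat.lt_two_pow_self.le
  calc d ^ 2 ≤ (2 ^ d) ^ 2 := Nat.pow_le_pow_left h 2
    _ = 4 ^ d := by
      rw [← pow_mul, mul_comm, pow_mul]
      norm_num

/-- The number of selections. -/
lemma card_Sel_le (K : Finset (Sym2 V)) : (Sel K).card ≤ 16 ^ K.card := by
  unfold Sel
  rw [Fintype.card_piFinset]
  have h1 : ∀ x : ↥(vtx K), (at' K x.1 ×ˢ at' K x.1).card ≤ 4 ^ (at' K x.1).card := by
    intro x
    rw [Finset.card_product, ← sq]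
    exact sq_le_four_pow _
  refine (Finset.prod_le_prod' fun x _ => h1 x).trans ?_
  rw [Finset.prod_pow_eq_pow_sum]
  have h2 : ∑ x : ↥(vtx K), (at' K x.1).card = ∑ x ∈ vtx K, (at' K x).card := by
    rw [← Finset.sum_coe_sort (vtx K) (fun x => (at' K x).card)]
  rw [h2]
  calc 4 ^ (∑ x ∈ vtx K, (at' K x).card) ≤ 4 ^ (2 * K.card) :=
        Nat.pow_le_pow_right (by norm_num) (sum_at_le K)
    _ = 16 ^ K.card := by
        rw [pow_mul]
        norm_num

end Vale.Agent.Lib.P064k
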