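import Vale.Agent.Lib.P064k.SpreadG

/-!
The bound for `p_c` from the comparison with a loss of `(log n)^{2/3}` per edge.
-/

namespace Vale.Agent.Lib.P064k

open Finset SimpleGraph Vale.Agent.Lib.P064
open scoped Classical Nat

set_option linter.unusedSectionVars false
set_option linter.unusedVariables false

universe v

variable {V : Type v} [Fintype V] {n : ℕ} {H : SimpleGraph V}

/-- The power of the logarithm, with the constant made explicit. -/
lemma lam_le (hn : 2 ≤ n) :
    ((2 * (Nat.log 2 n + 1) : ℕ) : ℝ) ^ ((2 : ℝ) / 3) ≤ 6 * (Real.log n) ^ ((2 : ℝ) / 3) := by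
  have hL : 0 < Real.log n := Real.log_pos (by exact_mod_cast (by omega : 1 < n))
  have h1 := natLog_le_realLog hn
  have h2 : ((2 * (Nat.log 2 n + 1) : ℕ) : ℝ) ≤ 6 * Real.log n := by
    push_cast at h1 ⊢
    linarith
  have h3 : ((2 * (Nat.log 2 n + 1) : ℕ) : ℝ) ^ ((2 : ℝ) / 3) ≤ (6 * Real.log n) ^ ((2 : ℝ) / 3) :=
    Real.rpow_le_rpow (by positivity) h2 (by norm_num)
  refine h3.trans ?_
  rw [Real.mul_rpow (by norm_num) hL.le]
  refine mul_le_mul_of_nonneg_right ?_ (by positivity)
  calc (6 : ℝ) ^ ((2 : ℝ) / 3) ≤ 6 ^ (1 : ℝ) :=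
        Real.rpow_le_rpow_of_exponent_le (by norm_num) (by norm_num)
    _ = 6 := by norm_num

/-- The `p_c` bound at one density. -/
theorem pCrit_dense_of_mem (hn : 2 ≤ n) (hV : Fintype.card V ≤ n) (hE : 1 ≤ numEdges H) {q : ℝ}
    (hq0 : 0 ≤ q) (hq : ∀ F : H.Subgraph, 1 / 2 ≤ expCopies n q F.coe) :
    pCrit n H ≤ (3456 * constC) * (Real.log n) ^ ((5 : ℝ) / 3) * max q (Real.log n / n) := by
  have hC := constC_pos
  have hL : 0 < Real.log n := Real.log_pos (by exact_mod_cast (by omega : 1 < n))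
  have hn0 : (0 : ℝ) < n := by
    have : 0 < n := by omega
    exact_mod_cast this
  obtain ⟨hqpos, hyp2⟩ := hyp_double hV hE hq0 hq
  set ell := Nat.log 2 n + 1 with hell
  have hell3 : (ell : ℝ) ≤ 3 * Real.log n := natLog_le_realLog hn
  have hell1 : (1 : ℝ) ≤ ell := by
    have : 1 ≤ ell := by omega
    exact_mod_cast this
  set q₁ : ℝ := max (2 * q) ((ell : ℝ) / n) with hq₁
  have hq₁0 : 0 < q₁ := lt_of_lt_of_le (by positivity) (le_max_left _ _)
  have hyp1 : ∀ F : H.Subgraph, 1 ≤ expCopies n q₁ F.coe := fun F =>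
    (hyp2 F).trans (expCopies_mono (by positivity) (le_max_left _ _) _)
  have hnq : (ell : ℝ) ≤ n * q₁ := by
    have h1 : (ell : ℝ) / n ≤ q₁ := le_max_right _ _
    rw [div_le_iff₀ hn0] at h1
    linarith
  set lam : ℝ := ((2 * ell : ℕ) : ℝ) ^ ((2 : ℝ) / 3) with hlam
  have hlam1 : 1 ≤ lam := by
    refine Real.one_le_rpow ?_ (by norm_num)
    push_cast
    linarith
  have hlam2 : lam ≤ 6 * (Real.log n) ^ ((2 : ℝ) / 3) := lam_le hn
  set s : ℝ := constC * lam * q₁ with hs
  have hs0 : 0 < s := by positivity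
  set lr : ℝ := (Nat.log 2 (numEdges H) : ℝ) + 1 with hlr
  have hlr1 : 1 ≤ lr := by
    have : (0 : ℝ) ≤ (Nat.log 2 (numEdges H) : ℝ) := by positivity
    rw [hlr]
    linarith
  have hlr2 : lr ≤ 6 * Real.log n := log_edges_le hn hV hE
  have hmain : pCrit n H ≤ s * (32 * lr) := by
    by_cases hCq : constC * q₁ ≤ 1
    · refine pCrit_le_of_bound hs0 hV ?_
      intro Z _ F
      exact emb_dense (by omega) hV hq₁0 hCq hyp1 hnq F
    · push Not at hCq
      have hPbd : BddBelow {p : ℝ | 0 ≤ p ∧ p ≤ 1 ∧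
          1 / 2 ≤ gnpProb n p (fun G => 0 < G.copyCount H)} := ⟨0, fun p hp => hp.1⟩
      have h1 : pCrit n H ≤ 1 := csInf_le hPbd ⟨zero_le_one, le_rfl, gnp_one hV⟩
      have h2 : 1 ≤ s := by
        rw [hs]
        have : constC * lam * q₁ = lam * (constC * q₁) := by ring
        rw [this]
        nlinarith
      have h3 : 1 ≤ s * (32 * lr) := by nlinarith
      linarith
  refine hmain.trans ?_
  have hq₁le : q₁ ≤ 3 * max q (Real.log n / n) := by
    refine max_le ?_ ?_
    · have := le_max_left q (Real.log n / n)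
      have h0 : 0 ≤ q := hq0
      linarith
    · have h1 : (ell : ℝ) / n ≤ (3 * Real.log n) / n :=
        div_le_div_of_nonneg_right hell3 hn0.le
      have h2 := le_max_right q (Real.log n / n)
      have h3 : (3 * Real.log n) / n = 3 * (Real.log n / n) := by ring
      rw [h3] at h1
      linarith
  have hpow : (Real.log n) ^ ((2 : ℝ) / 3) * Real.log n = (Real.log n) ^ ((5 : ℝ) / 3) := by
    have : ((5 : ℝ) / 3) = (2 : ℝ) / 3 + 1 := by norm_num
    rw [this, Real.rpow_add hL, Real.rpow_one]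
  set m := max q (Real.log n / n) with hm
  have hm0 : 0 ≤ m := le_trans hq0 (le_max_left _ _)
  have hlogp : 0 ≤ (Real.log n) ^ ((2 : ℝ) / 3) := by positivity
  calc s * (32 * lr) = constC * (lam * lr) * q₁ * 32 := by rw [hs]; ring
    _ ≤ constC * ((6 * (Real.log n) ^ ((2 : ℝ) / 3)) * (6 * Real.log n)) * (3 * m) * 32 := by
        have h1 : lam * lr ≤ (6 * (Real.log n) ^ ((2 : ℝ) / 3)) * (6 * Real.log n) :=
          mul_le_mul hlam2 hlr2 (by linarith) (by positivity)
        have h2 : constC * (lam * lr) ≤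
            constC * ((6 * (Real.log n) ^ ((2 : ℝ) / 3)) * (6 * Real.log n)) :=
          mul_le_mul_of_nonneg_left h1 hC.le
        have h3 := mul_le_mul h2 hq₁le hq₁0.le (by positivity)
        exact mul_le_mul_of_nonneg_right h3 (by norm_num)
    _ = (3456 * constC) * ((Real.log n) ^ ((2 : ℝ) / 3) * Real.log n) * m := by ring
    _ = _ := by rw [hpow]

/-- The main theorem of this part: `p_c ≤ C (log n)^{5/3} max(p_E, log n / n)`. -/
theorem pCrit_dense (hn : 2 ≤ n) (hV : Fintype.card V ≤ n) (hE : 1 ≤ numEdges H) :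
    pCrit n H ≤ (3456 * constC) * (Real.log n) ^ ((5 : ℝ) / 3) *
      max (pExp n H) (Real.log n / n) := by
  have hC := constC_pos
  have hL : 0 < Real.log n := Real.log_pos (by exact_mod_cast (by omega : 1 < n))
  set K := (3456 * constC) * (Real.log n) ^ ((5 : ℝ) / 3) with hK
  have hK0 : 0 < K := by positivity
  have hne := pExp_set_nonempty (H := H) hV
  rw [← div_le_iff₀' hK0]
  by_contra hcon
  push Not at hcon
  have h1 : max (pExp n H) (Real.log n / n) < pCrit n H / K := hcon
  have h2 : Real.log n / n < pCrit n H / K := lt_of_le_of_lt (le_max_right _ _) h1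
  have h3 : pExp n H < pCrit n H / K := lt_of_le_of_lt (le_max_left _ _) h1
  have h4 : pCrit n H / K ≤ pExp n H := by
    refine le_csInf hne ?_
    rintro q ⟨hq0, _, hq⟩
    have h5 := pCrit_dense_of_mem hn hV hE hq0 hq
    have h6 : pCrit n H / K ≤ max q (Real.log n / n) := by
      rw [div_le_iff₀' hK0]
      exact h5
    rcases le_max_iff.mp h6 with h7 | h7
    · exact h7
    · exact absurd h7 (not_le.mpr h2)
  linarith

end Vale.Agent.Lib.P064k
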