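import Vale.Agent.Lib.P064k.MainUni
import Vale.Agent.Lib.P064k.MainDense
import Vale.Agent.Lib.P064k.Small

/-!
The bound `p_c ≤ C (log n)^{5/3} p_E` for all graphs.
-/

namespace Vale.Agent.Lib.P064k

open Finset SimpleGraph Vale.Agent.Lib.P064
open scoped Classical Nat

set_option linter.unusedSectionVars false
set_option linter.unusedVariables false

universe v

variable {V : Type v} [Fintype V] {n : ℕ} {H : SimpleGraph V}

/-- The bound when the expected degree is at most the logarithm. -/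
theorem pCrit_small (hn : 2 ≤ n) (hV : Fintype.card V ≤ n) (hE : 1 ≤ numEdges H)
    (hA : 2 * ((n : ℝ) * pExp n H) ≤ ((2 * (Nat.log 2 n + 1) : ℕ) : ℝ))
    (hbig : (((2 * (Nat.log 2 n + 1) : ℕ) : ℝ)) ^ (2 * (Nat.log 2 (2 * (Nat.log 2 n + 1)) + 1)) < n) :
    pCrit n H ≤ (82944 * constH) * (Real.log n) ^ ((5 : ℝ) / 3) * pExp n H := by
  have hC0 : 0 < constH := by have := constH_ge; linarith
  have hL : 0 < Real.log n := Real.log_pos (by exact_mod_cast (by omega : 1 < n))
  have hn0 : (0 : ℝ) < n := by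
    have : 0 < n := by omega
    exact_mod_cast this
  obtain ⟨hp0, _, hp⟩ := pExp_mem (H := H) hV
  obtain ⟨hppos, hyp2⟩ := hyp_double hV hE hp0 hp
  obtain ⟨p, hpe⟩ : ∃ p, p = pExp n H := ⟨_, rfl⟩
  rw [← hpe] at hA hppos hyp2 ⊢
  obtain ⟨q₁, hq₁⟩ : ∃ q₁, q₁ = 2 * p := ⟨_, rfl⟩
  rw [← hq₁] at hyp2
  have hq₁0 : 0 < q₁ := by
    rw [hq₁]
    positivity
  obtain ⟨ell, hell⟩ : ∃ ell, ell = Nat.log 2 n + 1 := ⟨_, rfl⟩
  rw [← hell] at hA hbig
  have hell1 : 1 ≤ ell := by omega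
  have hnt : n < 2 ^ ell := by
    rw [hell]
    exact Nat.lt_pow_succ_log_self (by norm_num) n
  obtain ⟨m, hm⟩ : ∃ m, m = Nat.log 2 (2 * ell) + 1 := ⟨_, rfl⟩
  rw [← hm] at hbig
  have hm2 : 2 * ell ≤ 2 ^ m := by
    rw [hm]
    exact (Nat.lt_pow_succ_log_self (by norm_num) _).le
  have hA' : (n : ℝ) * q₁ ≤ ((2 * ell : ℕ) : ℝ) := by
    rw [hq₁]
    linarith
  obtain ⟨lam, hlam⟩ : ∃ lam : ℝ, lam = ((2 * ell : ℕ) : ℝ) ^ ((2 : ℝ) / 3) := ⟨_, rfl⟩
  have hlam1 : 1 ≤ lam := by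
    rw [hlam]
    refine Real.one_le_rpow ?_ (by norm_num)
    have : 1 ≤ 2 * ell := by omega
    exact_mod_cast this
  have hlam2 : lam ≤ 6 * (Real.log n) ^ ((2 : ℝ) / 3) := by
    rw [hlam, hell]
    exact lam_le hn
  obtain ⟨lr, hlr⟩ : ∃ lr : ℝ, lr = (Nat.log 2 (numEdges H) : ℝ) + 1 := ⟨_, rfl⟩
  have hlr1 : 1 ≤ lr := by
    have : (0 : ℝ) ≤ (Nat.log 2 (numEdges H) : ℝ) := by positivity
    rw [hlr]
    linarith
  have hlr2 : lr ≤ 6 * Real.log n := by
    rw [hlr]
    exact log_edges_le hn hV hE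
  obtain ⟨s, hs⟩ : ∃ s : ℝ, s = 36 * (constH * lam * q₁) := ⟨_, rfl⟩
  have hs0 : 0 < s := by
    rw [hs]
    positivity
  have hmain : pCrit n H ≤ s * (32 * lr) := by
    by_cases hCq : constH * lam * q₁ ≤ 1
    · rw [hlr]
      refine pCrit_le_of_bound hs0 hV ?_
      intro Z _ F
      rw [hs, hlam]
      rw [hlam] at hCq
      exact emb_small (by omega) hq₁0 hV hyp2 hell1 hnt hm2 hA' hbig hCq F
    · push Not at hCq
      have hPbd : BddBelow {p : ℝ | 0 ≤ p ∧ p ≤ 1 ∧
          1 / 2 ≤ gnpProb n p (fun G => 0 < G.copyCount H)} := ⟨0, fun p hp => hp.1⟩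
      have h1 : pCrit n H ≤ 1 := csInf_le hPbd ⟨zero_le_one, le_rfl, gnp_one hV⟩
      have h2 : 1 ≤ s := by
        rw [hs]
        linarith
      have h3 : 1 ≤ s * (32 * lr) := by nlinarith
      linarith
  refine hmain.trans ?_
  have hpow : (Real.log n) ^ ((2 : ℝ) / 3) * Real.log n = (Real.log n) ^ ((5 : ℝ) / 3) := by
    have : ((5 : ℝ) / 3) = (2 : ℝ) / 3 + 1 := by norm_num
    rw [this, Real.rpow_add hL, Real.rpow_one]
  have hlogp : 0 ≤ (Real.log n) ^ ((2 : ℝ) / 3) := by positivity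
  have h1 : lam * lr ≤ (6 * (Real.log n) ^ ((2 : ℝ) / 3)) * (6 * Real.log n) :=
    mul_le_mul hlam2 hlr2 (by linarith) (by positivity)
  calc s * (32 * lr) = (2304 * constH * p) * (lam * lr) := by
        rw [hs, hq₁]
        ring
    _ ≤ (2304 * constH * p) * ((6 * (Real.log n) ^ ((2 : ℝ) / 3)) * (6 * Real.log n)) :=
        mul_le_mul_of_nonneg_left h1 (by positivity)
    _ = (82944 * constH) * ((Real.log n) ^ ((2 : ℝ) / 3) * Real.log n) * p := by ring
    _ = _ := by rw [hpow]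

/-- The numerics behind the condition on the number of vertices. -/
lemma square_succ_le : ∀ x : ℕ, 8 ≤ x → 2 * (x + 2) ^ 2 + 1 ≤ 2 ^ x := by
  intro x hx
  induction x, hx using Nat.le_induction with
  | base => norm_num
  | succ x hx ih =>
    rw [pow_succ]
    calc 2 * (x + 1 + 2) ^ 2 + 1 ≤ (2 * (x + 2) ^ 2 + 1) * 2 := by nlinarith
      _ ≤ 2 ^ x * 2 := Nat.mul_le_mul_right 2 ih

/-- The numeric condition on the number of vertices. -/
lemma big_of_ell (hn : 2 ≤ n) (hell : 256 ≤ Nat.log 2 n + 1) :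
    (((2 * (Nat.log 2 n + 1) : ℕ) : ℝ)) ^ (2 * (Nat.log 2 (2 * (Nat.log 2 n + 1)) + 1)) < n := by
  obtain ⟨ell, he⟩ : ∃ ell, ell = Nat.log 2 n + 1 := ⟨_, rfl⟩
  rw [← he] at hell ⊢
  obtain ⟨x, hx⟩ : ∃ x, x = Nat.log 2 ell := ⟨_, rfl⟩
  have hell0 : ell ≠ 0 := by omega
  have hx8 : 8 ≤ x := by
    rw [hx]
    exact Nat.le_log_of_pow_le (by norm_num) (by norm_num; omega)
  have hl1 : 2 ^ x ≤ ell := by
    rw [hx]
    exact Nat.pow_log_le_self 2 hell0
  have hl2 : ell < 2 ^ (x + 1) := by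
    rw [hx]
    exact Nat.lt_pow_succ_log_self (by norm_num) ell
  have hl3 : Nat.log 2 (2 * ell) = x + 1 := by
    rw [Nat.mul_comm, ← Nat.succ_eq_add_one, hx]
    exact Nat.log_mul_base (by norm_num) hell0
  rw [hl3]
  have hn0 : n ≠ 0 := by omega
  have hnl : 2 ^ (ell - 1) ≤ n := by
    have : ell - 1 = Nat.log 2 n := by omega
    rw [this]
    exact Nat.pow_log_le_self 2 hn0
  have hs := square_succ_le x hx8
  have h1 : (2 * ell) ^ (2 * (x + 1 + 1)) < 2 ^ (ell - 1) := by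
    calc (2 * ell) ^ (2 * (x + 1 + 1)) < (2 ^ (x + 2)) ^ (2 * (x + 1 + 1)) := by
          refine Nat.pow_lt_pow_left ?_ (by omega)
          rw [pow_succ 2 (x + 1)]
          omega
      _ = 2 ^ (2 * (x + 2) ^ 2) := by
          rw [← pow_mul]
          congr 1
          ring
      _ ≤ 2 ^ (ell - 1) := Nat.pow_le_pow_right (by norm_num) (by omega)
  have h2 : (2 * ell) ^ (2 * (x + 1 + 1)) < n := lt_of_lt_of_le h1 hnl
  exact_mod_cast h2

/-- The logarithm and the binary logarithm. -/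
lemma log_le_ell (hn : 2 ≤ n) : Real.log n ≤ ((Nat.log 2 n + 1 : ℕ) : ℝ) := by
  have hn0 : (0 : ℝ) < n := by
    have : 0 < n := by omega
    exact_mod_cast this
  have h1 : n < 2 ^ (Nat.log 2 n + 1) := Nat.lt_pow_succ_log_self (by norm_num) n
  have h2 : (n : ℝ) ≤ 2 ^ (Nat.log 2 n + 1) := by exact_mod_cast h1.le
  have h3 : Real.log n ≤ Real.log ((2 : ℝ) ^ (Nat.log 2 n + 1)) := Real.log_le_log hn0 h2
  rw [Real.log_pow] at h3
  have h4 : Real.log 2 ≤ 1 := by
    have := Real.log_two_lt_d9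
    linarith
  have h5 : (0 : ℝ) ≤ ((Nat.log 2 n + 1 : ℕ) : ℝ) := by positivity
  have h6 : ((Nat.log 2 n + 1 : ℕ) : ℝ) * Real.log 2 ≤ ((Nat.log 2 n + 1 : ℕ) : ℝ) * 1 :=
    mul_le_mul_of_nonneg_left h4 h5
  linarith

/-- The main theorem: `p_c ≤ C (log n)^{5/3} p_E` for all graphs `H`. -/
theorem pCrit_five_thirds (hn : 2 ≤ n) (hV : Fintype.card V ≤ n) (hE : 1 ≤ numEdges H) :
    pCrit n H ≤ (82944 * constH + 3456 * constC + 8064 * constC) *
      (Real.log n) ^ ((5 : ℝ) / 3) * pExp n H := by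
  have hC := constC_pos
  have hC0 : 0 < constH := by have := constH_ge; linarith
  have hL : 0 < Real.log n := Real.log_pos (by exact_mod_cast (by omega : 1 < n))
  have hn0 : (0 : ℝ) < n := by
    have : 0 < n := by omega
    exact_mod_cast this
  obtain ⟨hp0, _, _⟩ := pExp_mem (H := H) hV
  obtain ⟨LL, hLL⟩ : ∃ LL : ℝ, LL = (Real.log n) ^ ((5 : ℝ) / 3) := ⟨_, rfl⟩
  have hLL0 : 0 ≤ LL := by
    rw [hLL]
    positivity
  rw [← hLL]
  have hq0 : 0 ≤ LL * pExp n H := mul_nonneg hLL0 hp0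
  have hK1 : 82944 * constH ≤ 82944 * constH + 3456 * constC + 8064 * constC := by linarith
  have hK2 : 3456 * constC ≤ 82944 * constH + 3456 * constC + 8064 * constC := by linarith
  have hK3 : 8064 * constC ≤ 82944 * constH + 3456 * constC + 8064 * constC := by linarith
  by_cases hd : Real.log n / n ≤ pExp n H
  · have h1 := pCrit_dense hn hV hE
    rw [max_eq_left hd, ← hLL] at h1
    refine h1.trans ?_
    have e1 : (82944 * constH + 3456 * constC + 8064 * constC) * LL * pExp n H =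
        (82944 * constH + 3456 * constC + 8064 * constC) * (LL * pExp n H) := by ring
    have e2 : 3456 * constC * LL * pExp n H = (3456 * constC) * (LL * pExp n H) := by ring
    rw [e1, e2]
    exact mul_le_mul_of_nonneg_right hK2 hq0
  push Not at hd
  by_cases hell : 256 ≤ Nat.log 2 n + 1
  · -- the expected degree is small
    have hell2 : Real.log n ≤ ((Nat.log 2 n + 1 : ℕ) : ℝ) := log_le_ell hn
    have hA : 2 * ((n : ℝ) * pExp n H) ≤ ((2 * (Nat.log 2 n + 1) : ℕ) : ℝ) := by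
      have h1 : (n : ℝ) * pExp n H ≤ Real.log n := by
        rw [lt_div_iff₀ hn0] at hd
        rw [mul_comm]
        exact hd.le
      have e1 : ((2 * (Nat.log 2 n + 1) : ℕ) : ℝ) = 2 * ((Nat.log 2 n + 1 : ℕ) : ℝ) := by
        push_cast
        ring
      rw [e1]
      linarith
    have h1 := pCrit_small hn hV hE hA (big_of_ell hn hell)
    rw [← hLL] at h1
    refine h1.trans ?_
    have e1 : (82944 * constH + 3456 * constC + 8064 * constC) * LL * pExp n H =
        (82944 * constH + 3456 * constC + 8064 * constC) * (LL * pExp n H) := by ring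
    have e2 : 82944 * constH * LL * pExp n H = (82944 * constH) * (LL * pExp n H) := by ring
    rw [e1, e2]
    exact mul_le_mul_of_nonneg_right hK1 hq0
  · -- finitely many values of the logarithm
    have h1 := pCrit_le_log_sq hn hV hE
    refine h1.trans ?_
    push Not at hell
    have hell2 : Real.log n ≤ 256 := by
      have h3 := log_le_ell hn
      have h5 : ((Nat.log 2 n + 1 : ℕ) : ℝ) ≤ ((256 : ℕ) : ℝ) := Nat.cast_le.mpr hell.le
      have h6 : ((256 : ℕ) : ℝ) = 256 := by norm_num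
      linarith
    have hroot : (Real.log n) ^ ((1 : ℝ) / 3) ≤ 7 := by
      calc (Real.log n) ^ ((1 : ℝ) / 3) ≤ (343 : ℝ) ^ ((1 : ℝ) / 3) :=
            Real.rpow_le_rpow hL.le (by linarith) (by norm_num)
        _ = 7 := by
            have : (343 : ℝ) = 7 ^ (3 : ℝ) := by norm_num
            rw [this, ← Real.rpow_mul (by norm_num)]
            norm_num
    have hsq : (Real.log n) ^ 2 ≤ 7 * LL := by
      have e1 : (Real.log n) ^ 2 = (Real.log n) ^ ((1 : ℝ) / 3) * LL := by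
        rw [hLL, ← Real.rpow_add hL, ← Real.rpow_natCast]
        norm_num
      rw [e1]
      exact mul_le_mul_of_nonneg_right hroot hLL0
    have e1 : (82944 * constH + 3456 * constC + 8064 * constC) * LL * pExp n H =
        (82944 * constH + 3456 * constC + 8064 * constC) * (LL * pExp n H) := by ring
    calc 1152 * constC * (Real.log n) ^ 2 * pExp n H
        ≤ 1152 * constC * (7 * LL) * pExp n H := by
          refine mul_le_mul_of_nonneg_right ?_ hp0
          exact mul_le_mul_of_nonneg_left hsq (by positivity)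
      _ = (8064 * constC) * (LL * pExp n H) := by ring
      _ ≤ _ := by
          rw [e1]
          exact mul_le_mul_of_nonneg_right hK3 hq0

end Vale.Agent.Lib.P064k
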