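import Mathlib

/-!
The planted domination lemma, in terms of permutations of the vertex set.
-/

namespace Vale.Agent.Lib.P064k

open Finset
open scoped Classical Nat

set_option linter.unusedSectionVars false
set_option linter.unusedVariables false

variable {V : Type*} [Fintype V]

/-- The permutations sending the set of pairs `B` into the set of pairs `E`. -/
noncomputable def intoP (E B : Finset (Sym2 V)) : Finset (Equiv.Perm V) :=
  Finset.univ.filter (fun σ => ∀ e ∈ B, Sym2.map σ e ∈ E)

/-- The number of permutations sending `B` into `E`. -/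
noncomputable def mm (E B : Finset (Sym2 V)) : ℕ := (intoP E B).card

lemma mem_intoP {E B : Finset (Sym2 V)} {σ : Equiv.Perm V} :
    σ ∈ intoP E B ↔ ∀ e ∈ B, Sym2.map σ e ∈ E := by
  simp [intoP]

lemma mm_empty_right (E : Finset (Sym2 V)) : mm E ∅ = (Fintype.card V)! := by
  unfold mm intoP
  simp [Fintype.card_perm]

lemma mm_empty_left {B : Finset (Sym2 V)} (hB : B.Nonempty) : mm ∅ B = 0 := by
  unfold mm
  rw [Finset.card_eq_zero]
  refine Finset.eq_empty_of_forall_notMem fun σ hσ => ?_
  obtain ⟨e, he⟩ := hB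
  have := mem_intoP.mp hσ e he
  simp at this

lemma mm_mono_left {E E' : Finset (Sym2 V)} (h : E ⊆ E') (B : Finset (Sym2 V)) :
    mm E B ≤ mm E' B := by
  refine Finset.card_le_card fun σ hσ => mem_intoP.mpr fun e he => h (mem_intoP.mp hσ e he)

lemma mm_anti_right (E : Finset (Sym2 V)) {B B' : Finset (Sym2 V)} (h : B ⊆ B') :
    mm E B' ≤ mm E B := by
  refine Finset.card_le_card fun σ hσ => mem_intoP.mpr fun e he => mem_intoP.mp hσ e (h he)

lemma map_mul_eq (σ τ : Equiv.Perm V) (e : Sym2 V) :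
    Sym2.map (σ * τ) e = Sym2.map σ (Sym2.map τ e) := by
  induction e using Sym2.ind with
  | _ a b => simp

lemma map_one_eq (e : Sym2 V) : Sym2.map (1 : Equiv.Perm V) e = e := by
  induction e using Sym2.ind with
  | _ a b => simp

lemma map_perm_inj (σ : Equiv.Perm V) : Function.Injective (Sym2.map σ) :=
  Sym2.map.injective σ.injective

/-- The image of a set of pairs under a permutation. -/
noncomputable def imgP (σ : Equiv.Perm V) (B : Finset (Sym2 V)) : Finset (Sym2 V) :=
  B.image (Sym2.map σ)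

lemma card_imgP (σ : Equiv.Perm V) (B : Finset (Sym2 V)) : (imgP σ B).card = B.card :=
  Finset.card_image_of_injective _ (map_perm_inj σ)

/-- The count is invariant under permuting the pattern. -/
lemma mm_imgP (E : Finset (Sym2 V)) (σ : Equiv.Perm V) (B : Finset (Sym2 V)) :
    mm E (imgP σ B) = mm E B := by
  unfold mm
  refine Finset.card_bij' (fun τ _ => τ * σ) (fun τ _ => τ * σ⁻¹) ?_ ?_ ?_ ?_
  · intro τ hτ
    refine mem_intoP.mpr fun e he => ?_
    rw [map_mul_eq]
    exact mem_intoP.mp hτ _ (Finset.mem_image_of_mem _ he)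
  · intro τ hτ
    refine mem_intoP.mpr fun e he => ?_
    obtain ⟨e', he', rfl⟩ := Finset.mem_image.mp he
    rw [← map_mul_eq, inv_mul_cancel_right]
    exact mem_intoP.mp hτ e' he'
  · intro τ _
    simp
  · intro τ _
    simp

/-- The basic identity. -/
theorem key_identity (H F W : Finset (Sym2 V)) :
    mm H F * mm H W = ∑ π : Equiv.Perm V, mm H (F ∪ imgP π W) := by
  have h1 : ∀ π : Equiv.Perm V, mm H (F ∪ imgP π W) =
      ∑ σ ∈ intoP H F, if σ * π ∈ intoP H W then 1 else 0 := by
    intro π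
    unfold mm
    rw [Finset.sum_boole, Nat.cast_id]
    congr 1
    ext σ
    simp only [mem_intoP, Finset.mem_filter, Finset.mem_union, imgP]
    constructor
    · intro h
      refine ⟨fun e he => h e (Or.inl he), fun e he => ?_⟩
      rw [map_mul_eq]
      exact h _ (Or.inr (Finset.mem_image_of_mem _ he))
    · rintro ⟨h2, h3⟩ e (he | he)
      · exact h2 e he
      · obtain ⟨e', he', rfl⟩ := Finset.mem_image.mp he
        rw [← map_mul_eq]
        exact h3 e' he'
  simp_rw [h1]
  rw [Finset.sum_comm]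
  have h2 : ∀ σ ∈ intoP H F,
      ∑ π : Equiv.Perm V, (if σ * π ∈ intoP H W then 1 else 0) = mm H W := by
    intro σ _
    unfold mm
    rw [Finset.sum_boole, Nat.cast_id]
    refine Finset.card_bij' (fun π _ => σ * π) (fun τ _ => σ⁻¹ * τ) ?_ ?_ ?_ ?_
    · intro π hπ
      exact (Finset.mem_filter.mp hπ).2
    · intro τ hτ
      refine Finset.mem_filter.mpr ⟨Finset.mem_univ _, ?_⟩
      simpa using hτ
    · intro π _
      simp
    · intro τ _
      simp
  rw [Finset.sum_congr rfl h2, Finset.sum_const, smul_eq_mul]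
  rfl

/-- The extremal subset. -/
theorem exists_extremal (H : Finset (Sym2 V)) {p : ℝ} (hp : 0 < p) :
    ∃ F ⊆ H, ∀ S : Finset (Sym2 V), (mm H S : ℝ) * p ^ F.card ≤ (mm H F : ℝ) * p ^ S.card := by
  obtain ⟨F, hF, hmax⟩ := Finset.exists_max_image H.powerset
    (fun S => (mm H S : ℝ) / p ^ S.card) ⟨∅, Finset.empty_mem_powerset H⟩
  refine ⟨F, Finset.mem_powerset.mp hF, fun S => ?_⟩
  have hp1 : ∀ k : ℕ, 0 < p ^ k := fun k => pow_pos hp k
  by_cases hS : mm H S = 0
  · rw [hS]
    simp only [Nat.cast_zero, zero_mul]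
    positivity
  · have hne : (intoP H S).Nonempty := Finset.card_pos.mp (Nat.pos_of_ne_zero hS)
    obtain ⟨σ, hσ⟩ := hne
    have h1 : imgP σ S ∈ H.powerset := by
      refine Finset.mem_powerset.mpr fun e he => ?_
      obtain ⟨e', he', rfl⟩ := Finset.mem_image.mp he
      exact mem_intoP.mp hσ e' he'
    have h2 := hmax _ h1
    beta_reduce at h2
    rw [mm_imgP, card_imgP, div_le_div_iff₀ (hp1 _) (hp1 _)] at h2
    exact h2

/-- The planted domination bound. -/
theorem planted {H F : Finset (Sym2 V)} {p : ℝ} (hp : 0 < p) (hFH : F ⊆ H)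
    (hF : ∀ S : Finset (Sym2 V), (mm H S : ℝ) * p ^ F.card ≤ (mm H F : ℝ) * p ^ S.card)
    (hpos : 0 < mm H F) (W : Finset (Sym2 V)) :
    (mm H W : ℝ) ≤ ∑ A ∈ W.powerset, p ^ (W.card - A.card) * (mm F A : ℝ) := by
  have hpos' : (0 : ℝ) < mm H F := by exact_mod_cast hpos
  -- the overlap of the image of `W` with `F`
  set ov : Equiv.Perm V → Finset (Sym2 V) := fun π => W.filter (fun e => Sym2.map π e ∈ F) with hov
  have hcard : ∀ π : Equiv.Perm V, (F ∪ imgP π W).card = F.card + (W.card - (ov π).card) := by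
    intro π
    have h1 : (F ∪ imgP π W).card = F.card + (imgP π W \ F).card := by
      rw [Finset.union_comm, ← Finset.sdiff_union_self_eq_union, Finset.card_union_of_disjoint
        Finset.sdiff_disjoint, add_comm]
    have h2 : (imgP π W \ F) = (W.filter (fun e => ¬ Sym2.map π e ∈ F)).image (Sym2.map π) := by
      ext e
      simp only [imgP, Finset.mem_sdiff, Finset.mem_image, Finset.mem_filter]
      constructor
      · rintro ⟨⟨a, ha, rfl⟩, h⟩
        exact ⟨a, ⟨ha, h⟩, rfl⟩
      · rintro ⟨a, ⟨ha, h⟩, rfl⟩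
        exact ⟨⟨a, ha, rfl⟩, h⟩
    have h3 : (imgP π W \ F).card = (W.filter (fun e => ¬ Sym2.map π e ∈ F)).card := by
      rw [h2, Finset.card_image_of_injective _ (map_perm_inj π)]
    have h4 : (ov π).card + (W.filter (fun e => ¬ Sym2.map π e ∈ F)).card = W.card :=
      Finset.card_filter_add_card_filter_not _
    rw [h1, h3]
    omega
  have h1 : ∀ π : Equiv.Perm V, (mm H (F ∪ imgP π W) : ℝ) ≤
      (mm H F : ℝ) * p ^ (W.card - (ov π).card) := by
    intro π
    have h2 := hF (F ∪ imgP π W)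
    rw [hcard, pow_add] at h2
    have h3 : (0 : ℝ) < p ^ F.card := pow_pos hp _
    have h4 : (mm H (F ∪ imgP π W) : ℝ) * p ^ F.card ≤
        ((mm H F : ℝ) * p ^ (W.card - (ov π).card)) * p ^ F.card := by
      calc _ ≤ _ := h2
        _ = _ := by ring
    exact le_of_mul_le_mul_right h4 h3
  have h2 : (mm H F : ℝ) * (mm H W : ℝ) ≤
      (mm H F : ℝ) * ∑ π : Equiv.Perm V, p ^ (W.card - (ov π).card) := by
    have h3 : ((mm H F * mm H W : ℕ) : ℝ) = ∑ π : Equiv.Perm V, (mm H (F ∪ imgP π W) : ℝ) := by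
      rw [key_identity]
      push_cast
      rfl
    push_cast at h3
    rw [h3, Finset.mul_sum]
    exact Finset.sum_le_sum fun π _ => h1 π
  have h3 : (mm H W : ℝ) ≤ ∑ π : Equiv.Perm V, p ^ (W.card - (ov π).card) :=
    le_of_mul_le_mul_left h2 hpos'
  refine h3.trans ?_
  -- group by the overlap
  have h4 : ∀ π ∈ (Finset.univ : Finset (Equiv.Perm V)), ov π ∈ W.powerset := fun π _ =>
    Finset.mem_powerset.mpr (Finset.filter_subset _ _)
  rw [← Finset.sum_fiberwise_of_maps_to h4]
  refine Finset.sum_le_sum fun A hA => ?_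
  have h5 : ∑ π ∈ (Finset.univ : Finset (Equiv.Perm V)).filter (fun π => ov π = A),
      p ^ (W.card - (ov π).card) =
      (((Finset.univ : Finset (Equiv.Perm V)).filter (fun π => ov π = A)).card : ℝ) *
        p ^ (W.card - A.card) := by
    rw [Finset.sum_congr rfl (g := fun _ => p ^ (W.card - A.card))]
    · rw [Finset.sum_const, nsmul_eq_mul]
    · intro π hπ
      rw [(Finset.mem_filter.mp hπ).2]
  rw [h5, mul_comm]
  refine mul_le_mul_of_nonneg_left ?_ (pow_pos hp _).le
  have h6 : (Finset.univ : Finset (Equiv.Perm V)).filter (fun π => ov π = A) ⊆ intoP F A := by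
    intro π hπ
    refine mem_intoP.mpr fun e he => ?_
    have h7 := (Finset.mem_filter.mp hπ).2
    rw [← h7] at he
    exact (Finset.mem_filter.mp he).2
  exact_mod_cast Finset.card_le_card h6

end Vale.Agent.Lib.P064k
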