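import Vale.Agent.Lib.P064k.Dense

/-!
The spread lemma for a general bound on embeddings, and the resulting bound for `p_c`.
-/

namespace Vale.Agent.Lib.P064k

open Finset SimpleGraph Vale.Agent.Lib.P064
open scoped Classical Nat

set_option linter.unusedSectionVars false
set_option linter.unusedVariables false

universe v

variable {V : Type v} [Fintype V] {n : ℕ} {H : SimpleGraph V}

/-- A bound for embeddings of all graphs. -/
def EmbBound (H : SimpleGraph V) (n : ℕ) (s : ℝ) : Prop :=
  ∀ (Z : Type) [Fintype Z] (F : SimpleGraph Z),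
    ((Emb F H Finset.univ).card : ℝ) ≤ (n.descFactorial (Fintype.card Z) : ℝ) * s ^ numEdges F

/-- The labelled copies of `H` form a spread family. -/
theorem spread_copies' {s : ℝ} (hs : 0 < s) (hV : Fintype.card V ≤ n) (hbd : EmbBound H n s)
    (S : Finset (XE n)) :
    (((Finset.univ : Finset (V ↪ Fin n)).filter (fun e => S ⊆ copyPairs H e)).card : ℝ) ≤
      s ^ S.card * (Fintype.card (V ↪ Fin n) : ℝ) := by
  set Z : Finset (Fin n) := vertsOf (S.image Subtype.val) with hZ
  set F : SimpleGraph Z := spanGraph S with hF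
  set T := Emb F H Finset.univ with hT
  set k := Z.card with hk
  have hcardZ : Fintype.card Z = k := Fintype.card_coe _
  set fib : (Z → V) → Finset (V ↪ Fin n) :=
    fun g => (Finset.univ : Finset (V ↪ Fin n)).filter (fun e => ∀ z, e (g z) = z.1) with hfib
  have hsub : (Finset.univ : Finset (V ↪ Fin n)).filter (fun e => S ⊆ copyPairs H e) ⊆
      T.biUnion fib := by
    intro e he
    have hSe := (Finset.mem_filter.mp he).2
    -- every vertex of `Z` is in the image of `e`
    have hcover : ∀ z : Z, ∃ w, e w = z.1 := by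
      intro z
      obtain ⟨x, hx, hzx⟩ := mem_vertsOf.mp z.2
      obtain ⟨x', hx', rfl⟩ := Finset.mem_image.mp hx
      obtain ⟨y, _, hy⟩ := mem_copyPairs.mp (hSe hx')
      rw [← hy] at hzx
      obtain ⟨w, _, hw⟩ := Sym2.mem_map.mp hzx
      exact ⟨w, hw⟩
    choose g hg using hcover
    refine Finset.mem_biUnion.mpr ⟨g, ?_, Finset.mem_filter.mpr ⟨Finset.mem_univ _, hg⟩⟩
    refine mem_Emb.mpr ⟨?_, ?_, fun _ => Finset.mem_univ _⟩
    · intro a b hab
      apply Subtype.ext
      rw [← hg a, ← hg b, hab]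
    · intro a b hab
      obtain ⟨x', hx', hxeq⟩ := Finset.mem_image.mp hab
      obtain ⟨y, hy, hyeq⟩ := mem_copyPairs.mp (hSe hx')
      rw [hxeq] at hyeq
      induction y using Sym2.ind with
      | _ u v =>
        have huv : H.Adj u v := hy
        simp only [Sym2.map_mk] at hyeq
        rcases Sym2.eq_iff.mp hyeq with ⟨h1, h2⟩ | ⟨h1, h2⟩
        · have h3 : g a = u := e.injective ((hg a).trans h1.symm)
          have h4 : g b = v := e.injective ((hg b).trans h2.symm)
          rw [h3, h4]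
          exact huv
        · have h3 : g a = v := e.injective ((hg a).trans h2.symm)
          have h4 : g b = u := e.injective ((hg b).trans h1.symm)
          rw [h3, h4]
          exact huv.symm
  by_cases hTne : T.Nonempty
  swap
  · rw [Finset.not_nonempty_iff_eq_empty] at hTne
    rw [hTne, Finset.biUnion_empty, Finset.subset_empty] at hsub
    rw [hsub]
    simp only [Finset.card_empty, Nat.cast_zero]
    positivity
  have hkV : k ≤ Fintype.card V := by
    obtain ⟨g, hg⟩ := hTne
    have := Fintype.card_le_of_injective g (mem_Emb.mp hg).1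
    rwa [hcardZ] at this
  have hcount := Finset.card_le_card hsub
  have hbi := Finset.card_biUnion_le_card_mul T fib
    ((n - k).descFactorial (Fintype.card V - k)) (fun g hg => fib_card_le g (mem_Emb.mp hg).1)
  have hfin := hcount.trans hbi
  have hmain := hbd Z F
  rw [hF, numEdges_spanGraph, hcardZ] at hmain
  have hT2 : (T.card : ℝ) ≤ (n.descFactorial k : ℝ) * s ^ S.card := hmain
  have hcardE : (Fintype.card (V ↪ Fin n) : ℝ) = (n.descFactorial (Fintype.card V) : ℝ) := by
    have h := Fintype.card_embedding_eq (α := V) (β := Fin n)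
    rw [Fintype.card_fin] at h
    rw [h]
  have hdesc : (n - k).descFactorial (Fintype.card V - k) * n.descFactorial k =
      n.descFactorial (Fintype.card V) := Nat.descFactorial_mul_descFactorial hkV
  rw [hcardE, ← hdesc]
  have hfinR : (((Finset.univ : Finset (V ↪ Fin n)).filter (fun e => S ⊆ copyPairs H e)).card : ℝ) ≤
      (T.card : ℝ) * ((n - k).descFactorial (Fintype.card V - k) : ℝ) := by
    exact_mod_cast hfin
  refine hfinR.trans ?_
  push_cast
  calc (T.card : ℝ) * ((n - k).descFactorial (Fintype.card V - k) : ℝ)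
      ≤ ((n.descFactorial k : ℝ) * s ^ S.card) *
          ((n - k).descFactorial (Fintype.card V - k) : ℝ) :=
        mul_le_mul_of_nonneg_right hT2 (by positivity)
    _ = _ := by ring

/-- `G(n,p)` contains a copy of `H` with probability at least one half. -/
theorem gnp_half' {s p : ℝ} (hs0 : 0 < s) (hV : Fintype.card V ≤ n) (hbd : EmbBound H n s)
    (hp : s * (32 * ((Nat.log 2 (numEdges H) : ℝ) + 1)) ≤ p) (hp1 : p ≤ 1) :
    1 / 2 ≤ gnpProb n p (fun G => 0 < G.copyCount H) := by
  set N : ℝ := (Fintype.card (V ↪ Fin n) : ℝ) with hN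
  have hemb : Nonempty (V ↪ Fin n) :=
    Function.Embedding.nonempty_of_card_le (by rwa [Fintype.card_fin])
  have hN0 : 0 < N := by
    rw [hN]
    exact_mod_cast Fintype.card_pos
  have h1 : ((Finset.univ : Finset (V ↪ Fin n)).card : ℝ) / N -
      (1 / 2 - (1 / 2) / ((numEdges H : ℝ) + 1)) ≤
      prE p (fun W => ∃ i ∈ (Finset.univ : Finset (V ↪ Fin n)), copyPairs H i ⊆ W) := by
    refine spread_main (numEdges H) (Finset.univ : Finset (V ↪ Fin n)) (copyPairs H) s N p hs0 hN0
      (fun e _ => copyPairs_card_le H e) ?_ hp hp1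
    intro S
    have h := spread_copies' hs0 hV hbd S
    refine le_trans (le_of_eq ?_) h
    congr 2
    ext x
    simp only [Finset.mem_filter]
  have hp0 : 0 ≤ p := by
    refine le_trans ?_ hp
    positivity
  have h2 : ((Finset.univ : Finset (V ↪ Fin n)).card : ℝ) / N = 1 := by
    rw [Finset.card_univ, div_self hN0.ne']
  rw [h2] at h1
  rw [gnpProb_eq]
  have h3 : prE p (fun W => ∃ i ∈ (Finset.univ : Finset (V ↪ Fin n)), copyPairs H i ⊆ W) ≤
      prE p (fun W => 0 < (graphEquiv n W).copyCount H) := by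
    refine prE_mono hp0 hp1 ?_
    rintro W ⟨e, _, he⟩
    exact copyCount_pos_of_pairs he
  have h4 : 0 ≤ (1 / 2) / ((numEdges H : ℝ) + 1) := by positivity
  linarith

/-- The bound `p_c ≤ 32 s (log e(H) + 1)`. -/
theorem pCrit_le_of_bound {s : ℝ} (hs0 : 0 < s) (hV : Fintype.card V ≤ n) (hbd : EmbBound H n s) :
    pCrit n H ≤ s * (32 * ((Nat.log 2 (numEdges H) : ℝ) + 1)) := by
  set Pstar := s * (32 * ((Nat.log 2 (numEdges H) : ℝ) + 1)) with hP
  have hPbd : BddBelow {p : ℝ | 0 ≤ p ∧ p ≤ 1 ∧ 1 / 2 ≤ gnpProb n p (fun G => 0 < G.copyCount H)} :=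
    ⟨0, fun p hp => hp.1⟩
  by_cases hP1 : Pstar ≤ 1
  · refine csInf_le hPbd ⟨by positivity, hP1, ?_⟩
    exact gnp_half' hs0 hV hbd le_rfl hP1
  · push Not at hP1
    have h1 : pCrit n H ≤ 1 :=
      csInf_le hPbd ⟨zero_le_one, le_rfl, gnp_one hV⟩
    linarith

/-- The bound `log₂ e(H) + 1 ≤ 6 log n`. -/
lemma log_edges_le (hn : 2 ≤ n) (hV : Fintype.card V ≤ n) (hE : 1 ≤ numEdges H) :
    (Nat.log 2 (numEdges H) : ℝ) + 1 ≤ 6 * Real.log n := by
  have hell3 : ((Nat.log 2 n + 1 : ℕ) : ℝ) ≤ 3 * Real.log n := natLog_le_realLog hn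
  have hr0 : numEdges H ≠ 0 := by omega
  have hlt : n < 2 ^ (Nat.log 2 n + 1) := Nat.lt_pow_succ_log_self (by norm_num) n
  have h1 : numEdges H < 2 ^ (2 * (Nat.log 2 n + 1)) := by
    calc numEdges H ≤ (Fintype.card V) ^ 2 := numEdges_le_sq H
      _ ≤ n ^ 2 := Nat.pow_le_pow_left hV 2
      _ < (2 ^ (Nat.log 2 n + 1)) ^ 2 := Nat.pow_lt_pow_left hlt (by norm_num)
      _ = _ := by rw [← pow_mul]; congr 1; ring
  have h2 : Nat.log 2 (numEdges H) < 2 * (Nat.log 2 n + 1) := Nat.log_lt_of_lt_pow hr0 h1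
  have h3 : Nat.log 2 (numEdges H) + 1 ≤ 2 * (Nat.log 2 n + 1) := h2
  have h4 : ((Nat.log 2 (numEdges H) + 1 : ℕ) : ℝ) ≤ ((2 * (Nat.log 2 n + 1) : ℕ) : ℝ) := by
    exact_mod_cast h3
  push_cast at h4 hell3
  linarith

/-- The hypothesis with `1` in place of `1/2`, at the double density. -/
lemma hyp_double (hV : Fintype.card V ≤ n) (hE : 1 ≤ numEdges H) {q : ℝ} (hq0 : 0 ≤ q)
    (hq : ∀ F : H.Subgraph, 1 / 2 ≤ expCopies n q F.coe) :
    0 < q ∧ ∀ F : H.Subgraph, 1 ≤ expCopies n (2 * q) F.coe := by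
  have hqpos : 0 < q := by
    rcases hq0.lt_or_eq with h | h
    · exact h
    · exfalso
      have h1 := hq ⊤
      rw [← h] at h1
      unfold expCopies at h1
      have h2 : numEdges (⊤ : H.Subgraph).coe = numEdges H := by
        rw [numEdges_coe, Subgraph.edgeSet_top]
        rfl
      rw [h2, zero_pow (by omega), mul_zero] at h1
      norm_num at h1
  refine ⟨hqpos, fun F => ?_⟩
  unfold expCopies
  have hcard : Fintype.card F.verts ≤ n := (Fintype.card_subtype_le _).trans hV
  have hcop : (1 : ℝ) ≤ ((⊤ : SimpleGraph (Fin n)).copyCount F.coe : ℝ) := by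
    exact_mod_cast one_le_copyCount_top F.coe hcard
  by_cases he : numEdges F.coe = 0
  · rw [he, pow_zero, mul_one]
    exact hcop
  · have h1 := hq F
    unfold expCopies at h1
    have h2 : (2 : ℝ) ≤ 2 ^ numEdges F.coe := by
      calc (2 : ℝ) = 2 ^ 1 := by norm_num
        _ ≤ _ := pow_le_pow_right₀ (by norm_num) (by omega)
    have h3 : (2 * q) ^ numEdges F.coe = 2 ^ numEdges F.coe * q ^ numEdges F.coe := mul_pow _ _ _
    rw [h3]
    have h4 : 0 ≤ ((⊤ : SimpleGraph (Fin n)).copyCount F.coe : ℝ) * q ^ numEdges F.coe := by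
      positivity
    calc (1 : ℝ) = 2 * (1 / 2) := by norm_num
      _ ≤ 2 * (((⊤ : SimpleGraph (Fin n)).copyCount F.coe : ℝ) * q ^ numEdges F.coe) :=
          mul_le_mul_of_nonneg_left h1 (by norm_num)
      _ ≤ 2 ^ numEdges F.coe * (((⊤ : SimpleGraph (Fin n)).copyCount F.coe : ℝ) *
            q ^ numEdges F.coe) := mul_le_mul_of_nonneg_right h2 h4
      _ = _ := by ring

/-- The set defining `p_E` is nonempty. -/
lemma pExp_set_nonempty (hV : Fintype.card V ≤ n) :
    {p : ℝ | 0 ≤ p ∧ p ≤ 1 ∧ ∀ F : H.Subgraph, 1 / 2 ≤ expCopies n p F.coe}.Nonempty := by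
  refine ⟨1, zero_le_one, le_rfl, fun F => ?_⟩
  unfold expCopies
  have hcard : Fintype.card F.verts ≤ n := (Fintype.card_subtype_le _).trans hV
  have hcop : (1 : ℝ) ≤ ((⊤ : SimpleGraph (Fin n)).copyCount F.coe : ℝ) := by
    exact_mod_cast one_le_copyCount_top F.coe hcard
  rw [one_pow, mul_one]
  linarith

end Vale.Agent.Lib.P064k
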