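import Vale.Agent.Lib.P064k.Host

/-!
Removal of isolated vertices from a bound on embeddings.
-/

namespace Vale.Agent.Lib.P064k

open Finset SimpleGraph Vale.Agent.Lib.P064
open scoped Classical Nat

set_option linter.unusedSectionVars false
set_option linter.unusedVariables false

universe u v

variable {V : Type v} [Fintype V]

/-- A bound for graphs without isolated vertices extends to all graphs. -/
theorem emb_strip {H : SimpleGraph V} {n : ℕ} {s : ℝ} (hs : 0 ≤ s) (hV : Fintype.card V ≤ n)
    (hno : ∀ (Z : Type u) [Fintype Z] (F : SimpleGraph Z), (∀ z, ∃ y, F.Adj z y) →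
      ((Emb F H Finset.univ).card : ℝ) ≤ (n.descFactorial (Fintype.card Z) : ℝ) * s ^ numEdges F) :
    ∀ (k : ℕ) (Z : Type u) [Fintype Z] (F : SimpleGraph Z), Fintype.card Z = k →
      ((Emb F H Finset.univ).card : ℝ) ≤ (n.descFactorial k : ℝ) * s ^ numEdges F := by
  intro k
  induction k with
  | zero =>
    intro Z _ F hZ
    have hE : IsEmpty Z := Fintype.card_eq_zero_iff.mp hZ
    have h1 : (Emb F H Finset.univ).card ≤ 1 := by
      refine Finset.card_le_one.mpr ?_
      intro a _ b _
      funext z
      exact hE.elim z
    have h2 : numEdges F = 0 := by
      unfold numEdges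
      have : F.edgeSet = ∅ := by
        ext e
        induction e using Sym2.ind with
        | _ a b => exact hE.elim a
      rw [this, Set.ncard_empty]
    rw [h2]
    simp only [Nat.descFactorial_zero, Nat.cast_one, pow_zero, mul_one]
    exact_mod_cast h1
  | succ k ih =>
    intro Z _ F hZ
    by_cases hno' : ∀ z, ∃ y, F.Adj z y
    · have := hno Z F hno'
      rwa [hZ] at this
    · push Not at hno'
      obtain ⟨z₀, hz₀⟩ := hno'
      set Z' := {z : Z // z ≠ z₀} with hZ'
      set F' : SimpleGraph Z' := F.comap Subtype.val with hF'
      have hZ'card : Fintype.card Z' = k := by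
        have h1 : Fintype.card {z : Z // z ≠ z₀} = Fintype.card Z - 1 := by
          have h2 : Fintype.card {z : Z // z ≠ z₀} = (Finset.univ.erase z₀).card := by
            rw [Fintype.card_subtype]
            congr 1
            ext z
            simp
          rw [h2, Finset.card_erase_of_mem (Finset.mem_univ _), Finset.card_univ]
        rw [hZ, Nat.add_sub_cancel] at h1
        convert h1 using 1
      have hih := ih Z' F' hZ'card
      -- the injection
      have hcount : (Emb F H Finset.univ).card ≤ (Emb F' H Finset.univ).card * (n - k) := by
        set T : Finset (Σ _ : (Z' → V), V) := (Emb F' H Finset.univ).sigma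
          (fun g => Finset.univ \ (Finset.univ.image g)) with hT
        have h1 : (Emb F H Finset.univ).card ≤ T.card := by
          refine Finset.card_le_card_of_injOn (fun f => ⟨fun z => f z.val, f z₀⟩) ?_ ?_
          · intro f hf
            have hf' := Finset.mem_coe.mp hf
            rcases mem_Emb.mp hf' with ⟨h2, h3, _⟩
            refine Finset.mem_coe.mpr (Finset.mem_sigma.mpr ⟨?_, ?_⟩)
            · refine mem_Emb.mpr ⟨?_, ?_, fun _ => Finset.mem_univ _⟩
              · intro a b hab
                exact Subtype.ext (h2 hab)
              · intro a b hab
                exact h3 _ _ hab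
            · refine Finset.mem_sdiff.mpr ⟨Finset.mem_univ _, ?_⟩
              intro h4
              obtain ⟨a, _, ha⟩ := Finset.mem_image.mp h4
              exact a.property (h2 ha)
          · intro f _ g _ hfg
            simp only [Sigma.mk.injEq, heq_eq_eq] at hfg
            funext z
            by_cases hz : z = z₀
            · rw [hz]; exact hfg.2
            · exact congrFun hfg.1 ⟨z, hz⟩
        refine h1.trans ?_
        rw [hT, Finset.card_sigma]
        have h2 : ∀ g ∈ Emb F' H Finset.univ,
            (Finset.univ \ (Finset.univ.image g)).card ≤ n - k := by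
          intro g hg
          rcases mem_Emb.mp hg with ⟨h3, _, _⟩
          rw [Finset.card_sdiff_of_subset (Finset.subset_univ _), Finset.card_image_of_injective _ h3,
            Finset.card_univ, Finset.card_univ, hZ'card]
          omega
        calc ∑ g ∈ Emb F' H Finset.univ, (Finset.univ \ (Finset.univ.image g)).card
            ≤ ∑ _g ∈ Emb F' H Finset.univ, (n - k) := Finset.sum_le_sum h2
          _ = _ := by rw [Finset.sum_const, smul_eq_mul]
      -- edges
      have hedges : numEdges F = numEdges F' := by
        unfold numEdges
        have h1 : F.edgeSet = Sym2.map Subtype.val '' F'.edgeSet := by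
          ext e
          induction e using Sym2.ind with
          | _ a b =>
            constructor
            · intro he
              have hab : F.Adj a b := he
              have ha : a ≠ z₀ := by
                rintro rfl
                exact hz₀ b hab
              have hb : b ≠ z₀ := by
                rintro rfl
                exact hz₀ a hab.symm
              exact ⟨s(⟨a, ha⟩, ⟨b, hb⟩), hab, rfl⟩
            · rintro ⟨e', he', h⟩
              induction e' using Sym2.ind with
              | _ a' b' =>
                have h2 : s(a'.1, b'.1) = s(a, b) := h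
                have h3 : F.Adj a'.1 b'.1 := he'
                have h4 : s(a'.1, b'.1) ∈ F.edgeSet := h3
                rw [h2] at h4
                exact h4
        rw [h1]
        exact Set.ncard_image_of_injective _ (Sym2.map.injective Subtype.val_injective)
      have hdesc : (n.descFactorial (k + 1) : ℝ) = ((n - k : ℕ) : ℝ) * (n.descFactorial k : ℝ) := by
        rw [Nat.descFactorial_succ]; push_cast; ring
      rw [hdesc]
      have h5 : ((Emb F H Finset.univ).card : ℝ)
          ≤ ((Emb F' H Finset.univ).card : ℝ) * ((n - k : ℕ) : ℝ) := by
        exact_mod_cast hcount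
      have h6 : (0 : ℝ) ≤ ((n - k : ℕ) : ℝ) := by positivity
      have h7 := mul_le_mul_of_nonneg_left hih h6
      rw [← hedges] at h7
      calc ((Emb F H Finset.univ).card : ℝ)
          ≤ ((Emb F' H Finset.univ).card : ℝ) * ((n - k : ℕ) : ℝ) := h5
        _ = ((n - k : ℕ) : ℝ) * ((Emb F' H Finset.univ).card : ℝ) := by ring
        _ ≤ _ := h7
        _ = _ := by ring

end Vale.Agent.Lib.P064k
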